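import Vale.Agent.P310.Odo

namespace Vale.Agent.P310

open Classical

variable {M : TM} {sd e : ℕ}

namespace Ctx

variable (X : Ctx M sd e)

def gsm : Gate X.sys → GSm sd M.extra e
  | .rule ρ => .rule ρ.1 ρ.2.1.1 ρ.2.2.1
  | .pair ρ s n => .pair ρ.1 ρ.2.1.1 ρ.2.2.1 s n
  | .fact => .fact

def glo : Gate X.sys → X.W × X.W
  | .rule ρ => (ρ.2.1.2, ρ.2.2.2)
  | .pair ρ _ _ => (ρ.2.1.2, ρ.2.2.2)
  | .fact => (0, 0)

theorem gate_inj {g g' : Gate X.sys} (h1 : X.gsm g = X.gsm g') (h2 : X.glo g = X.glo g') :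
    g = g' := by
  rcases g with ⟨σ, ⟨a, a'⟩, b, b'⟩ | ⟨⟨σ, ⟨a, a'⟩, b, b'⟩, s, n⟩ | _ <;>
  rcases g' with ⟨τ, ⟨c, c'⟩, d, d'⟩ | ⟨⟨τ, ⟨c, c'⟩, d, d'⟩, s', n'⟩ | _ <;>
  simp_all [gsm, glo]

def vsm : Vx X.sys → VSm sd M.extra e
  | .gad l val => .gad (X.gsm l.g) l.r val
  | .mk m => .mk (X.mq m)
  | .root => .root
  | .pend i => .pend i

def lo : Vx X.sys → Fin 5 → X.W
  | .gad l _ => ![0, (X.glo l.g).1, (X.glo l.g).2, l.a, l.b]
  | .mk m => ![0, X.mr m, 0, 0, 0]
  | _ => 0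

def dg (v : Vx X.sys) (κ : Fin 5) : X.W := if κ = 0 then X.cV (X.vsm v) else X.lo v κ

theorem mq_mr (m : Fin (5 * X.N' + 8 + 2)) : (X.mq m).val * (X.N' + 2) + (X.mr m).val = m := by
  have h : m.val / (X.N' + 2) < 5 := Nat.div_lt_of_lt_mul (by have := m.2; omega)
  simp only [mq, mr, Nat.mod_eq_of_lt h]
  exact Nat.div_add_mod' _ _

theorem mk_inj {m m' : Fin (5 * X.N' + 8 + 2)} (h1 : X.mq m = X.mq m') (h2 : X.mr m = X.mr m') :
    m = m' := by
  apply Fin.ext
  rw [← X.mq_mr m, ← X.mq_mr m', h1, h2]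

def mkm (t : Fin 5) (w : X.W) : Fin (5 * X.N' + 8 + 2) :=
  ⟨t.val * (X.N' + 2) + w.val, by
    have h1 := t.2
    have h2 := w.2
    have : t.val * (X.N' + 2) ≤ 4 * (X.N' + 2) := Nat.mul_le_mul_right _ (by omega)
    omega⟩

@[simp] theorem mq_mkm (t w) : X.mq (X.mkm t w) = t := by
  apply Fin.ext
  have : (t.val * (X.N' + 2) + w.val) / (X.N' + 2) = t.val := by
    rw [add_comm, Nat.add_mul_div_right _ _ (by omega), Nat.div_eq_of_lt w.2, zero_add]
  simp only [mq, mkm, this, Nat.mod_eq_of_lt t.2]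

@[simp] theorem mr_mkm (t w) : X.mr (X.mkm t w) = w := by
  apply Fin.ext
  simp only [mr, mkm]
  rw [add_comm, Nat.add_mul_mod_self_right, Nat.mod_eq_of_lt w.2]

theorem dg_inj : Function.Injective X.dg := by
  intro u v h
  have h0 := congrFun h 0
  have h1 := congrFun h 1
  have h2 := congrFun h 2
  have h3 := congrFun h 3
  have h4 := congrFun h 4
  simp only [dg, if_true, EmbeddingLike.apply_eq_iff_eq] at h0
  simp only [dg, Fin.reduceEq, if_false] at h1 h2 h3 h4
  cases u <;> cases v <;> simp only [vsm, reduceCtorEq, VSm.gad.injEq, VSm.mk.injEq,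
    VSm.pend.injEq] at h0
  · simp only [lo, Matrix.cons_val] at h1 h2 h3 h4
    obtain ⟨e1, e2, e3⟩ := h0
    rw [Loc.ext (X.gate_inj e1 (Prod.ext h1 h2)) e2 h3 h4, e3]
  · simp only [lo, Matrix.cons_val] at h1
    rw [X.mk_inj h0 h1]
  · rfl
  · rw [h0]

def cdig (l : Loc X.sys) (t : Fin 5) : X.W :=
  if t = 0 then X.cL (X.gsm l.g, l.r) else X.lo (.gad l 0) t

def code (l : Loc X.sys) (t : Fin 5) : Fin (X.sys.M + 2) := X.mkm t (X.cdig l t)

theorem code_inj {l l' t t'} (h : X.code l t = X.code l' t') :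
    t = t' ∧ X.cdig l t = X.cdig l' t' := by
  have h1 := congrArg (fun m : Fin (5 * X.N' + 8 + 2) => X.mq m) h
  have h2 := congrArg (fun m : Fin (5 * X.N' + 8 + 2) => X.mr m) h
  simp only [code, mq_mkm, mr_mkm] at h1 h2
  exact ⟨h1, h2⟩

theorem spoHyp {x} (h : CDer X.chs .acc (X.io 0) x) : SpoHyp X.sys X.code where
  hL := by show 1 < e + 5; omega
  hnxt r := nxt_ne r
  hnxt2 r := nxt_nxt_ne r
  hcode1 l t t' h := (X.code_inj h).1
  hcode l l' h := by
    have key : ∀ t, X.cdig l' t = X.cdig l t := fun t => by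
      obtain ⟨t', h⟩ := h t
      obtain ⟨rfl, h⟩ := X.code_inj h
      exact h
    have h0 := key 0
    have h1 := key 1
    have h2 := key 2
    have h3 := key 3
    have h4 := key 4
    simp only [cdig, if_true, EmbeddingLike.apply_eq_iff_eq, Prod.mk.injEq] at h0
    simp only [cdig, Fin.reduceEq, if_false, lo, Matrix.cons_val] at h1 h2 h3 h4
    exact (Loc.ext (X.gate_inj h0.1 (Prod.ext h1 h2)) h0.2 h3 h4).symm
  hder := der_goal (C := X.chs) (by
    rw [X.f_other (by simp [Sch.isNode])]; simp [rawg]) rfl rfl rfl rfl h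

def encP : PortId X.sys → Fin 5 → X.W
  | .var (.X (.ctr c) r a b) bit => ![X.cP (.xc c.1 c.2.1 r bit), c.2.2, 0, a, b]
  | .var (.X (.leg ρ s n) r a b) bit =>
    ![X.cP (.xl ρ.1 ρ.2.1.1 ρ.2.2.1 s n r bit), ρ.2.1.2, ρ.2.2.2, a, b]
  | .var (.W g r a) bit => ![X.cP (.w (X.gsm g) r bit), (X.glo g).1, (X.glo g).2, a, 0]
  | .mark m => ![X.cP (.mark (X.mq m)), X.mr m, 0, 0, 0]
  | .succ m => ![X.cP (.succ (X.mq m)), X.mr m, 0, 0, 0]
  | .root => ![X.cP .root, 0, 0, 0, 0]

def encO (out : Bool) : Option (PortId X.sys) → Fin 5 → X.W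
  | some p => X.encP p
  | none => ![X.cP (.null out), 0, 0, 0, 0]

theorem encP_inj : Function.Injective X.encP := by
  intro u v h
  have h0 := congrFun h 0
  have h1 := congrFun h 1
  have h2 := congrFun h 2
  have h3 := congrFun h 3
  have h4 := congrFun h 4
  rcases u with ⟨⟨⟨c, c1, c2⟩ | ⟨⟨σ, ⟨a1, a2⟩, b1, b2⟩, s, n⟩, r, a, b⟩ | ⟨g, r, a⟩, bit⟩ | m | m | _ <;>
  rcases v with ⟨⟨⟨c', c1', c2'⟩ | ⟨⟨σ', ⟨a1', a2'⟩, b1', b2'⟩, s', n'⟩, r', a', b'⟩ | ⟨g', r', a'⟩,
    bit'⟩ | m' | m' | _ <;>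
  simp only [encP, Matrix.cons_val, EmbeddingLike.apply_eq_iff_eq, reduceCtorEq, PSm.xc.injEq,
    PSm.xl.injEq, PSm.w.injEq, PSm.mark.injEq, PSm.succ.injEq] at h0 h1 h2 h3 h4
  · simp_all
  · simp_all
  · obtain ⟨e1, e2, e3⟩ := h0
    rw [X.gate_inj e1 (Prod.ext h1 h2), e2, e3, h3]
  · rw [X.mk_inj h0 h1]
  · rw [X.mk_inj h0 h1]
  · rfl

theorem encP_ne_null (p out) : X.encP p 0 ≠ X.cP (.null out) := by
  rcases p with ⟨⟨_ | _, r, a, b⟩ | ⟨g, r, a⟩, bit⟩ | m | m | _ <;> simp [encP]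

theorem encO_eq {o o'} : X.encO true o = X.encO false o' ↔ ∃ p, o = some p ∧ o' = some p := by
  constructor
  · intro h
    have h0 := congrFun h 0
    cases o <;> cases o'
    · simp [encO] at h0
    · exact absurd h0.symm (X.encP_ne_null _ _)
    · exact absurd h0 (X.encP_ne_null _ _)
    · exact ⟨_, rfl, by rw [X.encP_inj h]⟩
  · rintro ⟨p, rfl, rfl⟩; rfl

/-- evaluation of a specification -/
def evS (s : X.Spec) (sv : Fin 5 → X.V) : Fin 5 → X.W := fun κ => (s κ).2 (sv (s κ).1)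

theorem evS_vec (a b c d f) (sv : Fin 5 → X.V) :
    X.evS ![a, b, c, d, f] sv = ![a.2 (sv a.1), b.2 (sv b.1), c.2 (sv c.1), d.2 (sv d.1),
      f.2 (sv f.1)] := by
  funext κ; fin_cases κ <;> rfl

theorem evS_const (q) (sv : Fin 5 → X.V) : X.evS (X.sConst q) sv = ![X.cP q, 0, 0, 0, 0] :=
  X.evS_vec _ _ _ _ _ _

theorem evS_var (out : Bool) (l : Loc X.sys) (b : ZMod 2) (π : Pt) (sv : Fin 5 → X.V)
    (h1 : (sv 1).2 = (X.glo l.g).1) (h2 : (sv 2).2 = (X.glo l.g).2) (h3 : (sv 3).2 = l.a)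
    (h4 : (sv 4).2 = l.b)
    (h0 : ∀ ρ s n, l.g = .pair ρ s n → sv 0 = X.raw ρ.1 ρ.2.1 ρ.2.2) :
    X.evS (X.sVar out l.r b (X.gsm l.g) π) sv =
      X.encO out ((l.port π).map fun v => PortId.var v b) := by
  obtain ⟨g, r, α, β⟩ := l
  simp only at h1 h2 h3 h4 h0
  rcases π with t | _ | _
  · rcases g with ⟨σ, ⟨a, a'⟩, c, c'⟩ | ⟨⟨σ, ⟨a, a'⟩, c, c'⟩, s, n⟩ | _
    · simp only [gsm, sVar, evS_vec, sK, sL, h1, h2, h3, h4, glo, Loc.port, Gate.var, node,
        Option.map_some, encO]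
      rw [dif_pos (by show 0 < e + 5; omega)]
      rfl
    · have h0 := h0 _ _ _ rfl
      simp only [gsm, sVar, Loc.port, Gate.var, node]
      by_cases t0 : t = 0
      · simp only [if_pos t0, evS_vec, sK, sL, h1, h2, h3, h4, glo, Option.map_some, encO]
        rw [dif_pos n.2]
        rfl
      · by_cases t1 : t = 1
        · simp only [if_neg t0, if_pos t1, Option.map_some, encO]
          by_cases hn : n.val + 1 < e + 5
          · rw [dif_pos hn, dif_pos hn]
            simp only [evS_vec, sK, sL, h1, h2, h3, h4, glo]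
            rfl
          · rw [dif_neg hn, dif_neg hn]
            generalize sl s = s'
            fin_cases s'
            · simp only [sCtr, Fin.zero_eta, Matrix.cons_val_zero, evS_vec, sK, sL, h3, h4, h0]
              rfl
            · simp only [sCtr, Fin.mk_one, Matrix.cons_val_one, Matrix.cons_val_zero, evS_vec, sK,
                sL, h3, h4, h1]
              rfl
            · simp only [sCtr, Fin.reduceFinMk, Matrix.cons_val, evS_vec, sK, sL, h3, h4, h2]
              rfl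
        · simp only [if_neg t0, if_neg t1, evS_const, Option.map_none, encO]
    · simp only [gsm, sVar, Loc.port, Gate.var]
      by_cases t0 : t = 0
      · simp only [if_pos t0, evS_vec, sK, sL, h3, h4, Option.map_some, encO]
        rfl
      · simp only [if_neg t0, evS_const, Option.map_none, encO]
  · cases g <;> simp only [gsm, sVar, evS_vec, sK, sL, h1, h2, h3, Loc.port, Option.map_some,
      encO, encP]
  · cases g <;> simp only [gsm, sVar, evS_vec, sK, sL, h1, h2, h4, Loc.port, Option.map_some,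
      encO, encP] <;> rfl

noncomputable def portD (v : Vx X.sys) : Dir → Fin 5 → X.W
  | .inl i => X.encO true (v.outP X.code i)
  | .inr j => X.encO false (v.inP j)

theorem evS_spec (v : Vx X.sys) (D : Dir) (sv : Fin 5 → X.V)
    (h : ∀ κ ≠ 0, (sv κ).2 = X.lo v κ)
    (h0 : ∀ l val ρ s n, v = .gad l val → l.g = .pair ρ s n → sv 0 = X.raw ρ.1 ρ.2.1 ρ.2.2) :
    X.evS (X.spec (X.vsm v) D) sv = X.portD v D := by
  have h1 := h 1 (by simp)
  have h2 := h 2 (by simp)
  have h3 := h 3 (by simp)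
  have h4 := h 4 (by simp)
  cases v with
  | gad l val =>
    rcases D with (π | t) | π
    · exact X.evS_var true l (val π) π sv h1 h2 h3 h4 fun ρ s n => h0 l val ρ s n rfl
    · simp only [vsm, spec, evS_vec, sK, portD, Vx.outP, encO, encP, code, mq_mkm, mr_mkm, cdig]
      split_ifs with ht
      · rfl
      · simp only [sL, h t ht]; rfl
    · exact X.evS_var false l (val π) π sv h1 h2 h3 h4 fun ρ s n => h0 l val ρ s n rfl
  | mk m =>
    have h1 : (sv 1).2 = X.mr m := h1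
    rcases D with (π | t) | π | _ | _
    · exact X.evS_const _ _
    · simp only [vsm, spec, portD, Vx.outP]
      by_cases t0 : t = 0
      · simp only [if_pos t0, evS_const, encO, encP]
      · by_cases t1 : t = 1
        · simp only [if_neg t0, if_pos t1, evS_vec, sK, h1, X.mq_mr m]
          by_cases hm : m.val + 1 < 5 * X.N' + 8 + 2
          · rw [if_pos hm, if_pos hm, dif_pos ⟨t1, hm⟩]; rfl
          · rw [if_neg hm, if_neg hm, dif_neg fun hh => hm hh.2]; rfl
        · rw [if_neg t0, if_neg t1, if_neg t0, dif_neg fun hh => t1 hh.1, evS_const]; rfl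
    · exact X.evS_const _ _
    · simp only [vsm, spec, portD, Vx.inP, evS_vec, sK, sL, h1, encO, encP]
    · simp only [vsm, spec, portD, Vx.inP, evS_vec, sK, sL, h1, encO, encP]
  | root =>
    rcases D with i | π
    · exact X.evS_const _ _
    · simp only [vsm, spec, portD, Vx.inP]
      split_ifs <;> exact X.evS_const _ _
  | pend i =>
    rcases D with (π | t) | π
    · exact X.evS_const _ _
    · simp only [vsm, spec, portD, Vx.outP]
      split_ifs
      · rw [evS_const]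
        simp [encO, encP, mq, mr]
      · exact X.evS_const _ _
      · exact X.evS_const _ _
    · exact X.evS_const _ _

end Ctx

end Vale.Agent.P310
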