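import Vale.Agent.P310.Adj1

namespace Vale.Agent.P310

open Classical

variable {M : TM} {sd e : ℕ}

theorem foldr_ite_sum {W : Type} [AddCommMonoid W] (F : Fin 5 → W) (s : Fin 5) :
    (List.finRange 5).foldr (fun src acc => (if src = s then F src else 0) + acc) 0 = F s := by
  fin_cases s <;> simp [List.finRange]

namespace Ctx

variable (X : Ctx M sd e)

def idx (v : Vx X.sys) : ℕ := (finFunctionFinEquiv (X.dg v)).val

theorem idx_lt (v) : X.idx v < (X.N' + 2) ^ 5 := (finFunctionFinEquiv (X.dg v)).2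

theorem idx_inj : Function.Injective X.idx := fun _ _ h =>
  X.dg_inj (finFunctionFinEquiv.injective (Fin.ext h))

theorem dig_idx (v) (κ : Fin 5) : X.dig (X.idx v) κ = X.dg v κ := by
  apply Fin.ext
  have := finFunctionFinEquiv_symm_apply_val (finFunctionFinEquiv (X.dg v)) κ
  rw [Equiv.symm_apply_apply] at this
  exact this.symm

theorem dig_idx_hi (v) {s : ℕ} (h : 5 ≤ s) : X.dig (X.idx v) s = 0 := by
  apply Fin.ext
  have h1 : X.idx v < (X.N' + 2) ^ s :=
    lt_of_lt_of_le (X.idx_lt v) (Nat.pow_le_pow_right (by omega) h)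
  simp [dig, Nat.div_eq_of_lt h1]

variable {X} {z : ℕ} {c : Fin 3}

theorem ev_comp_aux (D : Dir) (κ : Fin 5) (l : List (Fin 5)) :
    (X.ev z (l.foldr (fun src acc =>
      Shape.app .add (.app (.comp D κ src) (dgt c 0) (srcE c src)) acc) ffE)).2 =
    l.foldr (fun src acc => (X.dV (X.dig (X.cnt z c) 0)).elim 0 (fun vs =>
      if src = (X.spec vs D κ).1 then (X.spec vs D κ).2 (X.ev z (srcE c src)) else 0) + acc) 0 := by
  induction l with
  | nil => exact X.ev_ff z
  | cons a l ih =>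
    rw [List.foldr_cons, List.foldr_cons, ev_app' _ _ (by simp), ev_app' _ _ (by simp), ← ih]
    rfl

theorem d0 {v} (h : X.cnt z c = X.idx v) : X.dV (X.dig (X.cnt z c) 0) = some (X.vsm v) := by
  have := X.dig_idx v 0
  simp only [Fin.val_zero, dg, if_true] at this
  rw [h, this, dV_cV]

theorem dlo {v} (h : X.cnt z c = X.idx v) {κ : Fin 5} (hκ : κ ≠ 0) :
    X.dig (X.cnt z c) κ = X.lo v κ := by
  rw [h, dig_idx, dg, if_neg hκ]

theorem ev_comp {v} (h : X.cnt z c = X.idx v) (D : Dir) (κ : Fin 5) :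
    (X.ev z (compE c D κ)).2 = X.portD v D κ := by
  rw [compE, ev_comp_aux, d0 h]
  simp only [Option.elim_some]
  rw [foldr_ite_sum (fun src => (X.spec (X.vsm v) D κ).2 (X.ev z (srcE c src)))]
  refine congrFun (X.evS_spec v D (fun src => X.ev z (srcE c src)) ?_ ?_) κ
  · intro κ hκ
    simp only [srcE, if_neg hκ, ev_dgt, io_snd, dlo h hκ]
  · rintro l val ⟨σ, ⟨a, a'⟩, b, b'⟩ s n rfl hg
    have h1 := dlo h (κ := 1) (by simp)
    have h2 := dlo h (κ := 2) (by simp)
    simp only [srcE, if_true, oE]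
    rw [ev_app, fn, if_pos rfl, ev_app' _ _ (by simp), ev_app' _ _ (by simp)]
    simp only [g, ev_dgt, io_snd, Fin.val_zero, d0 h, h1, h2, vsm, hg, gsm, keyS, mkbS, lo, glo,
      Matrix.cons_val]
    rfl

theorem T_link {c' : Fin 3} {u v} (h : X.cnt z c = X.idx u) (h' : X.cnt z c' = X.idx v) :
    X.T z (linkE c c') ↔ link X.code u v := by
  simp only [linkE, T_any, Finset.mem_toList, Finset.mem_univ, true_and, T_all, List.mem_finRange,
    T_eq, forall_const, ev_comp h, ev_comp h', link, Prod.exists]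
  refine exists_congr fun i => exists_congr fun j => ?_
  rw [← funext_iff]
  exact X.encO_eq

theorem parity_eq (l : Loc X.sys) (val) : l.parity val = (X.gsm l.g).parS val := by
  obtain ⟨g, r, a, b⟩ := l
  refine Finset.sum_congr rfl fun π _ => ?_
  rcases π with t | _ | _
  · cases g
    · simp [Loc.port, Gate.var, gsm, GSm.used]
    · simp only [Loc.port, Gate.var, gsm, GSm.used]
      split_ifs <;> simp_all
    · simp only [Loc.port, Gate.var, gsm, GSm.used]
      split_ifs <;> simp_all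
  · cases g <;> simp [Loc.port, gsm, GSm.used]
  · cases g <;> simp [Loc.port, gsm, GSm.used]

theorem j0_eq (r) : phi X.p X.hp X.Wd (0, 0) r = 0 := by
  apply Fin.ext
  simp [phi, res, lin]

theorem T_tw {l val} (h : X.cnt z c = X.idx (.gad l val)) :
    X.T z (twE c) ↔ X.T z mE ∧ l.g = Gate.rule X.sys.ρ0 ∧ l.r = X.sys.r0 := by
  have h1 := dlo h (κ := 1) (by simp)
  have h2 := dlo h (κ := 2) (by simp)
  simp only [twE, T_and, T_isZero, ev_dgt, io_snd, h1, h2, lo, Matrix.cons_val]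
  rw [T, ev_app' _ _ (by simp)]
  simp only [g, bv_snd, ev_dgt, io_snd, Fin.val_zero, d0 h, vsm, Option.some.injEq, VSm.gad.injEq]
  constructor
  · rintro ⟨⟨e1, val', e2, e3, -⟩, e4, e5⟩
    exact ⟨e1, X.gate_inj e2 (Prod.ext e4 e5), e3⟩
  · rintro ⟨e1, e2, e3⟩
    rw [e2]
    exact ⟨⟨e1, val, rfl, e3, rfl⟩, rfl, rfl⟩

theorem T_par : X.T z (.app .par (dgt c 0) (twE c)) ↔
    parP (X.T z (twE c)) (X.dV (X.dig (X.cnt z c) 0)) := by
  rw [T, ev_app' _ _ (by simp)]
  simp only [g, bv_snd]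
  rfl

theorem T_zc (κ) : X.T z (.app (.zc κ) (dgt c 0) (dgt c κ)) ↔
    ∀ vs, X.dV (X.dig (X.cnt z c) 0) = some vs → vs.zcond κ → X.dig (X.cnt z c) κ = 0 := by
  rw [T, ev_app' _ _ (by simp)]
  simp only [g, bv_snd]
  rfl

theorem exists_vx (d : Fin 5 → X.W) (vs) (h0 : X.cV vs = d 0) (hz : ∀ κ, vs.zcond κ → d κ = 0) :
    ∃ v, X.dg v = d := by
  have key : ∀ v, X.vsm v = vs → X.lo v 1 = d 1 → X.lo v 2 = d 2 → X.lo v 3 = d 3 →
      X.lo v 4 = d 4 → ∃ v, X.dg v = d := by
    intro v e0 e1 e2 e3 e4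
    refine ⟨v, funext fun κ => ?_⟩
    fin_cases κ
    · simp [dg, e0, h0]
    · simpa [dg] using e1
    · simpa [dg] using e2
    · simpa [dg] using e3
    · simpa [dg] using e4
  rcases vs with ⟨⟨σ, a, b⟩ | ⟨σ, a, b, s, n⟩ | _, r, val⟩ | t | _ | i
  · exact key (.gad ⟨.rule (σ, (a, d 1), (b, d 2)), r, d 3, d 4⟩ val) rfl rfl rfl rfl rfl
  · exact key (.gad ⟨.pair (σ, (a, d 1), (b, d 2)) s n, r, d 3, d 4⟩ val) rfl rfl rfl rfl rfl
  · exact key (.gad ⟨.fact, r, d 3, d 4⟩ val) rfl (hz 1 (by simp [VSm.zcond])).symm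
      (hz 2 (by simp [VSm.zcond])).symm rfl rfl
  · exact key (.mk (X.mkm t (d 1))) (by simp [vsm]) (by simp [lo])
      (hz 2 (by simp [VSm.zcond])).symm (hz 3 (by simp [VSm.zcond])).symm
      (hz 4 (by simp [VSm.zcond])).symm
  · exact key .root rfl (hz 1 (by simp [VSm.zcond])).symm (hz 2 (by simp [VSm.zcond])).symm
      (hz 3 (by simp [VSm.zcond])).symm (hz 4 (by simp [VSm.zcond])).symm
  · exact key (.pend i) rfl (hz 1 (by simp [VSm.zcond])).symm (hz 2 (by simp [VSm.zcond])).symm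
      (hz 3 (by simp [VSm.zcond])).symm (hz 4 (by simp [VSm.zcond])).symm

theorem zc_iff (v : Vx X.sys) : (∀ κ, (X.vsm v).zcond κ → X.lo v κ = 0) ↔
    ∀ l val, v = .gad l val → l.ok := by
  rcases v with ⟨⟨g, r, a, b⟩, val⟩ | m | _ | i
  · cases g
    · simp [vsm, gsm, VSm.zcond, Loc.ok]
    · simp [vsm, gsm, VSm.zcond, Loc.ok]
    · simp only [vsm, gsm, VSm.zcond, Loc.ok, Vx.gad.injEq, and_imp, j0_eq]
      constructor
      · rintro h l val' rfl - -
        exact ⟨h 3 (by simp), h 4 (by simp)⟩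
      · intro h κ hκ
        obtain ⟨h1, h2⟩ := h _ _ rfl rfl rfl
        simp only at h1 h2
        fin_cases κ <;> simp [lo, glo, h1, h2]
  · simp only [vsm, VSm.zcond, reduceCtorEq, false_imp_iff, implies_true, iff_true]
    intro κ hκ
    fin_cases κ <;> simp_all [lo]
  · simp [lo]
  · simp [lo]

theorem zcond_ne (vs : VSm sd M.extra e) : ¬ vs.zcond 0 := by
  rcases vs with ⟨_ | _ | _, r, val⟩ | t | _ | i <;> simp [VSm.zcond]

theorem T_valid_of {v} (h : X.cnt z c = X.idx v) {m : Bool} (hm : X.T z mE ↔ m = true) :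
    X.T z (validE c) ↔ v.valid m := by
  simp only [validE, T_and, T_par, T_all, List.mem_finRange, forall_const, T_zc, d0 h,
    List.mem_filter, true_and, decide_eq_true_eq, T_isZero, ev_rg, io_snd, Option.some.injEq,
    forall_eq']
  have e1 : ∀ s : Fin (sd + 5), 5 ≤ s.val → X.dig (X.cnt z c) s = 0 := fun s hs => by
    rw [h, X.dig_idx_hi v hs]
  have e2 : (∀ κ : Fin 5, (X.vsm v).zcond κ → X.dig (X.cnt z c) κ = 0) ↔
      ∀ l val, v = .gad l val → l.ok := by
    rw [← zc_iff]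
    refine forall_congr' fun κ => forall_congr' fun hκ => ?_
    rw [dlo h (fun hh => zcond_ne _ (hh ▸ hκ))]
  rw [e2, and_iff_left e1]
  cases v with
  | gad l val =>
    simp only [vsm, parP, T_tw h, Vx.valid, parity_eq, Loc.tw, hm]
    have : (∀ l' val', Vx.gad l val = Vx.gad l' val' → l'.ok) ↔ l.ok :=
      ⟨fun h => h _ _ rfl, fun h l' val' e => by cases e; exact h⟩
    rw [this, and_comm]
    cases m <;> simp
  | mk m => simp [vsm, parP, Vx.valid]
  | root => simp [vsm, parP, Vx.valid]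
  | pend i => simp [vsm, parP, Vx.valid]

theorem Good.vx_of_valid (h : X.Good) (hz : z < X.Z) (hv : X.T z (validE c)) :
    ∃ v, X.cnt z c = X.idx v := by
  simp only [validE, T_and, T_par, T_all, List.mem_finRange, forall_const, T_zc,
    List.mem_filter, true_and, decide_eq_true_eq, T_isZero, ev_rg, io_snd] at hv
  obtain ⟨h1, h2, h3⟩ := hv
  cases hd : X.dV (X.dig (X.cnt z c) 0) with
  | none => rw [hd] at h1; exact h1.elim
  | some vs =>
    obtain ⟨v, hv⟩ := exists_vx (fun κ => X.dig (X.cnt z c) κ) vs (X.dV_eq.1 hd)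
      fun κ => h2 κ vs hd
    refine ⟨v, X.dig_inj (h.cnt_lt hz c)
      (lt_of_lt_of_le (X.idx_lt v) (Nat.pow_le_pow_right (by omega) (by omega))) fun s hs => ?_⟩
    by_cases h5 : s < 5
    · exact ((X.dig_idx v ⟨s, h5⟩).trans (congrFun hv ⟨s, h5⟩)).symm
    · rw [X.dig_idx_hi v (by omega)]
      exact h3 ⟨s, hs⟩ (by simpa using h5)

theorem Good.T_neq (h : X.Good) (hz : z < X.Z) : X.T z neqE ↔ X.cnt z 1 ≠ X.cnt z 0 := by
  simp only [neqE, T_any, List.mem_finRange, true_and, T_not, T_eq, ev_rg, io_snd]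
  constructor
  · rintro ⟨s, hs⟩ hh
    exact hs (by rw [hh])
  · intro hh
    by_contra hc
    push Not at hc
    exact hh (X.dig_inj (h.cnt_lt hz 1) (h.cnt_lt hz 0) fun s hs => hc ⟨s, hs⟩)

theorem Good.T_adj (h : X.Good) (hz : z < X.Z) {m : Bool} (hm : X.T z mE ↔ m = true) :
    X.T z adjE ↔ ∃ u v, X.cnt z 1 = X.idx u ∧ X.cnt z 0 = X.idx v ∧ adj0 X.code m u v := by
  simp only [adjE, T_and, T_or, h.T_neq hz]
  constructor
  · rintro ⟨h1, h2, h3, h4⟩
    obtain ⟨u, hu⟩ := h.vx_of_valid hz h1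
    obtain ⟨v, hv⟩ := h.vx_of_valid hz h2
    refine ⟨u, v, hu, hv, ?_, (T_valid_of hu hm).1 h1, (T_valid_of hv hm).1 h2, ?_⟩
    · rintro rfl
      exact h3 (hu.trans hv.symm)
    · rwa [T_link hu hv, T_link hv hu] at h4
  · rintro ⟨u, v, hu, hv, h1, h2, h3, h4⟩
    refine ⟨(T_valid_of hu hm).2 h2, (T_valid_of hv hm).2 h3, ?_, ?_⟩
    · rw [hu, hv]
      exact fun hh => h1 (X.idx_inj hh)
    · rwa [T_link hu hv, T_link hv hu]

def Good.ι (h : X.Good) (v : Vx X.sys) : Fin X.n := ⟨X.idx v, lt_of_lt_of_le (X.idx_lt v) h.hn5⟩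

theorem Good.ι_inj (h : X.Good) : Function.Injective h.ι := fun _ _ e =>
  X.idx_inj (Fin.mk.inj e)

abbrev Good.J (h : X.Good) : Type := ((Set.range h.ι)ᶜ : Set (Fin X.n))

noncomputable def Good.eqv (h : X.Good) : Fin X.n ≃ Vx X.sys ⊕ h.J :=
  ((Equiv.sumCongr (Equiv.ofInjective _ h.ι_inj) (Equiv.refl _)).trans
    (Equiv.Set.sumCompl (Set.range h.ι))).symm

theorem Good.eqv_inl (h : X.Good) {a v} : h.eqv a = .inl v ↔ a.val = X.idx v := by
  rw [Good.eqv, Equiv.symm_apply_eq, Fin.ext_iff]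
  rfl

noncomputable def Good.G (h : X.Good) (m : Bool) : SimpleGraph (Fin X.n) :=
  (graph X.code h.J m).comap h.eqv

theorem Good.G_adj (h : X.Good) (m : Bool) (a b : Fin X.n) :
    (h.G m).Adj a b ↔ ∃ u v, a.val = X.idx u ∧ b.val = X.idx v ∧ adj0 X.code m u v := by
  simp only [← h.eqv_inl, Good.G, SimpleGraph.comap_adj]
  rcases h.eqv a with u | u <;> rcases h.eqv b with v | v <;> simp [graph]

theorem adjWord_length {n : ℕ} (G : SimpleGraph (Fin n)) : (adjWord G).length = n * n := by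
  simp [adjWord]

theorem Good.adjWord_get (h : X.Good) (hz : z < X.Z) {m : Bool} (hm : X.T z mE ↔ m = true) :
    (adjWord (h.G m))[z % (X.n * X.n)]? = some (decide (X.T z adjE)) := by
  have h0 : 0 < X.n * X.n := Nat.mul_pos h.pos h.pos
  rw [adjWord, List.getElem?_ofFn, dif_pos (Nat.mod_lt _ h0)]
  simp only [Option.some.injEq, decide_eq_decide, h.G_adj, h.T_adj hz hm, Fin.coe_divNat,
    Fin.coe_modNat, Nat.mod_mul_right_div_self, Nat.mod_mul_right_mod]
  rfl

theorem Good.hsym (h : X.Good) (z : ℕ) (hz : z < X.Z) : (X.ev z symE).2 =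
    X.cG ((M.init (adjWord (h.G false) ++ adjWord (h.G true))).tape 0 ((z : ℤ) - X.R)) := by
  have h0 : 0 < X.n * X.n := Nat.mul_pos h.pos h.pos
  have e1 : ∀ x, ((X.ev z x).2 = 1) = X.T z x := fun _ => rfl
  have hm : X.T z mE ↔ z / (X.n * X.n) = X.ρq + 1 := h.T_isC hz 2 2
  have hm' : X.T z (isC 2 1) ↔ z / (X.n * X.n) = X.ρq := h.T_isC hz 2 1
  rw [symE, ev_app' _ _ (by simp)]
  simp only [g, io_snd, e1, T_or, hm, hm', TM.init, true_and]
  congr 1
  have hd := Nat.div_add_mod' z (X.n * X.n)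
  have hr := Nat.mod_lt z h0
  generalize z / (X.n * X.n) = q at *
  have hR : X.R = X.ρq * (X.n * X.n) := rfl
  rcases lt_trichotomy q X.ρq with hq | hq | hq
  · have : (q + 1) * (X.n * X.n) ≤ X.ρq * (X.n * X.n) := Nat.mul_le_mul_right _ hq
    rw [add_mul] at this
    rw [if_neg (by omega), if_neg (by omega)]
  · subst hq
    have : ((z : ℤ) - X.R).toNat = z % (X.n * X.n) := by omega
    rw [if_pos (Or.inl rfl), if_pos (show (0 : ℤ) ≤ z - X.R by omega), this,
      List.getElem?_append_left (by rw [adjWord_length]; exact hr),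
      h.adjWord_get hz (by simp [hm])]
    by_cases ha : X.T z adjE <;> simp [ha]
  · rcases (Nat.succ_le_of_lt hq).lt_or_eq with hq | hq
    · have : (X.ρq + 2) * (X.n * X.n) ≤ q * (X.n * X.n) := Nat.mul_le_mul_right _ hq
      rw [add_mul] at this
      rw [if_neg (by omega), if_pos (by omega), List.getElem?_eq_none]
      rw [List.length_append, adjWord_length, adjWord_length]
      omega
    · subst hq
      rw [Nat.succ_eq_add_one, add_mul] at hd
      have : ((z : ℤ) - X.R).toNat - (adjWord (h.G false)).length = z % (X.n * X.n) := by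
        rw [adjWord_length]; omega
      rw [if_pos (Or.inr rfl), if_pos (show (0 : ℤ) ≤ z - X.R by omega),
        List.getElem?_append_right (by rw [adjWord_length]; omega), this,
        h.adjWord_get hz (by simp [hm])]
      by_cases ha : X.T z adjE <;> simp [ha]

end Ctx

end Vale.Agent.P310
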