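import Vale.Agent.P310.Sys

namespace Vale.Agent.P310

/-- residue of an integer as a symbol -/
def res {N : ℕ} (p : ℕ) (hp : 0 < p ∧ p ≤ N) (z : ℤ) : Fin N :=
  ⟨(z % p).toNat, by
    have h1 : z % p < p := Int.emod_lt_of_pos _ (by exact_mod_cast hp.1)
    have h2 : 0 ≤ z % p := Int.emod_nonneg _ (by have := hp.1; omega)
    omega⟩

theorem res_val {N : ℕ} (p : ℕ) (hp : 0 < p ∧ p ≤ N) (z : ℤ) : ((res p hp z).val : ℤ) = z % p := by
  have h2 : 0 ≤ z % p := Int.emod_nonneg _ (by have := hp.1; omega)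
  simp [res, h2]

theorem res_lt {N : ℕ} (p : ℕ) (hp : 0 < p ∧ p ≤ N) (z : ℤ) : (res p hp z).val < p := by
  have h1 : z % p < p := Int.emod_lt_of_pos _ (by exact_mod_cast hp.1)
  have := res_val p hp z
  omega

theorem res_eq_iff {N : ℕ} (p : ℕ) (hp : 0 < p ∧ p ≤ N) (z z' : ℤ) :
    res p hp z = res p hp z' ↔ z % p = z' % p := by
  rw [Fin.ext_iff, ← res_val p hp, ← res_val p hp]
  omega

def shiftFn {N : ℕ} (p : ℕ) (hp : 0 < p ∧ p ≤ N) (d : ℤ) (x : Fin N) : Fin N :=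
  if x.val < p then res p hp (x.val + d) else x

theorem shiftFn_res {N : ℕ} (p : ℕ) (hp : 0 < p ∧ p ≤ N) (d z : ℤ) :
    shiftFn p hp d (res p hp z) = res p hp (z + d) := by
  rw [shiftFn, if_pos (res_lt p hp z), res_eq_iff, res_val, Int.emod_add_emod]

theorem shiftFn_neg {N : ℕ} (p : ℕ) (hp : 0 < p ∧ p ≤ N) (d : ℤ) (x : Fin N) :
    shiftFn p hp (-d) (shiftFn p hp d x) = x := by
  by_cases h : x.val < p
  · have : shiftFn p hp d x = res p hp (x.val + d) := by rw [shiftFn, if_pos h]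
    rw [this, shiftFn_res]
    apply Fin.ext
    have := res_val p hp (x.val + d + -d)
    rw [add_neg_cancel_right, Int.emod_eq_of_lt (by omega) (by omega)] at this
    rw [add_neg_cancel_right]
    omega
  · simp [shiftFn, h]

def shiftPerm {N : ℕ} (p : ℕ) (hp : 0 < p ∧ p ≤ N) (d : ℤ) : Equiv.Perm (Fin N) where
  toFun := shiftFn p hp d
  invFun := shiftFn p hp (-d)
  left_inv := shiftFn_neg p hp d
  right_inv x := by
    have := shiftFn_neg p hp (-d) x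
    rwa [neg_neg] at this

/-- A system of channels carrying values on the cells `ℤ × ℤ`. -/
structure ChSys where
  Chan : Type
  Sch : Type
  V : Type
  s0 : Sch → Chan
  s1 : Sch → Chan
  s2 : Sch → Chan
  d1 : Sch → ℤ × ℤ
  d2 : Sch → ℤ × ℤ
  f : Sch → V → V → Option V
  seed : Chan
  junk : Chan
  v0 : V
  goal : Sch

inductive CDer (C : ChSys) : C.Chan → C.V → ℤ × ℤ → Prop where
  | seed : CDer C C.seed C.v0 (0, 0)
  | step (σ : C.Sch) (a b v : C.V) (x : ℤ × ℤ) : σ ≠ C.goal → C.f σ a b = some v →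
      CDer C (C.s1 σ) a (x + C.d1 σ) → CDer C (C.s2 σ) b (x + C.d2 σ) → CDer C (C.s0 σ) v x

def lin (Wd : ℤ) (x : ℤ × ℤ) : ℤ := x.1 * Wd + x.2

theorem lin_add (Wd : ℤ) (x y : ℤ × ℤ) : lin Wd (x + y) = lin Wd x + lin Wd y := by
  simp [lin]; ring

def ChSys.hd (C : ChSys) (σ : C.Sch) (o : Option C.V) : C.Chan × C.V :=
  o.elim (C.junk, C.v0) fun v => (C.s0 σ, v)

variable {e N : ℕ}

def phi (p : Fin (e + 3) → ℕ) (hp : ∀ r, 0 < p r ∧ p r ≤ N) (Wd : ℤ) (x : ℤ × ℤ) :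
    Fin (e + 3) → Fin N := fun r => res (p r) (hp r) (lin Wd x)

def ChSys.sg (C : ChSys) (p : Fin (e + 3) → ℕ) (hp : ∀ r, 0 < p r ∧ p r ≤ N) (Wd : ℤ)
    (σ : C.Sch) : Fin 3 → Fin (e + 3) → Equiv.Perm (Fin N) :=
  ![fun _ => 1, fun r => shiftPerm (p r) (hp r) (lin Wd (C.d1 σ)),
    fun r => shiftPerm (p r) (hp r) (lin Wd (C.d2 σ))]

@[reducible] def ChSys.toSys (C : ChSys) (p : Fin (e + 3) → ℕ) (hp : ∀ r, 0 < p r ∧ p r ≤ N) (Wd : ℤ)
    (Mk : ℕ) : Sys (e + 3) where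
  A := Fin N
  Atom := C.Chan × C.V
  Rule := C.Sch × C.V × C.V
  L := e + 5
  M := Mk
  nxt := Equiv.addRight 1
  r0 := 0
  bd ρ := ![C.hd ρ.1 (C.f ρ.1 ρ.2.1 ρ.2.2), (C.s1 ρ.1, ρ.2.1), (C.s2 ρ.1, ρ.2.2)]
  sg ρ := C.sg p hp Wd ρ.1
  y0 := (C.seed, C.v0)
  j0 := phi p hp Wd (0, 0)
  ρ0 := (C.goal, C.v0, C.v0)

variable {C : ChSys} {p : Fin (e + 3) → ℕ} {hp : ∀ r, 0 < p r ∧ p r ≤ N} {Wd : ℤ} {Mk : ℕ}

theorem app_zero (ρ : (C.toSys p hp Wd Mk).Rule) (j) : app ρ 0 j = j := rfl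

theorem app_one (ρ : (C.toSys p hp Wd Mk).Rule) (x : ℤ × ℤ) :
    app ρ 1 (phi p hp Wd x) = phi p hp Wd (x + C.d1 ρ.1) := by
  funext r
  exact (shiftFn_res _ _ _ _).trans (by rw [phi, lin_add])

theorem app_two (ρ : (C.toSys p hp Wd Mk).Rule) (x : ℤ × ℤ) :
    app ρ 2 (phi p hp Wd x) = phi p hp Wd (x + C.d2 ρ.1) := by
  funext r
  exact (shiftFn_res _ _ _ _).trans (by rw [phi, lin_add])

theorem app_inj {k : ℕ} {S : Sys k} (ρ : S.Rule) (s : Fin 3) {j j' : Fin k → S.A}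
    (h : app ρ s j = app ρ s j') : j = j' := by
  funext r
  exact (S.sg ρ s r).injective (congrFun h r)

theorem CDer.toDer {ch v x} (h : CDer C ch v x) :
    Der (C.toSys p hp Wd Mk) (ch, v) (phi p hp Wd x) := by
  induction h with
  | seed => exact Der.seed
  | step σ a b v x hσ hf _ _ ih1 ih2 =>
    have := Der.step (S := C.toSys p hp Wd Mk) (σ, a, b) (phi p hp Wd x)
      (fun h => hσ (congrArg Prod.fst h)) (by rw [app_one]; exact ih1) (by rw [app_two]; exact ih2)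
    rw [app_zero] at this
    have e : (C.toSys p hp Wd Mk).bd (σ, a, b) 0 = (C.s0 σ, v) := by
      simp [ChSys.toSys, ChSys.hd, hf]
    rwa [e] at this

theorem nxt_ne (r : Fin (e + 3)) : r + 1 ≠ r := by simp

theorem nxt_nxt_ne (r : Fin (e + 3)) : r + 1 + 1 ≠ r := by
  rw [add_assoc]
  simp only [ne_eq, add_eq_left]
  intro h
  have := congrArg Fin.val h
  simp [Fin.val_add, Nat.mod_eq_of_lt] at this

theorem exists_chi (r : Fin (e + 3)) : ∃ χ : Fin (e + 3) → ZMod 2, ∀ r',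
    χ r' + χ (r' + 1) = (if r' = 0 then 1 else 0) + (if r' = r then 1 else 0) := by
  refine ⟨fun r' => if 1 ≤ r'.val ∧ r'.val ≤ r.val then 1 else 0, fun r' => ?_⟩
  have h1 := r.2
  have h2 := r'.2
  have h3 : (r' + 1).val = if r'.val + 1 < e + 3 then r'.val + 1 else 0 := by
    rw [Fin.val_add]
    split_ifs with h
    · simpa using Nat.mod_eq_of_lt h
    · have : r'.val + 1 = e + 3 := by omega
      simp [this]
  simp only [h3, Fin.ext_iff, Fin.val_zero]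
  split_ifs <;> first | rfl | omega

theorem exists_iter (r : Fin (e + 3)) :
    ∃ n : ℕ, (Equiv.addRight (1 : Fin (e + 3)))^[n] 0 = r := by
  induction r using Fin.induction with
  | zero => exact ⟨0, rfl⟩
  | succ i ih =>
    obtain ⟨n, hn⟩ := ih
    refine ⟨n + 1, ?_⟩
    rw [Function.iterate_succ_apply', hn]
    simp

/-- closed sets of atoms in a window -/
structure ChSys.Closed (C : ChSys) (I : C.Chan → C.V → ℤ × ℤ → Prop) (T X : ℤ) : Prop where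
  hs0 : ∀ σ, C.s0 σ ≠ C.seed
  hjunk : C.junk ≠ C.seed
  hs1 : ∀ σ, C.s1 σ ≠ C.junk
  hs2 : ∀ σ, C.s2 σ ≠ C.junk
  hseed : ∀ σ, C.s1 σ = C.seed → C.s2 σ = C.seed → C.d1 σ = C.d2 σ
  hd1 : ∀ σ, |(C.d1 σ).1| ≤ 1 ∧ |(C.d1 σ).2| ≤ X
  hd2 : ∀ σ, |(C.d2 σ).1| ≤ 1 ∧ |(C.d2 σ).2| ≤ X
  seed : I C.seed C.v0 (0, 0)
  step : ∀ σ a b v x, C.f σ a b = some v → I (C.s1 σ) a (x + C.d1 σ) →
    I (C.s2 σ) b (x + C.d2 σ) → I (C.s0 σ) v x
  bound : ∀ ch v x, I ch v x → |x.1| ≤ T ∧ |x.2| ≤ X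
  goalf : C.f C.goal C.v0 C.v0 = some C.v0
  goal0 : C.s0 C.goal ≠ C.junk
  nogoal : ∀ v x, ¬ I (C.s0 C.goal) v x ∧ ¬ I (C.s1 C.goal) v x ∧ ¬ I (C.s2 C.goal) v x

theorem phi_inj (hco : Pairwise fun r r' => Nat.Coprime (p r) (p r')) {T X : ℤ}
    (hW : Wd = 2 * X + 1) (hbig : (2 * T + 1) * Wd < ∏ r, (p r : ℤ)) {x y : ℤ × ℤ}
    (hx : |x.1| ≤ T ∧ |x.2| ≤ X) (hy : |y.1| ≤ T ∧ |y.2| ≤ X)
    (h : phi p hp Wd x = phi p hp Wd y) : x = y := by
  have hd : ∀ r, (p r : ℤ) ∣ lin Wd x - lin Wd y := by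
    intro r
    have := (res_eq_iff _ _ _ _).1 (congrFun h r)
    exact Int.ModEq.dvd this.symm
  have hdiv : (∏ r, (p r : ℤ)) ∣ lin Wd x - lin Wd y := by
    apply Finset.prod_dvd_of_coprime
    · intro a _ b _ hab
      exact Nat.isCoprime_iff_coprime.2 (hco hab)
    · intro r _; exact hd r
  obtain ⟨hx1, hx2⟩ := hx
  obtain ⟨hy1, hy2⟩ := hy
  rw [abs_le] at hx1 hx2 hy1 hy2
  have hX : 0 ≤ X := by linarith
  have hz : lin Wd x - lin Wd y = 0 := by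
    apply Int.eq_zero_of_abs_lt_dvd hdiv
    refine lt_of_le_of_lt ?_ hbig
    rw [abs_le, lin, lin, hW]
    constructor <;> nlinarith
  have h1 : x.1 = y.1 := by
    rw [lin, lin, hW] at hz
    by_contra hne
    rcases lt_or_gt_of_ne hne with h | h <;> nlinarith
  have h2 : x.2 = y.2 := by
    rw [lin, lin, h1] at hz; linarith
  exact Prod.ext h1 h2

theorem ChSys.Closed.dupHyp {I : C.Chan → C.V → ℤ × ℤ → Prop} {T X : ℤ} (h : C.Closed I T X)
    (hco : Pairwise fun r r' => Nat.Coprime (p r) (p r'))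
    (hW : Wd = 2 * (2 * X) + 1) (hbig : (2 * (T + 1) + 1) * Wd < ∏ r, (p r : ℤ)) :
    DupHyp (C.toSys p hp Wd Mk)
      (fun c j => c.1 = C.junk ∨ ∃ x, I c.1 c.2 x ∧ j = phi p hp Wd x) where
  hL := by show e + 3 + 1 < e + 5; omega
  hnxt r := nxt_ne r
  hchi r := exists_chi r
  hcyc r := exists_iter r
  hy0 := by
    rintro ⟨σ, a, b⟩ hh
    have := congrArg Prod.fst hh
    simp only [ChSys.hd, Matrix.cons_val_zero] at this
    cases hf : C.f σ a b with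
    | none => rw [hf] at this; exact h.hjunk this
    | some v => rw [hf] at this; exact h.hs0 σ this
  hy1 := by
    rintro ⟨σ, a, b⟩ h1 h2
    have := h.hseed σ (congrArg Prod.fst h1) (congrArg Prod.fst h2)
    simp [ChSys.toSys, ChSys.sg, this]
  seed := Or.inr ⟨_, h.seed, rfl⟩
  closed := by
    rintro ⟨σ, a, b⟩ j (h1 | ⟨x1, h1, e1⟩)
    · exact absurd h1 (h.hs1 σ)
    rintro (h2 | ⟨x2, h2, e2⟩)
    · exact absurd h2 (h.hs2 σ)
    have e1' : j = phi p hp Wd (x1 - C.d1 σ) := by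
      apply app_inj (S := C.toSys p hp Wd Mk) (σ, a, b) 1
      rw [app_one, e1]; simp
    have e2' : j = phi p hp Wd (x2 - C.d2 σ) := by
      apply app_inj (S := C.toSys p hp Wd Mk) (σ, a, b) 2
      rw [app_two, e2]; simp
    have b1 := h.bound _ _ _ h1
    have b2 := h.bound _ _ _ h2
    have b3 := h.hd1 σ
    have b4 := h.hd2 σ
    have ex : x1 - C.d1 σ = x2 - C.d2 σ := by
      refine phi_inj (hp := hp) hco hW hbig ?_ ?_ (e1'.symm.trans e2')
      · simp only [Prod.fst_sub, Prod.snd_sub, abs_le] at *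
        omega
      · simp only [Prod.fst_sub, Prod.snd_sub, abs_le] at *
        omega
    rw [app_zero]
    cases hf : C.f σ a b with
    | none => left; simp [ChSys.hd, hf]
    | some v =>
      right
      refine ⟨x1 - C.d1 σ, ?_, e1'⟩
      have := h.step σ a b v (x1 - C.d1 σ) hf (by rw [sub_add_cancel]; exact h1)
        (by rw [ex, sub_add_cancel]; exact h2)
      simpa [ChSys.toSys, ChSys.hd, hf] using this
  goal := by
    intro s j
    fin_cases s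
    · rintro (h1 | ⟨x, h1, -⟩)
      · simp only [ChSys.hd, h.goalf] at h1
        exact h.goal0 h1
      · simp only [ChSys.hd, h.goalf] at h1
        exact (h.nogoal _ _).1 h1
    · rintro (h1 | ⟨x, h1, -⟩)
      · exact h.hs1 _ h1
      · exact (h.nogoal _ _).2.1 h1
    · rintro (h1 | ⟨x, h1, -⟩)
      · exact h.hs2 _ h1
      · exact (h.nogoal _ _).2.2 h1

theorem der_goal (hf : C.f C.goal C.v0 C.v0 = some C.v0) (h1 : C.s1 C.goal = C.s0 C.goal)
    (h2 : C.s2 C.goal = C.s0 C.goal) (h3 : C.d1 C.goal = 0) (h4 : C.d2 C.goal = 0) {x : ℤ × ℤ}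
    (h : CDer C (C.s0 C.goal) C.v0 x) :
    ∃ j, ∀ s, Der (C.toSys p hp Wd Mk) ((C.toSys p hp Wd Mk).bd (C.toSys p hp Wd Mk).ρ0 s)
      (app (C.toSys p hp Wd Mk).ρ0 s j) := by
  have hd := h.toDer (p := p) (hp := hp) (Wd := Wd) (Mk := Mk)
  refine ⟨phi p hp Wd x, fun s => ?_⟩
  fin_cases s
  · show Der (C.toSys p hp Wd Mk) (C.hd C.goal (C.f C.goal C.v0 C.v0)) (phi p hp Wd x)
    rw [hf]; exact hd
  · have := app_one (p := p) (hp := hp) (Wd := Wd) (Mk := Mk) (C.goal, C.v0, C.v0) x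
    rw [h3, add_zero] at this
    show Der _ (C.s1 C.goal, C.v0) (app (S := C.toSys p hp Wd Mk) (C.goal, C.v0, C.v0) 1 _)
    rw [this, h1]; exact hd
  · have := app_two (p := p) (hp := hp) (Wd := Wd) (Mk := Mk) (C.goal, C.v0, C.v0) x
    rw [h4, add_zero] at this
    show Der _ (C.s2 C.goal, C.v0) (app (S := C.toSys p hp Wd Mk) (C.goal, C.v0, C.v0) 2 _)
    rw [this, h2]; exact hd

end Vale.Agent.P310
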