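import Vale.Agent.P310.Expr

namespace Vale.Agent.P310

open Classical

abbrev AccT (M : TM) := M.State × (Fin (M.extra + 1) → M.Symbol)
abbrev ActT (M : TM) := M.State × (Fin (M.extra + 1) → M.Symbol × SignType)

structure Ctx (M : TM) (sd e : ℕ) where
  N' : ℕ
  n : ℕ
  ρq : ℕ
  qm : ℕ
  p : Fin (e + 3) → ℕ
  hp : ∀ r, 0 < p r ∧ p r ≤ N' + 2
  Wd : ℤ
  cV : VSm sd M.extra e ↪ Fin (N' + 2)
  cP : PSm sd M.extra e ↪ Fin (N' + 2)
  cL : GSm sd M.extra e × Fin (e + 3) ↪ Fin (N' + 2)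
  cG : M.Symbol ↪ Fin (N' + 2)
  cA : AccT M ↪ Fin (N' + 2)
  cB : ActT M × SignType ↪ Fin (N' + 2)

variable {M : TM} {sd e τ : ℕ}

noncomputable def ndc (x : Shape sd) : Chan sd τ :=
  if h : x ∈ allSub sd then .nd ⟨x, h⟩ else .fr

theorem ndc_eq {x : Shape sd} (h : x ∈ allSub sd) : (ndc x : Chan sd τ) = .nd ⟨x, h⟩ := dif_pos h

noncomputable def Sch.s0 : Sch sd τ → Chan sd τ
  | .goal => .acc
  | .acInit => .ac 0
  | .frInit => .fr
  | .fire => .bc
  | .accept => .acc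
  | .bR => .bc
  | .bL => .bc
  | .next => .ac 0
  | .frame => .fr
  | .node x => .nd x
  | .regStep ρ => .nd ⟨.reg ρ, reg_mem ρ⟩
  | .regInit ρ => .nd ⟨.reg ρ, reg_mem ρ⟩
  | .tpInit κ => .tp κ
  | .accu κ => .ac κ.succ
  | .mv κ _ => .tp κ

noncomputable def Shape.c1 : Shape sd → Chan sd τ
  | .reg _ => .acc
  | .app _ l _ => ndc l

noncomputable def Shape.c2 : Shape sd → Chan sd τ
  | .reg _ => .acc
  | .app _ _ r => ndc r

noncomputable def Sch.s1 : Sch sd τ → Chan sd τ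
  | .goal => .acc
  | .acInit => .seed
  | .frInit => .nd ⟨symE, symE_mem⟩
  | .fire => .ac (Fin.last _)
  | .accept => .ac (Fin.last _)
  | .bR => .bc
  | .bL => .bc
  | .next => .bc
  | .frame => .bc
  | .node x => x.1.c1
  | .regStep _ => .nd ⟨goE, goE_mem⟩
  | .regInit _ => .seed
  | .tpInit _ => .nd ⟨symE, symE_mem⟩
  | .accu κ => .ac κ.castSucc
  | .mv _ _ => .bc

noncomputable def Sch.s2 : Sch sd τ → Chan sd τ
  | .goal => .acc
  | .acInit => .seed
  | .frInit => .nd ⟨symE, symE_mem⟩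
  | .fire => .ac (Fin.last _)
  | .accept => .ac (Fin.last _)
  | .bR => .fr
  | .bL => .fr
  | .next => .bc
  | .frame => .bc
  | .node x => x.1.c2
  | .regStep ρ => .nd ⟨nextE ρ, nextE_mem ρ⟩
  | .regInit _ => .seed
  | .tpInit _ => .nd ⟨symE, symE_mem⟩
  | .accu κ => .tp κ
  | .mv κ _ => .tp κ

def Sch.d1 (R : ℤ) : Sch sd τ → ℤ × ℤ
  | .bR => (0, -1)
  | .bL => (0, 1)
  | .next => (-1, 0)
  | .frame => (-1, 0)
  | .regStep _ => (0, -1)
  | .regInit _ => (0, R)
  | .mv _ δ => (-1, δ)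
  | _ => (0, 0)

def Sch.d2 (R : ℤ) : Sch sd τ → ℤ × ℤ
  | .next => (-1, 0)
  | .frame => (-1, 0)
  | .regStep _ => (0, -1)
  | .regInit _ => (0, R)
  | .mv _ δ => (-1, δ)
  | _ => (0, 0)

def Shape.isLookup : Shape sd → Prop
  | .app .lookup _ _ => True
  | _ => False

def Sch.isLookup : Sch sd τ → Prop
  | .node x => x.1.isLookup
  | _ => False

def Sch.isNode : Sch sd τ → Prop
  | .node _ => True
  | _ => False

def GSm.used : GSm sd τ e → Pt → Prop
  | .rule _ _ _, _ => True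
  | .pair _ _ _ _ _, .inl t => t = 0 ∨ t = 1
  | .fact, .inl t => t = 0
  | _, .inr _ => True

noncomputable def GSm.parS (g : GSm sd τ e) (val : Pt → ZMod 2) : ZMod 2 :=
  ∑ π, if g.used π then val π else 0

def VSm.zcond : VSm sd τ e → Fin 5 → Prop
  | .gad .fact _ _, κ => κ ≠ 0
  | .gad _ _ _, _ => False
  | .mk _, κ => 2 ≤ κ
  | _, κ => κ ≠ 0

namespace Ctx

variable (X : Ctx M sd e)

abbrev W := Fin (X.N' + 2)
abbrev V := Sch sd M.extra × X.W

def R : ℕ := X.ρq * (X.n * X.n)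
def Z : ℕ := (X.qm + 1) * (X.n * X.n)
def cval : Fin 4 → ℕ := ![X.n - 1, X.ρq, X.ρq + 1, X.qm]

def io (w : X.W) : X.V := (.goal, w)
def no : X.V := (.frInit, 0)
noncomputable def bv (P : Prop) : X.V := X.io (if P then 1 else 0)
def dig (z s : ℕ) : X.W := ⟨z / (X.N' + 2) ^ s % (X.N' + 2), Nat.mod_lt _ (by omega)⟩

noncomputable def keyf (σ : Sch sd M.extra) (a : X.V) : X.V := if σ.isLookup then a else (σ, a.2)
noncomputable def dec (σ : Sch sd M.extra) (o : X.V) : Option X.V :=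
  if σ.isNode then some o else if o.1 = .goal then some o else none
noncomputable def hdc (σ : Sch sd M.extra) (o : X.V) : Chan sd M.extra × X.V :=
  (X.dec σ o).elim (.junk, X.io 0) fun v => (σ.s0, v)

def sgc (σ : Sch sd M.extra) : Fin 3 → Fin (e + 3) → Equiv.Perm X.W :=
  ![fun _ => 1, fun r => shiftPerm (X.p r) (X.hp r) (lin X.Wd (σ.d1 X.R)),
    fun r => shiftPerm (X.p r) (X.hp r) (lin X.Wd (σ.d2 X.R))]

noncomputable def dV (x : X.W) : Option (VSm sd M.extra e) := Function.partialInv X.cV x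

abbrev Spec := Fin 5 → Fin 5 × (X.V → X.W)

def sK (w : X.W) : Fin 5 × (X.V → X.W) := (0, fun _ => w)
def sL (src : Fin 5) : Fin 5 × (X.V → X.W) := (src, Prod.snd)
def sConst (q : PSm sd M.extra e) : X.Spec := ![X.sK (X.cP q), X.sK 0, X.sK 0, X.sK 0, X.sK 0]

noncomputable def sCtr (σ ah bh : Sch sd M.extra) (r : Fin (e + 3)) (b : ZMod 2) : Fin 3 → X.Spec :=
  ![![(0, fun o => X.cP (.xc (X.hdc σ o).1 (X.hdc σ o).2.1 r b)), (0, fun o => (X.hdc σ o).2.2),
      X.sK 0, X.sL 3, X.sL 4],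
    ![X.sK (X.cP (.xc σ.s1 ah r b)), X.sL 1, X.sK 0, X.sL 3, X.sL 4],
    ![X.sK (X.cP (.xc σ.s2 bh r b)), X.sL 2, X.sK 0, X.sL 3, X.sL 4]]

noncomputable def sVar (out : Bool) (r : Fin (e + 3)) (b : ZMod 2) :
    GSm sd M.extra e → Pt → X.Spec
  | .rule σ ah bh, .inl s =>
    ![X.sK (X.cP (.xl σ ah bh s 0 r b)), X.sL 1, X.sL 2,
      (3, fun y => X.sgc σ (sl s) r y.2), (4, fun y => X.sgc σ (sl s) (r + 1) y.2)]
  | .pair σ ah bh s n, .inl t =>
    if t = 0 then ![X.sK (X.cP (.xl σ ah bh s n r b)), X.sL 1, X.sL 2, X.sL 3, X.sL 4]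
    else if t = 1 then
      if h : n.val + 1 < e + 5 then
        ![X.sK (X.cP (.xl σ ah bh s ⟨n.val + 1, h⟩ r b)), X.sL 1, X.sL 2, X.sL 3, X.sL 4]
      else X.sCtr σ ah bh r b (sl s)
    else X.sConst (.null out)
  | .fact, .inl t =>
    if t = 0 then ![X.sK (X.cP (.xc .seed .goal r b)), X.sK 0, X.sK 0, X.sL 3, X.sL 4]
    else X.sConst (.null out)
  | g, .inr false => ![X.sK (X.cP (.w g r b)), X.sL 1, X.sL 2, X.sL 3, X.sK 0]
  | g, .inr true => ![X.sK (X.cP (.w g (r + 1) b)), X.sL 1, X.sL 2, X.sL 4, X.sK 0]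

/-- quotient and remainder of a marker index -/
def mq (m : ℕ) : Fin 5 := ⟨m / (X.N' + 2) % 5, Nat.mod_lt _ (by omega)⟩
def mr (m : ℕ) : X.W := ⟨m % (X.N' + 2), Nat.mod_lt _ (by omega)⟩

noncomputable def spec : VSm sd M.extra e → Dir → X.Spec
  | .gad g r val, .inl (.inl π) => X.sVar true r (val π) g π
  | .gad g r _, .inl (.inr t) =>
    ![X.sK (X.cP (.mark t)), if t = 0 then X.sK (X.cL (g, r)) else X.sL t, X.sK 0, X.sK 0, X.sK 0]
  | .gad g r val, .inr π => X.sVar false r (val π) g π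
  | .mk _, .inl (.inl _) => X.sConst (.null true)
  | .mk t, .inl (.inr i) =>
    if i = 0 then X.sConst .root
    else if i = 1 then
      ![(1, fun y => if t.val * (X.N' + 2) + y.2.val + 1 < 5 * X.N' + 8 + 2 then
            X.cP (.succ (X.mq (t.val * (X.N' + 2) + y.2.val + 1))) else X.cP (.null true)),
        (1, fun y => if t.val * (X.N' + 2) + y.2.val + 1 < 5 * X.N' + 8 + 2 then
            X.mr (t.val * (X.N' + 2) + y.2.val + 1) else 0), X.sK 0, X.sK 0, X.sK 0]
    else X.sConst (.null true)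
  | .mk _, .inr (.inl _) => X.sConst (.null false)
  | .mk t, .inr (.inr false) => ![X.sK (X.cP (.mark t)), X.sL 1, X.sK 0, X.sK 0, X.sK 0]
  | .mk t, .inr (.inr true) => ![X.sK (X.cP (.succ t)), X.sL 1, X.sK 0, X.sK 0, X.sK 0]
  | .root, .inl _ => X.sConst (.null true)
  | .root, .inr π => if π = .inr false then X.sConst .root else X.sConst (.null false)
  | .pend _, .inl (.inl _) => X.sConst (.null true)
  | .pend i, .inl (.inr t) =>
    if t = 0 then (if i = 2 then X.sConst (.mark 0) else X.sConst .root) else X.sConst (.null true)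
  | .pend _, .inr _ => X.sConst (.null false)

noncomputable def keyS (y : X.V) : Option (VSm sd M.extra e) → X.V
  | some (.gad (.rule σ ah _) _ _) => X.keyf σ (ah, y.2)
  | some (.gad (.pair σ ah _ _ _) _ _) => X.keyf σ (ah, y.2)
  | _ => X.io 0

def mkbS (y : X.V) : Option (VSm sd M.extra e) → X.V
  | some (.gad (.rule _ _ bh) _ _) => (bh, y.2)
  | some (.gad (.pair _ _ bh _ _) _ _) => (bh, y.2)
  | _ => X.io 0

def parP (tw : Prop) : Option (VSm sd M.extra e) → Prop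
  | some (.gad g _ val) => g.parS val = if tw then 1 else 0
  | some _ => True
  | none => False

noncomputable def g : Tag sd → X.W → X.V → X.V
  | .tru, _, _ => X.bv True
  | .and, x, y => X.bv (x = 1 ∧ y.2 = 1)
  | .or, x, y => X.bv (x = 1 ∨ y.2 = 1)
  | .not, x, _ => X.bv (x ≠ 1)
  | .eq, x, y => X.bv (x = y.2)
  | .isMax, x, _ => X.bv (x.val = X.N' + 1)
  | .isZero, x, _ => X.bv (x = 0)
  | .inc, x, y => X.io (if x = 1 then y.2 + 1 else y.2)
  | .reset, x, y => X.io (if x = 1 then 0 else y.2)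
  | .key, x, y => X.keyS y (X.dV x)
  | .mkb, x, y => X.mkbS y (X.dV x)
  | .lookup, _, _ => X.io 0
  | .add, x, y => X.io (x + y.2)
  | .tw0, x, y => X.bv (y.2 = 1 ∧ ∃ val, X.dV x = some (.gad (.rule .goal .goal .goal) 0 val))
  | .par, x, y => X.bv (parP (y.2 = 1) (X.dV x))
  | .sym, x, y => X.io (X.cG (if x = 1 then (if y.2 = 1 then M.one else M.zero) else M.blank))
  | .const c s, x, _ => X.bv (x = X.dig (X.cval c) s)
  | .comp d κ src, x, y => X.io ((X.dV x).elim 0 fun vs =>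
      if src = (X.spec vs d κ).1 then (X.spec vs d κ).2 y else 0)
  | .zc κ, x, y => X.bv (∀ vs, X.dV x = some vs → vs.zcond κ → y.2 = 0)

instance : Nonempty M.Symbol := ⟨M.blank⟩
instance : Nonempty M.State := ⟨M.start⟩

noncomputable def dG (x : X.W) : M.Symbol := Function.invFun X.cG x
noncomputable def dA (x : X.W) : AccT M := Function.invFun X.cA x
noncomputable def dB (x : X.W) : ActT M × SignType := Function.invFun X.cB x

@[simp] theorem dG_cG (a) : X.dG (X.cG a) = a := Function.leftInverse_invFun X.cG.injective a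
@[simp] theorem dA_cA (a) : X.dA (X.cA a) = a := Function.leftInverse_invFun X.cA.injective a
@[simp] theorem dB_cB (a) : X.dB (X.cB a) = a := Function.leftInverse_invFun X.cB.injective a
@[simp] theorem dV_cV (a) : X.dV (X.cV a) = some a := Function.partialInv_left X.cV.injective a
theorem dV_eq {x a} : X.dV x = some a ↔ X.cV a = x :=
  Function.partialInv_of_injective X.cV.injective a x

noncomputable def gS : Shape sd → X.W → X.V → X.V
  | .reg _, _, _ => X.io 0
  | .app t _ _, a, b => X.g t a b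

noncomputable def rawg : Sch sd M.extra → X.W → X.V → X.V
  | .goal, _, _ => X.io 0
  | .acInit, _, _ => X.io (X.cA (M.start, fun _ => M.blank))
  | .frInit, _, _ => X.io 0
  | .fire, a, _ => (M.delta (X.dA a).1 (X.dA a).2).elim (fun _ => X.no) fun act => X.io (X.cB (act, 0))
  | .accept, a, _ => if M.delta (X.dA a).1 (X.dA a).2 = .inl true then X.io 0 else X.no
  | .bR, a, _ => if (X.dB a).2 ≠ -1 then X.io (X.cB ((X.dB a).1, 1)) else X.no
  | .bL, a, _ => if (X.dB a).2 ≠ 1 then X.io (X.cB ((X.dB a).1, -1)) else X.no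
  | .next, a, _ => if (X.dB a).2 = 0 then X.io (X.cA ((X.dB a).1.1, fun _ => M.blank)) else X.no
  | .frame, _, _ => X.io 0
  | .node x, a, b => X.gS x.1 a b
  | .regStep _, a, b => if a = 1 then X.io b.2 else X.no
  | .regInit _, _, _ => X.io 0
  | .tpInit κ, _, b => if κ = 0 then X.io b.2 else X.io (X.cG M.blank)
  | .accu κ, a, b => X.io (X.cA ((X.dA a).1, Function.update (X.dA a).2 κ (X.dG b.2)))
  | .mv κ δ, a, b => if ((X.dB a).1.2 κ).2 = δ then
      X.io (X.cG (if (X.dB a).2 = 0 then ((X.dB a).1.2 κ).1 else X.dG b.2)) else X.no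

noncomputable def raw (σ : Sch sd M.extra) (a b : X.V) : X.V :=
  X.rawg (X.keyf σ a).1 (X.keyf σ a).2 b

noncomputable def fn (t : Tag sd) (a b : X.V) : X.V :=
  if t = .lookup then X.rawg a.1 a.2 b else X.g t a.2 b

@[reducible] noncomputable def chs : ChSys where
  Chan := Chan sd M.extra
  Sch := Sch sd M.extra
  V := X.V
  s0 := Sch.s0
  s1 := Sch.s1
  s2 := Sch.s2
  d1 := Sch.d1 X.R
  d2 := Sch.d2 X.R
  f σ a b := X.dec σ (X.raw σ a b)
  seed := .seed
  junk := .junk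
  v0 := X.io 0
  goal := .goal

@[reducible] noncomputable def sys : Sys (e + 3) := X.chs.toSys X.p X.hp X.Wd (5 * X.N' + 8)

theorem f_node {t l r} (h : Shape.app t l r ∈ allSub sd) (a b : X.V) :
    X.chs.f (.node ⟨.app t l r, h⟩) a b = some (X.fn t a b) := by
  show X.dec _ (X.raw _ a b) = _
  rw [dec, if_pos (by simp [Sch.isNode]), raw, fn, keyf]
  by_cases ht : t = .lookup
  · subst ht; simp [Sch.isLookup, Shape.isLookup]
  · have : ¬ (Sch.node ⟨.app t l r, h⟩ : Sch sd M.extra).isLookup := by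
      cases t <;> simp_all [Sch.isLookup, Shape.isLookup]
    simp [this, ht, rawg, gS]

theorem f_other {σ : Sch sd M.extra} (h : ¬ σ.isNode) (a b : X.V) :
    X.chs.f σ a b = if (X.rawg σ a.2 b).1 = .goal then some (X.rawg σ a.2 b) else none := by
  show X.dec _ (X.raw _ a b) = _
  have : ¬ σ.isLookup := by cases σ <;> simp_all [Sch.isLookup, Sch.isNode]
  rw [dec, if_neg h, raw, keyf, if_neg this]

/-- register contents at cell number `z` -/
def cnt (z : ℕ) : Fin 3 → ℕ := ![z % X.n, z / X.n % X.n, z / (X.n * X.n)]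
def st (z : ℕ) : Reg sd → X.V := fun ρ => X.io (X.dig (X.cnt z ρ.1) ρ.2)
noncomputable def ev (z : ℕ) (x : Shape sd) : X.V := x.ev X.fn (X.st z)

end Ctx

end Vale.Agent.P310
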