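import Mathlib

namespace Vale.Agent.P310

/-- Colours after `r` rounds of `k`-dimensional refinement: an atomic type (for each pair of
positions, equality and adjacency), then the previous colour together with a multiset of
`k`-tuples of previous colours. -/
def Color (k : ℕ) : ℕ → Type
  | 0 => Fin k → Fin k → Prop × Prop
  | r + 1 => Color k r × Multiset (Fin k → Color k r)

/-- The colour `C_r(x)` of a `k`-tuple `x` of vertices of `X` (joint-update refinement). -/
def wlColor {V : Type} [Fintype V] (k : ℕ) (X : SimpleGraph V) :
    (r : ℕ) → (Fin k → V) → Color k r
  | 0, x => fun i j => (x i = x j, X.Adj (x i) (x j))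
  | r + 1, x => (wlColor k X r x,
      (Finset.univ : Finset V).val.map fun y => fun i => wlColor k X r (Function.update x i y))

/-- `G ≡_k H`: for every round the multisets of colours of all `k`-tuples coincide. -/
def WLEquiv {V W : Type} [Fintype V] [Fintype W] (k : ℕ) (G : SimpleGraph V)
    (H : SimpleGraph W) : Prop :=
  ∀ r : ℕ, (Finset.univ : Finset (Fin k → V)).val.map (wlColor k G r) =
    (Finset.univ : Finset (Fin k → W)).val.map (wlColor k H r)

/-- A deterministic multitape Turing machine with `extra + 1` two-way infinite read-write tapes,
finite state set and finite tape alphabet. Depending on the state and the scanned symbols it either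
halts with a Boolean answer, or changes state, writes a symbol on every tape and moves every head
by `-1`, `0` or `1`. -/
structure TM where
  extra : ℕ
  State : Type
  Symbol : Type
  finState : Finite State
  finSymbol : Finite Symbol
  start : State
  blank : Symbol
  zero : Symbol
  one : Symbol
  delta : State → (Fin (extra + 1) → Symbol) →
    Bool ⊕ (State × (Fin (extra + 1) → Symbol × SignType))

/-- A configuration: state, tape contents, head positions. -/
structure Cfg (M : TM) where
  state : M.State
  tape : Fin (M.extra + 1) → ℤ → M.Symbol
  head : Fin (M.extra + 1) → ℤ

/-- The answer given in a configuration, if the machine halts there. -/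
def TM.answer (M : TM) (c : Cfg M) : Option Bool :=
  match M.delta c.state (fun i => c.tape i (c.head i)) with
  | Sum.inl b => some b
  | Sum.inr _ => none

/-- One step of the machine; a halting configuration stays as it is. -/
def TM.step (M : TM) (c : Cfg M) : Cfg M :=
  match M.delta c.state (fun i => c.tape i (c.head i)) with
  | Sum.inl _ => c
  | Sum.inr a =>
    { state := a.1
      tape := fun i => Function.update (c.tape i) (c.head i) (a.2 i).1
      head := fun i => c.head i + ((a.2 i).2 : ℤ) }

/-- Initial configuration: the input word is written on tape `0` from cell `0` on, all other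
cells are blank, all heads are at cell `0`. -/
def TM.init (M : TM) (w : List Bool) : Cfg M where
  state := M.start
  tape := fun i z =>
    if i = 0 ∧ 0 ≤ z then
      match w[z.toNat]? with
      | some true => M.one
      | some false => M.zero
      | none => M.blank
    else M.blank
  head := fun _ => 0

/-- The configuration after `t` steps on input `w`. -/
def TM.run (M : TM) (w : List Bool) (t : ℕ) : Cfg M := M.step^[t] (M.init w)

/-- The running time on input `w`: the number of steps until the machine halts. -/
noncomputable def TM.time (M : TM) (w : List Bool) : ℕ :=
  sInf {t : ℕ | M.answer (M.run w t) ≠ none}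

open Classical in
/-- The adjacency matrix of a graph on `Fin n`, row by row. -/
noncomputable def adjWord {n : ℕ} (G : SimpleGraph (Fin n)) : List Bool :=
  List.ofFn fun i : Fin (n * n) => decide (G.Adj i.divNat i.modNat)

/-- `M` decides `≡_k`: on the adjacency matrices of any two graphs with the same number of
vertices it halts, and it answers `true` exactly when the graphs are `k`-WL equivalent. -/
def Decides (M : TM) (k : ℕ) : Prop :=
  ∀ (n : ℕ) (G H : SimpleGraph (Fin n)), ∃ (t : ℕ) (b : Bool),
    M.answer (M.run (adjWord G ++ adjWord H) t) = some b ∧ (b = true ↔ WLEquiv k G H)

/-- Worst-case running time over pairs of graphs with `n` vertices each. -/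
noncomputable def worstTime (M : TM) (n : ℕ) : ℕ :=
  ⨆ p : SimpleGraph (Fin n) × SimpleGraph (Fin n), M.time (adjWord p.1 ++ adjWord p.2)

end Vale.Agent.P310
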