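import Vale.Agent.P310.Sys

namespace Vale.Agent.P310

open Classical

variable {k : ℕ} {S : Sys k}

theorem zmod2_cases (x : ZMod 2) : x = 0 ∨ x = 1 := by revert x; decide
theorem zmod2_add_self (x : ZMod 2) : x + x = 0 := by revert x; decide
theorem zmod2_eq_of_add {x y : ZMod 2} (h : x + y = 0) : x = y := by revert x y; decide
theorem zmod2_add_one {x y : ZMod 2} (h : x + y = 1) : x = 1 ∨ y = 1 := by revert x y; decide

/-- value of an assignment on a port -/
def pv (a : Var S → ZMod 2) (l : Loc S) (π : Pt) : ZMod 2 := (l.port π).elim 0 a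

theorem pv_add (a b : Var S → ZMod 2) (l : Loc S) : pv (a + b) l = pv a l + pv b l := by
  funext π
  simp only [pv, Pi.add_apply]
  cases l.port π <;> simp

theorem pv_zero (l : Loc S) : pv (0 : Var S → ZMod 2) l = 0 := by
  funext π
  simp only [pv, Pi.zero_apply]
  cases l.port π <;> simp

def Gam (γ : Var S → ZMod 2) : Prop := ∀ l : Loc S, l.ok → ∑ π, pv γ l π = 0

theorem Gam.add {a b : Var S → ZMod 2} (ha : Gam a) (hb : Gam b) : Gam (a + b) := by
  intro l hl
  simp only [pv_add, Pi.add_apply, Finset.sum_add_distrib, ha l hl, hb l hl, add_zero]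

theorem Gam.zero : Gam (0 : Var S → ZMod 2) := by
  intro l _; simp [pv_zero]

def par (B : Ty S → ZMod 2) (g : Gate S) : ZMod 2 := ∑ s : Fin 5, (g.var s).elim 0 B

theorem par_add (B C : Ty S → ZMod 2) (g : Gate S) : par (B + C) g = par B g + par C g := by
  simp only [par, ← Finset.sum_add_distrib]
  refine Finset.sum_congr rfl fun s _ => ?_
  cases g.var s <;> simp

theorem par_rule (B : Ty S → ZMod 2) (ρ : S.Rule) :
    par B (.rule ρ) = ∑ s : Fin 5, B (node ρ s 0) := by
  simp [par, Gate.var]

theorem par_pair (B : Ty S → ZMod 2) (ρ : S.Rule) (s : Fin 5) (n : Fin S.L) :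
    par B (.pair ρ s n) = B (node ρ s n) + B (node ρ s (n + 1)) := by
  simp [par, Gate.var, Fin.sum_univ_five]

theorem par_fact (B : Ty S → ZMod 2) : par B .fact = B (.ctr S.y0) := by
  simp [par, Gate.var, Fin.sum_univ_five]

noncomputable def xb (B : Ty S → ZMod 2) (r : Fin k) : Var S → ZMod 2
  | .X q r' _ _ => if r' = r then B q else 0
  | .W _ _ _ => 0

theorem xb_add (B C : Ty S → ZMod 2) (r : Fin k) : xb (B + C) r = xb B r + xb C r := by
  funext v
  cases v with
  | X q r' a b => by_cases h : r' = r <;> simp [xb, h]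
  | W => simp [xb]

theorem sum_pt (f : Pt → ZMod 2) :
    ∑ π, f π = ∑ s : Fin 5, f (.inl s) + (f (.inr false) + f (.inr true)) := by
  simp [Fintype.sum_sum_type, add_comm]

theorem sum_pv_xb (B : Ty S → ZMod 2) (r : Fin k) (l : Loc S) :
    ∑ π, pv (xb B r) l π = if l.r = r then par B l.g else 0 := by
  rw [sum_pt]
  simp only [pv, Loc.port, Option.elim_some, xb, add_zero]
  split_ifs with h
  · refine Finset.sum_congr rfl fun s _ => ?_
    cases l.g.var s <;> simp [xb, h]
  · refine Finset.sum_eq_zero fun s _ => ?_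
    cases l.g.var s <;> simp [xb, h]

noncomputable def gau (u : Ty S → Fin k → S.A → ZMod 2) : Var S → ZMod 2
  | .X q r a b => u q r a + u q (S.nxt r) b
  | .W g r a => ∑ s : Fin 5, (g.var s).elim 0 fun q => u q r (g.off s r a)

theorem gam_gau (u : Ty S → Fin k → S.A → ZMod 2) : Gam (gau u) := by
  intro l _
  rw [sum_pt]
  simp only [pv, Loc.port, Option.elim_some, gau]
  rw [← Finset.sum_add_distrib, ← Finset.sum_add_distrib]
  refine Finset.sum_eq_zero fun s _ => ?_
  cases l.g.var s with
  | none => simp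
  | some q => simp [gau, zmod2_add_self]

def sees (l : Loc S) (q : Ty S) (a b : S.A) : Prop :=
  ∃ s, l.g.var s = some q ∧ a = l.g.off s l.r l.a ∧ b = l.g.off s (S.nxt l.r) l.b

def EvenOn (U : Finset (Loc S)) (C : Ty S → ZMod 2) : Prop := ∀ l ∈ U, par C l.g = 0

def KillAt (U : Finset (Loc S)) (C : Ty S → ZMod 2) (r : Fin k) : Prop :=
  ∃ γ, Gam γ ∧ ∀ l ∈ U, pv γ l = pv (xb C r) l

theorem KillAt.add {U : Finset (Loc S)} {C C' : Ty S → ZMod 2} {r : Fin k} (h : KillAt U C r)
    (h' : KillAt U C' r) : KillAt U (C + C') r := by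
  obtain ⟨γ, h1, h2⟩ := h
  obtain ⟨γ', h1', h2'⟩ := h'
  refine ⟨γ + γ', h1.add h1', fun l hl => ?_⟩
  rw [pv_add, xb_add, pv_add, h2 l hl, h2' l hl]

theorem KillAt.move {D : S.Atom → (Fin k → S.A) → Prop} (H : DupHyp S D) {U : Finset (Loc S)}
    {C : Ty S → ZMod 2} {r : Fin k} (hE : EvenOn U C) (h : KillAt U C r) : KillAt U C S.r0 := by
  obtain ⟨γ, h1, h2⟩ := h
  obtain ⟨χ, hχ⟩ := H.hchi r
  refine ⟨γ + gau (fun q r' _ => χ r' * C q), h1.add (gam_gau _), fun l hl => ?_⟩
  rw [pv_add, h2 l hl]
  have hw : ∀ r', ∑ s : Fin 5, (l.g.var s).elim 0 (fun q => χ r' * C q) = 0 := by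
    intro r'
    have := hE l hl
    rw [par] at this
    refine Eq.trans ?_ ((congrArg (χ r' * ·) this).trans (mul_zero _))
    rw [Finset.mul_sum]
    refine Finset.sum_congr rfl fun s _ => ?_
    cases l.g.var s <;> simp
  funext π
  rcases π with s | (_ | _)
  · simp only [pv, Loc.port, Pi.add_apply]
    cases l.g.var s with
    | none => simp
    | some q =>
      simp only [Option.map_some, Option.elim_some, xb, gau]
      rw [← add_mul, hχ]
      generalize C q = c
      split_ifs <;> revert c <;> decide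
  · simp [pv, Loc.port, xb, gau, hw]
  · simp [pv, Loc.port, xb, gau, hw]

theorem killAt_free {U : Finset (Loc S)} (C : Ty S → ZMod 2) {r : Fin k}
    (h : ∀ l ∈ U, l.r ≠ r) : KillAt U C r := by
  refine ⟨0, Gam.zero, fun l hl => ?_⟩
  rw [pv_zero]
  funext π
  rcases π with s | (_ | _)
  · simp only [pv, Loc.port, Pi.zero_apply]
    cases l.g.var s <;> simp [xb, h l hl]
  · simp [pv, Loc.port, xb]
  · simp [pv, Loc.port, xb]

theorem killAt_cut {D : S.Atom → (Fin k → S.A) → Prop} (H : DupHyp S D) {U : Finset (Loc S)}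
    {C : Ty S → ZMod 2} (hE : EvenOn U C) {l1 l2 : Loc S} (h1 : l1 ∈ U)
    (hr : l2.r = S.nxt l1.r)
    (u1 : ∀ l ∈ U, l.r = l1.r → l = l1) (u2 : ∀ l ∈ U, l.r = l2.r → l = l2)
    (hs : ∀ q a b b', sees l1 q a b → sees l2 q b b' → C q = 0) : KillAt U C l1.r := by
  let u : Ty S → Fin k → S.A → ZMod 2 := fun q r' b =>
    if r' = S.nxt l1.r ∧ ∃ a, sees l1 q a b then C q else 0
  have hn1 : S.nxt l1.r ≠ l1.r := H.hnxt _
  refine ⟨gau u, gam_gau u, fun l hl => ?_⟩
  -- values of `u` at top and bottom positions of `l`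
  have htop : ∀ s q, l.g.var s = some q → u q l.r (l.g.off s l.r l.a) = 0 := by
    intro s q hq
    simp only [u]
    split_ifs with hc
    · obtain ⟨e, a, ha⟩ := hc
      have : l = l2 := u2 l hl (e.trans hr.symm)
      subst this
      exact hs q a _ _ ha ⟨s, hq, rfl, rfl⟩
    · rfl
  have hbot : ∀ s q, l.g.var s = some q →
      u q (S.nxt l.r) (l.g.off s (S.nxt l.r) l.b) = if l.r = l1.r then C q else 0 := by
    intro s q hq
    simp only [u]
    by_cases e : l.r = l1.r
    · have : l = l1 := u1 l hl e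
      subst this
      rw [if_pos ⟨rfl, _, s, hq, rfl, rfl⟩, if_pos rfl]
    · rw [if_neg e, if_neg]
      rintro ⟨e', -⟩
      exact e (S.nxt.injective e')
  funext π
  rcases π with s | (_ | _)
  · simp only [pv, Loc.port]
    cases hq : l.g.var s with
    | none => simp
    | some q =>
      simp only [Option.map_some, Option.elim_some, xb, gau]
      rw [htop s q hq, hbot s q hq, zero_add]
  · simp only [pv, Loc.port, Option.elim_some, xb, gau]
    refine Finset.sum_eq_zero fun s _ => ?_
    cases hq : l.g.var s with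
    | none => simp
    | some q => simpa using htop s q hq
  · simp only [pv, Loc.port, Option.elim_some, xb, gau]
    by_cases e : l.r = l1.r
    · have := hE l hl
      rw [par] at this
      refine Eq.trans ?_ this
      refine Finset.sum_congr rfl fun s _ => ?_
      cases hq : l.g.var s with
      | none => simp
      | some q => simpa [e] using hbot s q hq
    · refine Finset.sum_eq_zero fun s _ => ?_
      cases hq : l.g.var s with
      | none => simp
      | some q => simpa [e] using hbot s q hq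

theorem cl_node (ρ : S.Rule) (s : Fin 5) (m : ℕ) : (node ρ s m).cl = S.bd ρ (sl s) := by
  unfold node; split_ifs <;> rfl

/-- indicator of the class of the seed atom -/
noncomputable def clsY : Ty S → ZMod 2 := fun q => if q.cl = S.y0 then 1 else 0

theorem par_clsY {D : S.Atom → (Fin k → S.A) → Prop} (H : DupHyp S D) {g : Gate S}
    (hg : g ≠ .fact) : par clsY g = 0 := by
  cases g with
  | rule ρ =>
    rw [par_rule, Fin.sum_univ_five]
    simp [clsY, cl_node, sl, H.hy0 ρ, zmod2_add_self]
  | pair ρ s n => rw [par_pair]; simp [clsY, cl_node, zmod2_add_self]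
  | fact => exact absurd rfl hg

theorem killAt_psi {D : S.Atom → (Fin k → S.A) → Prop} (H : DupHyp S D) {U : Finset (Loc S)}
    {l1 : Loc S} (u1 : ∀ l ∈ U, l.r = l1.r → l = l1) {a b : S.A}
    (hab : ¬ (a = S.j0 l1.r ∧ b = S.j0 (S.nxt l1.r)))
    (hs : ∀ q a' b', sees l1 q a' b' → q.cl = S.y0 → a' = a ∧ b' = b) :
    KillAt U clsY l1.r := by
  let ψ : Var S → ZMod 2 := fun v => match v with
    | .X q r a' b' => if q.cl = S.y0 ∧ r = l1.r ∧ a' = a ∧ b' = b then 1 else 0
    | .W _ _ _ => 0
  refine ⟨ψ, ?_, ?_⟩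
  · intro l hl
    rw [sum_pt]
    simp only [pv, Loc.port, Option.elim_some, ψ, add_zero]
    obtain ⟨g, r, a', b'⟩ := l
    cases g with
    | rule ρ =>
      rw [Fin.sum_univ_five]
      simp [Gate.var, Gate.off, cl_node, sl, H.hy0 ρ, zmod2_add_self]
    | pair ρ s n =>
      rw [Fin.sum_univ_five]
      simp [Gate.var, Gate.off, cl_node, zmod2_add_self]
    | fact =>
      rw [Fin.sum_univ_five]
      have := hl rfl
      simp only at this
      simp only [Gate.var, Gate.off]
      simp
      rintro - rfl rfl rfl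
      exact hab this
  · intro l hl
    funext π
    rcases π with s | (_ | _)
    · simp only [pv, Loc.port]
      cases hq : l.g.var s with
      | none => simp
      | some q =>
        simp only [Option.map_some, Option.elim_some, xb, ψ, clsY]
        by_cases e : l.r = l1.r
        · have : l = l1 := u1 l hl e
          subst this
          by_cases hc : q.cl = S.y0
          · have := hs q _ _ ⟨s, hq, rfl, rfl⟩ hc
            simp [hc, this.1, this.2]
          · simp [hc]
        · simp [e]
    · simp [pv, Loc.port, xb, ψ]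
    · simp [pv, Loc.port, xb, ψ]

end Vale.Agent.P310
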