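import Vale.Agent.P310.Dup1

namespace Vale.Agent.P310

open Classical

variable {k : ℕ} {S : Sys k}

def lnk (U : Finset (Loc S)) (q q' : Ty S) : Prop :=
  ∃ l ∈ U, ∃ ρ s n, l.g = .pair ρ s n ∧
    ((q = node ρ s n ∧ q' = node ρ s (n + 1)) ∨ (q' = node ρ s n ∧ q = node ρ s (n + 1)))

def Conn (U : Finset (Loc S)) : Ty S → Ty S → Prop := Relation.ReflTransGen (lnk U)

theorem lnk.symm {U : Finset (Loc S)} {q q' : Ty S} (h : lnk U q q') : lnk U q' q := by
  obtain ⟨l, hl, ρ, s, n, hg, h⟩ := h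
  exact ⟨l, hl, ρ, s, n, hg, h.symm⟩

theorem Conn.refl {U : Finset (Loc S)} (q : Ty S) : Conn U q q := Relation.ReflTransGen.refl

theorem Conn.trans {U : Finset (Loc S)} {a b c : Ty S} (h : Conn U a b) (h' : Conn U b c) :
    Conn U a c := Relation.ReflTransGen.trans h h'

theorem Conn.symm {U : Finset (Loc S)} {a b : Ty S} (h : Conn U a b) : Conn U b a := by
  induction h with
  | refl => exact Conn.refl _
  | tail _ h2 ih => exact Relation.ReflTransGen.head h2.symm ih

theorem Conn.mono {U U' : Finset (Loc S)} (hU : U ⊆ U') {a b : Ty S} (h : Conn U a b) :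
    Conn U' a b := by
  induction h with
  | refl => exact Conn.refl _
  | tail _ h2 ih =>
    obtain ⟨l, hl, h3⟩ := h2
    exact Relation.ReflTransGen.tail ih ⟨l, hU hl, h3⟩

theorem Conn.cl {U : Finset (Loc S)} {a b : Ty S} (h : Conn U a b) : a.cl = b.cl := by
  induction h with
  | refl => rfl
  | tail _ h2 ih =>
    obtain ⟨l, hl, ρ, s, n, hg, h3 | h3⟩ := h2
    · rw [ih, h3.1, h3.2, cl_node, cl_node]
    · rw [ih, h3.1, h3.2, cl_node, cl_node]

theorem Conn.even {U : Finset (Loc S)} {C : Ty S → ZMod 2} (hE : EvenOn U C) {a b : Ty S}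
    (h : Conn U a b) : C a = C b := by
  induction h with
  | refl => rfl
  | tail _ h2 ih =>
    obtain ⟨l, hl, ρ, s, n, hg, h3⟩ := h2
    have := hE l hl
    rw [hg, par_pair] at this
    have := zmod2_eq_of_add this
    rcases h3 with h3 | h3
    · rw [ih, h3.1, h3.2, this]
    · rw [ih, h3.1, h3.2, this]

theorem node_fin (ρ : S.Rule) (s : Fin 5) (n : Fin S.L) : node ρ s n = Ty.leg ρ s n := by
  simp [node, n.2]

theorem node_eq_leg {ρ ρ' : S.Rule} {s s' : Fin 5} {m : ℕ} {n : Fin S.L}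
    (h : node ρ s m = Ty.leg ρ' s' n) : ρ = ρ' ∧ s = s' ∧ m = n := by
  unfold node at h
  split_ifs at h with hm
  cases h
  exact ⟨rfl, rfl, rfl⟩

theorem conn_leg {U : Finset (Loc S)} (hU : U.card < S.L) {ρ : S.Rule} {s : Fin 5} {q : Ty S}
    (h : Conn U (node ρ s 0) q) : ∃ n, q = Ty.leg ρ s n := by
  have : ∃ n0 : Fin S.L, ∀ l ∈ U, l.g ≠ .pair ρ s n0 := by
    by_contra hne
    push Not at hne
    choose f hf1 hf2 using hne
    have hinj : Function.Injective f := by
      intro a b hab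
      have := (hf2 a).symm.trans (hab ▸ hf2 b)
      cases this; rfl
    have := Finset.card_le_card_of_injOn (s := Finset.univ) (t := U) f (fun a _ => hf1 a)
      hinj.injOn
    simp at this
    omega
  obtain ⟨n0, hn0⟩ := this
  have key : ∃ n : Fin S.L, q = Ty.leg ρ s n ∧ n ≤ n0 := by
    induction h with
    | refl =>
      have h0 : 0 < S.L := by omega
      exact ⟨⟨0, h0⟩, by simp [node, h0], Nat.zero_le _⟩
    | tail _ h2 ih =>
      obtain ⟨n, rfl, hn⟩ := ih
      obtain ⟨l, hl, ρ', s', n', hg, h3 | h3⟩ := h2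
      · obtain ⟨rfl, rfl, e⟩ := node_eq_leg h3.1.symm
        have e' : n' = n := Fin.ext e
        subst e'
        have hne : n' ≠ n0 := by rintro rfl; exact hn0 l hl hg
        have hlt : n'.val + 1 ≤ n0.val := by
          have : n'.val ≤ n0.val := hn
          have : n'.val ≠ n0.val := fun h => hne (Fin.ext h)
          omega
        have h1 : n'.val + 1 < S.L := by have := n0.2; omega
        exact ⟨⟨n'.val + 1, h1⟩, by rw [h3.2]; simp [node, h1], hlt⟩
      · obtain ⟨rfl, rfl, e⟩ := node_eq_leg h3.2.symm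
        refine ⟨n', by rw [h3.1, node_fin], ?_⟩
        have : n.val ≤ n0.val := hn
        show n'.val ≤ n0.val
        omega
  obtain ⟨n, hn, -⟩ := key
  exact ⟨n, hn⟩

theorem conn_end {U : Finset (Loc S)} (hU : U.card < S.L) {ρ ρ' : S.Rule} {s s' : Fin 5}
    (h : Conn U (node ρ s 0) (node ρ' s' 0)) : ρ = ρ' ∧ s = s' := by
  obtain ⟨n, hn⟩ := conn_leg hU h
  obtain ⟨h1, h2, -⟩ := node_eq_leg hn
  exact ⟨h1.symm, h2.symm⟩

theorem not_conn_ctr {U : Finset (Loc S)} (hU : U.card < S.L) {ρ : S.Rule} {s : Fin 5}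
    {c : S.Atom} : ¬ Conn U (node ρ s 0) (Ty.ctr c) := by
  intro h
  obtain ⟨n, hn⟩ := conn_leg hU h
  cases hn

noncomputable def ind (U : Finset (Loc S)) (q : Ty S) : Ty S → ZMod 2 :=
  fun q' => if Conn U q q' then 1 else 0

theorem ind_eq_one {U : Finset (Loc S)} {q q' : Ty S} : ind U q q' = 1 ↔ Conn U q q' := by
  unfold ind; split_ifs with h <;> simp [h]

theorem par_ind_pair {U : Finset (Loc S)} (q : Ty S) {l : Loc S} (hl : l ∈ U) {ρ s n}
    (hg : l.g = .pair ρ s n) : par (ind U q) l.g = 0 := by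
  rw [hg, par_pair]
  have h1 : Conn U (node ρ s n) (node ρ s (n + 1)) :=
    Relation.ReflTransGen.single ⟨l, hl, ρ, s, n, hg, Or.inl ⟨rfl, rfl⟩⟩
  have : Conn U q (node ρ s n) ↔ Conn U q (node ρ s (n + 1)) :=
    ⟨fun h => h.trans h1, fun h => h.trans h1.symm⟩
  simp [ind, this, zmod2_add_self]

theorem par_ind_end {U : Finset (Loc S)} (hU : U.card < S.L) (ρ : S.Rule) (s : Fin 5)
    {l : Loc S} (hl : l ∈ U) :
    par (ind U (node ρ s 0)) l.g = if l.g = .rule ρ then 1 else 0 := by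
  cases hg : l.g with
  | rule ρ' =>
    rw [par_rule]
    by_cases e : ρ' = ρ
    · subst e
      rw [if_pos rfl, Finset.sum_eq_single s]
      · exact ind_eq_one.2 (Conn.refl _)
      · intro s' _ hs
        simp only [ind]
        rw [if_neg]
        intro h
        exact hs (conn_end hU h).2.symm
      · simp
    · rw [if_neg (by simpa using e)]
      refine Finset.sum_eq_zero fun s' _ => ?_
      simp only [ind]
      rw [if_neg]
      intro h
      exact e (conn_end hU h).1.symm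
  | pair ρ' s' n =>
    rw [← hg, par_ind_pair _ hl hg, if_neg (by rw [hg]; simp)]
  | fact =>
    rw [par_fact]
    simp [ind, not_conn_ctr hU]

theorem par_ind_mid {U : Finset (Loc S)} {q : Ty S} (hq : ∀ ρ s, ¬ Conn U q (node ρ s 0))
    {l : Loc S} (hl : l ∈ U) (hf : l.g = .fact → ¬ Conn U q (.ctr S.y0)) :
    par (ind U q) l.g = 0 := by
  cases hg : l.g with
  | rule ρ' =>
    rw [par_rule]
    refine Finset.sum_eq_zero fun s' _ => ?_
    simp [ind, hq]
  | pair ρ' s' n => rw [← hg, par_ind_pair _ hl hg]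
  | fact =>
    rw [par_fact]
    simp [ind, hf hg]

theorem ind_congr {U : Finset (Loc S)} {q q' : Ty S} (h : Conn U q q') : ind U q = ind U q' := by
  funext x
  have : Conn U q x ↔ Conn U q' x := ⟨fun h' => h.symm.trans h', fun h' => h.trans h'⟩
  simp [ind, this]

theorem sees_rule {l : Loc S} {ρ : S.Rule} (hg : l.g = .rule ρ) {q a b} :
    sees l q a b ↔ ∃ s, q = node ρ s 0 ∧ a = S.sg ρ (sl s) l.r l.a ∧
      b = S.sg ρ (sl s) (S.nxt l.r) l.b := by
  simp only [sees, hg, Gate.var, Gate.off, Option.some.injEq]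
  exact exists_congr fun s => and_congr_left fun _ => eq_comm

theorem sees_pair {l : Loc S} {ρ s n} (hg : l.g = .pair ρ s n) {q a b} (h : sees l q a b) :
    (q = node ρ s n ∨ q = node ρ s (n + 1)) ∧ a = l.a ∧ b = l.b := by
  obtain ⟨t, h1, h2, h3⟩ := h
  simp only [hg, Gate.var, Gate.off] at h1 h2 h3
  refine ⟨?_, h2, h3⟩
  split_ifs at h1
  · exact Or.inl (Option.some.inj h1).symm
  · exact Or.inr (Option.some.inj h1).symm

theorem sees_fact {l : Loc S} (hg : l.g = .fact) {q a b} (h : sees l q a b) :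
    q = .ctr S.y0 ∧ a = l.a ∧ b = l.b := by
  obtain ⟨t, h1, h2, h3⟩ := h
  simp only [hg, Gate.var, Gate.off] at h1 h2 h3
  refine ⟨?_, h2, h3⟩
  split_ifs at h1
  exact (Option.some.inj h1).symm

/-- a pebbled non-rule gate sees only connected types, at the same edge -/
theorem sees_nonrule {U : Finset (Loc S)} {l : Loc S} (hl : l ∈ U) (hg : ∀ ρ, l.g ≠ .rule ρ)
    {q a b q' a' b'} (h : sees l q a b) (h' : sees l q' a' b') :
    Conn U q q' ∧ a = a' ∧ b = b' := by
  cases hg' : l.g with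
  | rule ρ => exact absurd hg' (hg ρ)
  | pair ρ s n =>
    obtain ⟨h1, rfl, rfl⟩ := sees_pair hg' h
    obtain ⟨h2, rfl, rfl⟩ := sees_pair hg' h'
    have hc : Conn U (node ρ s n) (node ρ s (n + 1)) :=
      Relation.ReflTransGen.single ⟨l, hl, ρ, s, n, hg', Or.inl ⟨rfl, rfl⟩⟩
    refine ⟨?_, rfl, rfl⟩
    rcases h1 with rfl | rfl <;> rcases h2 with rfl | rfl
    · exact Conn.refl _
    · exact hc
    · exact hc.symm
    · exact Conn.refl _
  | fact =>
    obtain ⟨rfl, rfl, rfl⟩ := sees_fact hg' h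
    obtain ⟨rfl, rfl, rfl⟩ := sees_fact hg' h'
    exact ⟨Conn.refl _, rfl, rfl⟩

theorem same_edge {U : Finset (Loc S)} (hU : U.card < S.L) {l : Loc S} (hl : l ∈ U)
    {q a b q' a' b'} (h : sees l q a b) (h' : sees l q' a' b') (hc : Conn U q q') :
    a = a' ∧ b = b' := by
  by_cases hg : ∀ ρ, l.g ≠ .rule ρ
  · exact (sees_nonrule hl hg h h').2
  · push Not at hg
    obtain ⟨ρ, hg⟩ := hg
    obtain ⟨s, rfl, rfl, rfl⟩ := (sees_rule hg).1 h
    obtain ⟨s', rfl, rfl, rfl⟩ := (sees_rule hg).1 h'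
    obtain ⟨-, rfl⟩ := conn_end hU hc
    exact ⟨rfl, rfl⟩

end Vale.Agent.P310
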