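import Vale.Agent.P310.Dup2

namespace Vale.Agent.P310

open Classical

variable {k : ℕ} {S : Sys k} {D : S.Atom → (Fin k → S.A) → Prop}

noncomputable def twg (g : Gate S) : ZMod 2 := if g = .rule S.ρ0 then 1 else 0

def Good (U : Finset (Loc S)) (B : Ty S → ZMod 2) : Prop := ∀ l ∈ U, par B l.g = twg l.g

def Wall (U : Finset (Loc S)) (q : Ty S) (j : Fin k → S.A) : Prop :=
  ∀ r, ∃ l ∈ U, l.r = r ∧ ∃ q', Conn U q q' ∧ sees l q' (j r) (j (S.nxt r))

def Safe (D : S.Atom → (Fin k → S.A) → Prop) (U : Finset (Loc S)) (B : Ty S → ZMod 2) : Prop :=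
  ∀ q j, B q = 1 → Wall U q j → ¬ D q.cl j

theorem Wall.mono {U U' : Finset (Loc S)} (hU : U ⊆ U') {q j} (h : Wall U q j) : Wall U' q j := by
  intro r
  obtain ⟨l, hl, h1, q', h2, h3⟩ := h r
  exact ⟨l, hU hl, h1, q', h2.mono hU, h3⟩

theorem Safe.add {U : Finset (Loc S)} {B C : Ty S → ZMod 2} (h : Safe D U B) (h' : Safe D U C) :
    Safe D U (B + C) := by
  intro q j hq hw
  rcases zmod2_add_one hq with e | e
  · exact h q j e hw
  · exact h' q j e hw

theorem safe_B0 (H : DupHyp S D) (U U' : Finset (Loc S)) :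
    Safe D U (ind U' (node S.ρ0 0 0)) := by
  intro q j hq _
  rw [← (ind_eq_one.1 hq).cl, cl_node]
  exact H.goal _ _

theorem EvenOn.add {U : Finset (Loc S)} {B C : Ty S → ZMod 2} (h : EvenOn U B) (h' : EvenOn U C) :
    EvenOn U (B + C) := by
  intro l hl; rw [par_add, h l hl, h' l hl, add_zero]

theorem EvenOn.mono {U U' : Finset (Loc S)} (hU : U ⊆ U') {B : Ty S → ZMod 2} (h : EvenOn U' B) :
    EvenOn U B := fun l hl => h l (hU hl)

theorem add_add_cancel_fun (C C1 : Ty S → ZMod 2) : C + C1 + C1 = C := by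
  funext q; simp [add_assoc, zmod2_add_self]

/-- one pebble per row -/
structure Full (U : Finset (Loc S)) (μ : Fin k → Loc S) : Prop where
  mem : ∀ r, μ r ∈ U
  row : ∀ r, (μ r).r = r
  uniq : ∀ l ∈ U, l = μ l.r

def Sh (μ : Fin k → Loc S) (r : Fin k) (q : Ty S) : Prop :=
  ∃ a b b', sees (μ r) q a b ∧ sees (μ (S.nxt r)) q b b'

theorem Full.cut (H : DupHyp S D) {U : Finset (Loc S)} {μ : Fin k → Loc S} (F : Full U μ)
    {C : Ty S → ZMod 2} (hE : EvenOn U C) {r : Fin k} (h : ∀ q, Sh μ r q → C q = 0) :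
    KillAt U C S.r0 := by
  refine KillAt.move H hE (killAt_cut H hE (l1 := μ r) (l2 := μ (S.nxt r)) (F.mem r)
    (by rw [F.row, F.row]) ?_ ?_ ?_)
  · intro l hl e; rw [F.uniq l hl, e, F.row]
  · intro l hl e; rw [F.uniq l hl, e, F.row]
  · intro q a b b' h1 h2; exact h q ⟨a, b, b', h1, h2⟩

theorem Full.wall_eq (H : DupHyp S D) {U : Finset (Loc S)} {μ : Fin k → Loc S} (F : Full U μ)
    (lam : Loc S) {q : Ty S} {j j' : Fin k → S.A}
    (h : ∀ r q' a b, Conn (insert lam U) q q' → sees (μ r) q' a b → a = j r ∧ b = j (S.nxt r))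
    (hw : Wall (insert lam U) q j') : j' = j := by
  have key : ∀ r, r ≠ lam.r → j' r = j r ∧ j' (S.nxt r) = j (S.nxt r) := by
    intro r hr
    obtain ⟨l, hl, h1, q', h2, h3⟩ := hw r
    rcases Finset.mem_insert.1 hl with rfl | hl
    · exact absurd h1.symm hr
    · rw [F.uniq l hl, h1] at h3
      exact h r q' _ _ h2 h3
  funext r
  by_cases hr : r = lam.r
  · have h1 : S.nxt.symm r ≠ lam.r := by
      rw [← hr]
      intro e
      exact H.hnxt r (by conv_lhs => rw [← e]; simp)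
    have := (key _ h1).2
    simpa using this
  · exact (key r hr).1

noncomputable def star (U : Finset (Loc S)) (ρ : S.Rule) (c : Fin 5 → ZMod 2) : Ty S → ZMod 2 :=
  fun q => ∑ t, c t * ind U (node ρ t 0) q

theorem star_even {U : Finset (Loc S)} (hU : U.card < S.L) (ρ : S.Rule) {c : Fin 5 → ZMod 2}
    (hc : ∑ t, c t = 0) : EvenOn U (star U ρ c) := by
  intro l hl
  have : par (star U ρ c) l.g = ∑ t, c t * par (ind U (node ρ t 0)) l.g := by
    simp only [par, Finset.mul_sum]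
    rw [Finset.sum_comm]
    refine Finset.sum_congr rfl fun s _ => ?_
    cases l.g.var s <;> simp [star]
  rw [this]
  simp only [par_ind_end hU ρ _ hl]
  rw [← Finset.sum_mul, hc, zero_mul]

theorem star_conn {U : Finset (Loc S)} (hU : U.card < S.L) (ρ : S.Rule) (c : Fin 5 → ZMod 2)
    {s : Fin 5} {q : Ty S} (h : Conn U (node ρ s 0) q) : star U ρ c q = c s := by
  rw [star, Finset.sum_eq_single s]
  · rw [ind_eq_one.2 h, mul_one]
  · intro t _ ht
    simp only [ind]
    rw [if_neg, mul_zero]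
    intro h'
    exact ht (conn_end hU (h'.trans h.symm)).2
  · simp

theorem star_one {U : Finset (Loc S)} {ρ : S.Rule} {c : Fin 5 → ZMod 2} {q : Ty S}
    (h : star U ρ c q = 1) : ∃ t, c t = 1 ∧ Conn U (node ρ t 0) q := by
  by_contra hne
  push Not at hne
  have : star U ρ c q = 0 := by
    refine Finset.sum_eq_zero fun t _ => ?_
    rcases zmod2_cases (c t) with e | e
    · rw [e, zero_mul]
    · simp [ind, hne t e]
  rw [this] at h
  exact absurd h (by decide)

theorem star_safe (H : DupHyp S D) {U : Finset (Loc S)} {μ : Fin k → Loc S} (F : Full U μ)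
    (lam : Loc S) (ρ : S.Rule) (c : Fin 5 → ZMod 2) (jG : Fin k → S.A)
    (h : ∀ t, c t = 1 → ¬ D (S.bd ρ (sl t)) (app ρ (sl t) jG) ∧
      ∀ r q' a b, Conn (insert lam U) (node ρ t 0) q' → sees (μ r) q' a b →
        a = app ρ (sl t) jG r ∧ b = app ρ (sl t) jG (S.nxt r)) :
    Safe D (insert lam U) (star (insert lam U) ρ c) := by
  intro q j hq hw
  obtain ⟨t, ht, hc⟩ := star_one hq
  have := F.wall_eq H lam (q := q) (j := app ρ (sl t) jG)
    (fun r q' a b h1 h2 => (h t ht).2 r q' a b (hc.trans h1) h2) hw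
  rw [this, ← hc.cl, cl_node]
  exact (h t ht).1

theorem partner (H : DupHyp S D) (ρ : S.Rule) (s : Fin 5) (jG : Fin k → S.A)
    (h : ¬ D (S.bd ρ (sl s)) (app ρ (sl s) jG)) :
    ∃ s', s' ≠ s ∧ ¬ D (S.bd ρ (sl s')) (app ρ (sl s') jG) := by
  fin_cases s
  · by_cases h1 : D (S.bd ρ 1) (app ρ 1 jG)
    · exact ⟨3, by decide, fun h2 => h (H.closed ρ jG h1 h2)⟩
    · exact ⟨1, by decide, h1⟩
  · exact ⟨2, by decide, h⟩
  · exact ⟨1, by decide, h⟩
  · exact ⟨4, by decide, h⟩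
  · exact ⟨3, by decide, h⟩

theorem sg_y0 (H : DupHyp S D) (ρ : S.Rule) {s s' : Fin 3} (h : S.bd ρ s = S.y0)
    (h' : S.bd ρ s' = S.y0) : S.sg ρ s = S.sg ρ s' := by
  fin_cases s <;> fin_cases s'
  all_goals first
    | rfl
    | exact absurd h (H.hy0 ρ)
    | exact absurd h' (H.hy0 ρ)
    | exact H.hy1 ρ h h'
    | exact (H.hy1 ρ h' h).symm

theorem exists_third (s : Fin 5) (P : Fin 5 → Prop) (h : ∀ t t', P t → P t' → t = t') :
    ∃ t, t ≠ s ∧ ¬ P t := by
  by_contra hne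
  push Not at hne
  fin_cases s
  · exact absurd (h 1 2 (hne 1 (by decide)) (hne 2 (by decide))) (by decide)
  · exact absurd (h 0 2 (hne 0 (by decide)) (hne 2 (by decide))) (by decide)
  · exact absurd (h 0 1 (hne 0 (by decide)) (hne 1 (by decide))) (by decide)
  · exact absurd (h 0 1 (hne 0 (by decide)) (hne 1 (by decide))) (by decide)
  · exact absurd (h 0 1 (hne 0 (by decide)) (hne 1 (by decide))) (by decide)

/-- two shared types that are not connected force a tight interface on a rule gate -/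
theorem Full.tight {U : Finset (Loc S)} {μ : Fin k → Loc S} (F : Full U μ) (hU : U.card < S.L)
    {r : Fin k} {q q' : Ty S} (h : Sh μ r q) (h' : Sh μ r q') (hc : ¬ Conn U q q') :
    ∃ ρ, (μ r).g = .rule ρ ∧ (μ (S.nxt r)).g = .rule ρ ∧ (μ r).b = (μ (S.nxt r)).a := by
  obtain ⟨a, b, b', h1, h2⟩ := h
  obtain ⟨c, d, d', h3, h4⟩ := h'
  have e1 : ∃ ρ, (μ r).g = .rule ρ := by
    by_contra hne; push Not at hne
    exact hc (sees_nonrule (F.mem _) hne h1 h3).1
  have e2 : ∃ ρ, (μ (S.nxt r)).g = .rule ρ := by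
    by_contra hne; push Not at hne
    exact hc (sees_nonrule (F.mem _) hne h2 h4).1
  obtain ⟨ρ, e1⟩ := e1
  obtain ⟨ρ', e2⟩ := e2
  obtain ⟨s, rfl, -, hb⟩ := (sees_rule e1).1 h1
  obtain ⟨s', hq, hb', -⟩ := (sees_rule e2).1 h2
  obtain ⟨rfl, rfl⟩ := conn_end hU (hq ▸ Conn.refl _ : Conn U (node ρ s 0) (node ρ' s' 0))
  refine ⟨ρ, e1, e2, ?_⟩
  rw [F.row] at hb hb'
  exact (S.sg ρ (sl s) (S.nxt r)).injective (hb.symm.trans hb')

theorem pair_coeff (s s' : Fin 5) :
    ∑ t : Fin 5, ((if t = s then (1 : ZMod 2) else 0) + if t = s' then 1 else 0) = 0 := by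
  rw [Finset.sum_add_distrib]; simp; decide

theorem case_cut (H : DupHyp S D) {U : Finset (Loc S)} {μ : Fin k → Loc S} (F : Full U μ)
    (hU : U.card < S.L) {C : Ty S → ZMod 2} (hE : EvenOn U C) {q0 : Ty S} (hq0 : C q0 = 1)
    {r1 : Fin k} (h1 : ∀ q, Sh μ r1 q → ¬ Conn U q0 q) :
    ∃ C1, EvenOn U C1 ∧ (∀ q, Conn U q0 q → C1 q = 1) ∧ KillAt U C1 S.r0 := by
  by_cases hleg : ∃ ρ s, Conn U q0 (node ρ s 0)
  · obtain ⟨ρ, s, hs⟩ := hleg
    obtain ⟨s', hs', hP⟩ := exists_third s (fun t => ∃ q, Sh μ r1 q ∧ Conn U (node ρ t 0) q) (by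
      rintro t t' ⟨q, hq, hc⟩ ⟨q', hq', hc'⟩
      by_contra hne
      have hnc : ¬ Conn U q q' := fun h => hne (conn_end hU (hc.trans (h.trans hc'.symm))).2
      obtain ⟨ρ', e1, e2, e3⟩ := F.tight hU hq hq' hnc
      obtain ⟨a, b, b', h2, -⟩ := hq
      obtain ⟨t1, rfl, -⟩ := (sees_rule e1).1 h2
      obtain ⟨rfl, -⟩ := conn_end hU hc
      refine h1 (node ρ s 0) ⟨_, _, S.sg ρ (sl s) (S.nxt (μ (S.nxt r1)).r) (μ (S.nxt r1)).b,
        (sees_rule e1).2 ⟨s, rfl, rfl, rfl⟩, (sees_rule e2).2 ⟨s, rfl, ?_, rfl⟩⟩ hs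
      rw [F.row, F.row, e3])
    let c : Fin 5 → ZMod 2 := fun t => (if t = s then 1 else 0) + if t = s' then 1 else 0
    have hev : EvenOn U (star U ρ c) := star_even hU ρ (pair_coeff s s')
    refine ⟨star U ρ c, hev, ?_, F.cut H hev (r := r1) ?_⟩
    · intro q hq
      rw [star_conn hU ρ c (hs.symm.trans hq)]
      simp [c, hs'.symm]
    · intro q hq
      rcases zmod2_cases (star U ρ c q) with e | e
      · exact e
      · obtain ⟨t, ht, hc⟩ := star_one e
        by_cases e1 : t = s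
        · subst e1; exact absurd (hs.trans hc) (h1 q hq)
        · by_cases e2 : t = s'
          · subst e2; exact absurd ⟨q, hq, hc⟩ hP
          · simp [c, e1, e2] at ht
  · push Not at hleg
    have hev : EvenOn U (ind U q0) := by
      intro l hl
      refine par_ind_mid hleg hl fun hg hc => ?_
      have := hE l hl
      rw [hg, par_fact, ← hc.even hE, hq0] at this
      exact absurd this (by decide)
    refine ⟨ind U q0, hev, fun q hq => ind_eq_one.2 hq, F.cut H hev (r := r1) ?_⟩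
    intro q hq
    simp [ind, h1 q hq]

theorem exists_wall {U : Finset (Loc S)} {μ : Fin k → Loc S} (F : Full U μ) (hU : U.card < S.L)
    {q0 : Ty S} (h : ∀ r, ∃ q, Sh μ r q ∧ Conn U q0 q) :
    ∃ j : Fin k → S.A, ∀ r, ∃ q, Conn U q0 q ∧ sees (μ r) q (j r) (j (S.nxt r)) := by
  choose q hq hc using h
  choose a b b' h1 h2 using hq
  refine ⟨fun r => b (S.nxt.symm r), fun r => ⟨q r, hc r, ?_⟩⟩
  have h3 := h2 (S.nxt.symm r)
  simp only [Equiv.apply_symm_apply, Equiv.symm_apply_apply] at h3 ⊢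
  have := same_edge hU (F.mem r) h3 (h1 r) ((hc _).symm.trans (hc r))
  rw [this.1]
  exact h1 r

theorem case_wall (H : DupHyp S D) {U : Finset (Loc S)} {μ : Fin k → Loc S} (F : Full U μ)
    (lam : Loc S) (hU : (insert lam U).card < S.L) {q0 : Ty S} {j : Fin k → S.A}
    (hj : ∀ r, ∃ q, Conn U q0 q ∧ sees (μ r) q (j r) (j (S.nxt r))) (hD : ¬ D q0.cl j)
    (hy : q0.cl ≠ S.y0) :
    ∃ C1, EvenOn (insert lam U) C1 ∧ (∀ q, Conn U q0 q → C1 q = 1) ∧
      Safe D (insert lam U) C1 := by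
  have hsub : U ⊆ insert lam U := Finset.subset_insert _ _
  have hK : ∀ r q' a b, Conn (insert lam U) q0 q' → sees (μ r) q' a b →
      a = j r ∧ b = j (S.nxt r) := by
    intro r q' a b h1 h2
    obtain ⟨q, h3, h4⟩ := hj r
    exact same_edge hU (hsub (F.mem r)) h2 h4 (h1.symm.trans (h3.mono hsub))
  by_cases hleg : ∃ ρ s, Conn (insert lam U) q0 (node ρ s 0)
  · obtain ⟨ρ, s, hs⟩ := hleg
    let jG : Fin k → S.A := fun r => (S.sg ρ (sl s) r).symm (j r)
    have hjG : app ρ (sl s) jG = j := by funext r; simp [app, jG]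
    have hD' : ¬ D (S.bd ρ (sl s)) (app ρ (sl s) jG) := by
      rwa [hjG, ← cl_node ρ s 0, ← hs.cl]
    obtain ⟨s', hs', hD''⟩ := partner H ρ s jG hD'
    let c : Fin 5 → ZMod 2 := fun t => (if t = s then 1 else 0) + if t = s' then 1 else 0
    refine ⟨star _ ρ c, star_even hU ρ (pair_coeff s s'), ?_, star_safe H F lam ρ c jG ?_⟩
    · intro q hq
      rw [star_conn hU ρ c (hs.symm.trans (hq.mono hsub))]
      simp [c, hs'.symm]
    · intro t ht
      by_cases e1 : t = s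
      · subst e1
        refine ⟨hD', fun r q' a b h1 h2 => ?_⟩
        rw [hjG]
        exact hK r q' a b (hs.trans h1) h2
      · by_cases e2 : t = s'
        · subst e2
          refine ⟨hD'', fun r q' a b h1 h2 => ?_⟩
          obtain ⟨q, h3, h4⟩ := hj r
          have h5 : Conn (insert lam U) (node ρ s 0) q := hs.symm.trans (h3.mono hsub)
          by_cases hg : ∀ ρ', (μ r).g ≠ .rule ρ'
          · have := (sees_nonrule (hsub (F.mem r)) hg h4 h2).1
            exact absurd (conn_end hU (h5.trans (this.trans h1.symm))).2.symm e1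
          · push Not at hg
            obtain ⟨ρ', hg⟩ := hg
            obtain ⟨t1, rfl, h6, h7⟩ := (sees_rule hg).1 h4
            obtain ⟨rfl, rfl⟩ := conn_end hU h5
            obtain ⟨t2, rfl, rfl, rfl⟩ := (sees_rule hg).1 h2
            obtain ⟨-, rfl⟩ := conn_end hU h1
            rw [F.row] at h6 h7 ⊢
            simp [app, jG, h6, h7]
        · simp [c, e1, e2] at ht
  · push Not at hleg
    refine ⟨ind _ q0, ?_, fun q hq => ind_eq_one.2 (hq.mono hsub), ?_⟩
    · intro l hl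
      exact par_ind_mid hleg hl fun _ hc => hy hc.cl
    · intro q j' hq hw
      have hc := ind_eq_one.1 hq
      have := F.wall_eq H lam (q := q) (j := j)
        (fun r q' a b h1 h2 => hK r q' a b (hc.trans h1) h2) hw
      rw [this, ← hc.cl]
      exact hD

theorem case_seed (H : DupHyp S D) {U : Finset (Loc S)} {μ : Fin k → Loc S} (F : Full U μ)
    {C : Ty S → ZMod 2} (hE : EvenOn U C) {q0 : Ty S} (hq0 : C q0 = 1) {j : Fin k → S.A}
    (hj : ∀ r, ∃ q, Conn U q0 q ∧ sees (μ r) q (j r) (j (S.nxt r))) (hD : ¬ D q0.cl j)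
    (hy : q0.cl = S.y0) :
    ∃ C1, EvenOn U C1 ∧ (∀ q, Conn U q0 q → C1 q = 1) ∧ KillAt U C1 S.r0 := by
  have hev : EvenOn U clsY := by
    intro l hl
    refine par_clsY H fun hg => ?_
    obtain ⟨q, h1, h2⟩ := hj l.r
    rw [← F.uniq l hl] at h2
    obtain ⟨rfl, -⟩ := sees_fact hg h2
    have := hE l hl
    rw [hg, par_fact, ← h1.even hE, hq0] at this
    exact absurd this (by decide)
  refine ⟨clsY, hev, fun q hq => by simp [clsY, ← hq.cl, hy], ?_⟩
  have hne : ∃ r, j r ≠ S.j0 r := by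
    by_contra hne
    push Not at hne
    apply hD
    rw [hy, funext hne]
    exact H.seed
  obtain ⟨r, hr⟩ := hne
  refine KillAt.move H hev (killAt_psi H (l1 := μ r) ?_ (a := j r) (b := j (S.nxt r)) ?_ ?_)
  · intro l hl e; rw [F.uniq l hl, e, F.row]
  · rw [F.row]; exact fun h => hr h.1
  · intro q' a' b' h2 hq'
    obtain ⟨q, h3, h4⟩ := hj r
    by_cases hg : ∀ ρ', (μ r).g ≠ .rule ρ'
    · exact (sees_nonrule (F.mem r) hg h2 h4).2
    · push Not at hg
      obtain ⟨ρ, hg⟩ := hg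
      obtain ⟨t1, rfl, h6, h7⟩ := (sees_rule hg).1 h4
      obtain ⟨t2, rfl, rfl, rfl⟩ := (sees_rule hg).1 h2
      have e1 : S.bd ρ (sl t1) = S.y0 := by rw [← cl_node ρ t1 0, ← h3.cl, hy]
      have e2 : S.bd ρ (sl t2) = S.y0 := by rw [← cl_node ρ t2 0, hq']
      rw [h6, h7, sg_y0 H ρ e1 e2]
      exact ⟨rfl, rfl⟩

theorem ext_full (H : DupHyp S D) {U : Finset (Loc S)} {μ : Fin k → Loc S} (F : Full U μ)
    (lam : Loc S) (hU' : (insert lam U).card < S.L) {C : Ty S → ZMod 2} (hE : EvenOn U C)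
    (hS : Safe D U C) :
    ∃ C1, EvenOn (insert lam U) C1 ∧ Safe D (insert lam U) C1 ∧ KillAt U (C + C1) S.r0 := by
  have hsub : U ⊆ insert lam U := Finset.subset_insert _ _
  have hU : U.card < S.L := lt_of_le_of_lt (Finset.card_le_card hsub) hU'
  have zero : KillAt U C S.r0 →
      ∃ C1, EvenOn (insert lam U) C1 ∧ Safe D (insert lam U) C1 ∧ KillAt U (C + C1) S.r0 := by
    intro h
    refine ⟨0, fun l _ => ?_, fun q j hq => absurd hq (by simp), by simpa using h⟩
    refine Finset.sum_eq_zero fun s _ => ?_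
    cases l.g.var s <;> simp
  by_cases h1 : ∃ r, ∀ q, Sh μ r q → C q = 0
  · obtain ⟨r, hr⟩ := h1
    exact zero (F.cut H hE hr)
  push Not at h1
  have h1' : ∀ r, ∃ q, Sh μ r q ∧ C q = 1 := fun r =>
    (h1 r).imp fun q hq => ⟨hq.1, (zmod2_cases _).resolve_left hq.2⟩
  by_cases h2 : ∃ r q0, C q0 = 1 ∧ ∀ q, Sh μ r q → Conn U q0 q
  · obtain ⟨r, q0, hq0, hr⟩ := h2
    have fin : ∀ C1, EvenOn U C1 → (∀ q, Conn U q0 q → C1 q = 1) → KillAt U (C + C1) S.r0 := by
      intro C1 he hc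
      refine F.cut H (hE.add he) (r := r) fun q hq => ?_
      rw [Pi.add_apply, hc q (hr q hq), ← (hr q hq).even hE, hq0]
      decide
    have fin' : (∃ C1, EvenOn U C1 ∧ (∀ q, Conn U q0 q → C1 q = 1) ∧ KillAt U C1 S.r0) →
        KillAt U C S.r0 := by
      rintro ⟨C1, h3, h4, h5⟩
      have := (fin C1 h3 h4).add h5
      rwa [add_add_cancel_fun] at this
    by_cases h3 : ∃ r1, ∀ q, Sh μ r1 q → ¬ Conn U q0 q
    · obtain ⟨r1, h3⟩ := h3
      exact zero (fin' (case_cut H F hU hE hq0 h3))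
    push Not at h3
    obtain ⟨j, hj⟩ := exists_wall F hU h3
    have hD : ¬ D q0.cl j := hS q0 j hq0 fun r => ⟨μ r, F.mem r, F.row r, hj r⟩
    by_cases hy : q0.cl = S.y0
    · exact zero (fin' (case_seed H F hE hq0 hj hD hy))
    · obtain ⟨C1, h4, h5, h6⟩ := case_wall H F lam hU' hj hD hy
      exact ⟨C1, h4, h6, fin C1 (h4.mono hsub) h5⟩
  · push Not at h2
    have ht : ∀ r, ∃ ρ, (μ r).g = .rule ρ ∧ (μ (S.nxt r)).g = .rule ρ ∧
        (μ r).b = (μ (S.nxt r)).a := by
      intro r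
      obtain ⟨q0, h3, h4⟩ := h1' r
      obtain ⟨q, h5, h6⟩ := h2 r q0 h4
      exact F.tight hU h3 h5 h6
    obtain ⟨ρ, hρ, -⟩ := ht S.r0
    have hall : ∀ r, (μ r).g = .rule ρ := by
      intro r
      obtain ⟨n, rfl⟩ := H.hcyc r
      induction n with
      | zero => exact hρ
      | succ n ih =>
        rw [Function.iterate_succ_apply']
        obtain ⟨ρ', e1, e2, -⟩ := ht (S.nxt^[n] S.r0)
        rw [e2, ← e1, ih]
    have hb : ∀ r, (μ r).b = (μ (S.nxt r)).a := fun r => (ht r).choose_spec.2.2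
    let jG : Fin k → S.A := fun r => (μ r).a
    let c : Fin 5 → ZMod 2 := fun t => C (node ρ t 0)
    have hc : ∑ t, c t = 0 := by
      have := hE _ (F.mem S.r0)
      rwa [hρ, par_rule] at this
    have hev := star_even hU' ρ hc
    refine ⟨star _ ρ c, hev, star_safe H F lam ρ c jG ?_, ?_⟩
    · intro t ht
      constructor
      · rw [← cl_node ρ t 0]
        refine hS _ _ ht fun r => ⟨μ r, F.mem r, F.row r, _, Conn.refl _, ?_⟩
        refine (sees_rule (hall r)).2 ⟨t, rfl, ?_, ?_⟩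
        · rw [F.row]; rfl
        · rw [F.row, hb]; rfl
      · intro r q' a b h3 h4
        obtain ⟨t2, rfl, rfl, rfl⟩ := (sees_rule (hall r)).1 h4
        obtain ⟨-, rfl⟩ := conn_end hU' h3
        rw [F.row, hb]
        exact ⟨rfl, rfl⟩
    · refine F.cut H (hE.add (hev.mono hsub)) (r := S.r0) ?_
      rintro q ⟨a, b, b', h3, -⟩
      obtain ⟨t, rfl, -⟩ := (sees_rule hρ).1 h3
      rw [Pi.add_apply, star_conn hU' ρ c (Conn.refl _)]
      exact zmod2_add_self _

theorem ext_B (H : DupHyp S D) {U : Finset (Loc S)} (hU : U.card ≤ k) (lam : Loc S)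
    {B : Ty S → ZMod 2} (hG : Good U B) (hS : Safe D U B) :
    ∃ B', KillAt U (B + B') S.r0 ∧ Good (insert lam U) B' ∧ Safe D (insert lam U) B' := by
  have hsub : U ⊆ insert lam U := Finset.subset_insert _ _
  have hU' : (insert lam U).card < S.L :=
    lt_of_le_of_lt ((Finset.card_insert_le _ _).trans (Nat.succ_le_succ hU)) H.hL
  set B0 := ind (insert lam U) (node S.ρ0 0 0) with hB0
  have hG0 : Good (insert lam U) B0 := fun l hl => par_ind_end hU' _ _ hl
  have hE : EvenOn U (B + B0) := by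
    intro l hl
    rw [par_add, hG l hl, hG0 l (hsub hl), zmod2_add_self]
  by_cases hfree : ∃ r, ∀ l ∈ U, l.r ≠ r
  · obtain ⟨r, hr⟩ := hfree
    exact ⟨B0, KillAt.move H hE (killAt_free _ hr), hG0, safe_B0 H _ _⟩
  push Not at hfree
  choose μ hμ1 hμ2 using hfree
  have hinj : Function.Injective μ := fun a b h => by rw [← hμ2 a, h, hμ2]
  have him : Finset.univ.image μ = U := by
    apply Finset.eq_of_subset_of_card_le
    · intro l hl
      obtain ⟨r, -, rfl⟩ := Finset.mem_image.1 hl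
      exact hμ1 r
    · rw [Finset.card_image_of_injective _ hinj]; simpa using hU
  have F : Full U μ := ⟨hμ1, hμ2, by
    intro l hl
    rw [← him] at hl
    obtain ⟨r, -, rfl⟩ := Finset.mem_image.1 hl
    rw [hμ2]⟩
  obtain ⟨C1, h1, h2, h3⟩ := ext_full H F lam hU' hE (hS.add (safe_B0 H _ _))
  refine ⟨B0 + C1, by rwa [← add_assoc], fun l hl => ?_, (safe_B0 H _ _).add h2⟩
  rw [par_add, hG0 l hl, h1 l hl, add_zero]

end Vale.Agent.P310
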