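import Vale.Agent.P310.Dup3

namespace Vale.Agent.P310

open Classical Function

variable {k : ℕ} {S : Sys k} {D : S.Atom → (Fin k → S.A) → Prop} {J : Type}

def Inv (D : S.Atom → (Fin k → S.A) → Prop) (U : Finset (Loc S)) (a : Var S → ZMod 2) : Prop :=
  ∃ B, Gam (a + xb B S.r0) ∧ Good U B ∧ Safe D U B

theorem Inv.mono {U U' : Finset (Loc S)} (hU : U ⊆ U') {a} (h : Inv D U' a) : Inv D U a := by
  obtain ⟨B, h1, h2, h3⟩ := h
  exact ⟨B, h1, fun l hl => h2 l (hU hl), fun q j hq hw => h3 q j hq (hw.mono hU)⟩

theorem Inv.ext (H : DupHyp S D) {U : Finset (Loc S)} (hU : U.card ≤ k) {a} (h : Inv D U a)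
    (lam : Loc S) : ∃ a', (∀ l ∈ U, pv a' l = pv a l) ∧ Inv D (insert lam U) a' := by
  obtain ⟨B, h1, h2, h3⟩ := h
  obtain ⟨B', ⟨γ, h4, h5⟩, h6, h7⟩ := ext_B H hU lam h2 h3
  refine ⟨a + (xb (B + B') S.r0 + γ), fun l hl => ?_, B', ?_, h6, h7⟩
  · rw [pv_add, pv_add, h5 l hl]
    funext π; simp [zmod2_add_self]
  · have : a + (xb (B + B') S.r0 + γ) + xb B' S.r0 = (a + xb B S.r0) + γ := by
      rw [xb_add]
      funext v
      simp only [Pi.add_apply]
      generalize a v = x1, xb B S.r0 v = x2, xb B' S.r0 v = x3, γ v = x4
      revert x1 x2 x3 x4; decide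
    rw [this]
    exact h1.add h4

theorem Inv.sum {U : Finset (Loc S)} {a} (h : Inv D U a) {l : Loc S} (hl : l ∈ U) (hok : l.ok) :
    ∑ π, pv a l π = l.tw := by
  obtain ⟨B, h1, h2, -⟩ := h
  have := h1 l hok
  simp only [pv_add, Pi.add_apply, Finset.sum_add_distrib, sum_pv_xb] at this
  rw [zmod2_eq_of_add this, h2 l hl, twg, Loc.tw]
  by_cases e1 : l.r = S.r0 <;> by_cases e2 : l.g = .rule S.ρ0 <;> simp [e1, e2]

noncomputable def locOf : Vx S ⊕ J → Option (Loc S)
  | .inl (.gad l _) => if l.ok then some l else none
  | _ => none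

noncomputable def act0 (a : Var S → ZMod 2) : Vx S → Vx S
  | .gad l val => if l.ok then .gad l (val + pv a l) else .gad l val
  | v => v

noncomputable def act (a : Var S → ZMod 2) : Vx S ⊕ J → Vx S ⊕ J := Sum.map (act0 a) id

theorem act0_act0 (a : Var S → ZMod 2) (v : Vx S) : act0 a (act0 a v) = v := by
  cases v with
  | gad l val =>
    by_cases h : l.ok
    · simp only [act0, h, if_true]
      congr 1
      funext π; simp [add_assoc, zmod2_add_self]
    · simp [act0, h]
  | _ => rfl

theorem act_act (a : Var S → ZMod 2) (v : Vx S ⊕ J) : act a (act a v) = v := by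
  rcases v with v | v
  · simp [act, act0_act0]
  · rfl

theorem locOf_act (a : Var S → ZMod 2) (v : Vx S ⊕ J) : locOf (act a v) = locOf v := by
  rcases v with (⟨l, val⟩ | _ | _ | _) | v
  · by_cases h : l.ok <;> simp [act, act0, locOf, h]
  all_goals rfl

theorem act_congr {a a' : Var S → ZMod 2} {v : Vx S ⊕ J}
    (h : ∀ l, locOf v = some l → pv a l = pv a' l) : act a v = act a' v := by
  rcases v with (⟨l, val⟩ | _ | _ | _) | v
  · by_cases hl : l.ok
    · have := h l (by simp [locOf, hl])
      simp [act, act0, hl, this]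
    · simp [act, act0, hl]
  all_goals rfl

noncomputable def locs (x : Fin k → Vx S ⊕ J) : Finset (Loc S) :=
  Finset.univ.biUnion fun i => (locOf (x i)).toFinset

theorem mem_locs {x : Fin k → Vx S ⊕ J} {l : Loc S} : l ∈ locs x ↔ ∃ i, locOf (x i) = some l := by
  simp [locs]

theorem card_locs (x : Fin k → Vx S ⊕ J) : (locs x).card ≤ k := by
  refine Finset.card_biUnion_le.trans ?_
  calc ∑ i, (locOf (x i)).toFinset.card ≤ ∑ _i : Fin k, 1 := by
        refine Finset.sum_le_sum fun i _ => ?_
        cases locOf (x i) <;> simp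
    _ = k := by simp

noncomputable def shift (a : Var S → ZMod 2) : PortId S → PortId S
  | .var v b => .var v (b + a v)
  | p => p

theorem shift_inj (a : Var S → ZMod 2) : Injective (shift a) := by
  intro p q h
  cases p <;> cases q <;> simp_all [shift]
  obtain ⟨rfl, h⟩ := h
  simpa using h

theorem outP_act0 (code : Loc S → Fin 5 → Fin (S.M + 2)) (a : Var S → ZMod 2) {v : Vx S}
    {m : Bool} (hv : v.valid m) (i) :
    (act0 a v).outP code i = (v.outP code i).map (shift a) := by
  cases v with
  | gad l val =>
    simp only [act0, hv.1, if_true]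
    rcases i with π | t
    · simp only [Vx.outP, pv, Pi.add_apply]
      cases l.port π <;> simp [shift]
    · simp [Vx.outP, shift]
  | mk m =>
    rcases i with π | t
    · rfl
    · simp only [act0, Vx.outP]
      split_ifs <;> rfl
  | root => rcases i with π | t <;> rfl
  | pend i' =>
    rcases i with π | t
    · rfl
    · simp only [act0, Vx.outP]
      split_ifs <;> rfl

theorem inP_act0 (a : Var S → ZMod 2) {v : Vx S} {m : Bool} (hv : v.valid m) (i) :
    (act0 a v).inP i = (v.inP i).map (shift a) := by
  cases v with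
  | gad l val =>
    simp only [act0, hv.1, if_true]
    simp only [Vx.inP, pv, Pi.add_apply]
    cases l.port i <;> simp [shift]
  | mk m => rcases i with π | (_ | _) <;> rfl
  | root =>
    simp only [act0, Vx.inP]
    split_ifs <;> rfl
  | pend i' => rfl

theorem link_act0 (code : Loc S → Fin 5 → Fin (S.M + 2)) (a : Var S → ZMod 2) {u v : Vx S}
    {m : Bool} (hu : u.valid m) (hv : v.valid m) :
    link code (act0 a u) (act0 a v) ↔ link code u v := by
  simp only [link, outP_act0 code a hu, inP_act0 a hv]
  refine exists_congr fun i => exists_congr fun j => ?_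
  constructor
  · rintro ⟨p, h1, h2⟩
    obtain ⟨p1, h3, rfl⟩ := Option.map_eq_some_iff.1 h1
    obtain ⟨p2, h4, h5⟩ := Option.map_eq_some_iff.1 h2
    exact ⟨p1, h3, shift_inj a h5 ▸ h4⟩
  · rintro ⟨p, h1, h2⟩
    exact ⟨shift a p, by simp [h1], by simp [h2]⟩

theorem parity_add (l : Loc S) (val : Pt → ZMod 2) (a : Var S → ZMod 2) :
    l.parity (val + pv a l) = l.parity val + ∑ π, pv a l π := by
  simp only [Loc.parity, ← Finset.sum_add_distrib]
  refine Finset.sum_congr rfl fun π _ => ?_
  simp only [pv, Pi.add_apply]
  cases l.port π <;> simp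

theorem valid_act0 {a : Var S → ZMod 2} {v : Vx S}
    (h : ∀ l, locOf (J := J) (.inl v) = some l → ∑ π, pv a l π = l.tw) :
    (act0 a v).valid true ↔ v.valid false := by
  cases v with
  | gad l val =>
    by_cases hl : l.ok
    · have := h l (by simp [locOf, hl])
      simp only [act0, hl, if_true, Vx.valid, parity_add, this, true_and]
      simp
    · simp [act0, hl, Vx.valid]
  | _ => simp [act0, Vx.valid]

theorem duplicator (H : DupHyp S D) (code : Loc S → Fin 5 → Fin (S.M + 2)) (J : Type)
    [Fintype (Vx S ⊕ J)] : WLEquiv k (graph code J false) (graph code J true) := by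
  have hb : IsBisim (k := k) (graph code J false) (graph code J true)
      (fun x x' => ∃ a, Inv D (locs x) a ∧ ∀ i, x' i = act a (x i)) := by
    refine ⟨?_, ?_, ?_⟩
    · rintro x x' ⟨a, -, h⟩ i j
      rw [h i, h j]
      exact (Involutive.injective (act_act a)).eq_iff.symm
    · rintro x x' ⟨a, hI, h⟩ i j
      rw [h i, h j]
      have hs : ∀ i l, locOf (x i) = some l → ∑ π, pv a l π = l.tw := by
        intro i l hl
        refine hI.sum (mem_locs.2 ⟨i, hl⟩) ?_
        rcases hx : x i with (⟨l', val⟩ | _ | _ | _) | v <;> rw [hx] at hl <;>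
          simp only [locOf, reduceCtorEq] at hl
        split_ifs at hl with h'
        cases hl; exact h'
      have hi := hs i
      have hj := hs j
      rcases hxi : x i with u | u <;> rcases hxj : x j with v | v
      · rw [hxi] at hi; rw [hxj] at hj
        show adj0 code false u v ↔ adj0 code true (act0 a u) (act0 a v)
        simp only [adj0, valid_act0 hi, valid_act0 hj, ne_eq,
          (Involutive.injective (act0_act0 a)).eq_iff]
        refine and_congr_right fun _ => and_congr_right fun hu => and_congr_right fun hv => ?_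
        rw [link_act0 code a hu hv, link_act0 code a hv hu]
      all_goals exact Iff.rfl
    · rintro x x' ⟨a, hI, h⟩
      choose a' ha1 ha2 using hI.ext H (card_locs x)
      let f : Vx S ⊕ J → Vx S ⊕ J := fun v => (locOf v).elim v fun l => act (a' l) v
      have hf : Involutive f := by
        intro v
        cases hv : locOf v with
        | none => simp [f, hv]
        | some l => simp [f, hv, locOf_act, act_act]
      refine ⟨hf.toPerm, fun y i => ?_⟩
      have hsub : ∀ l, l ∈ locs (update x i y) → locOf y = some l ∨ l ∈ locs x := by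
        intro l hl
        obtain ⟨i', hi'⟩ := mem_locs.1 hl
        by_cases e : i' = i
        · subst e; left; simpa using hi'
        · rw [update_of_ne e] at hi'
          exact Or.inr (mem_locs.2 ⟨i', hi'⟩)
      cases hy : locOf y with
      | none =>
        refine ⟨a, hI.mono fun l hl => (hsub l hl).resolve_left (by simp [hy]), fun i' => ?_⟩
        by_cases e : i' = i
        · subst e
          simp only [update_self, Involutive.coe_toPerm, f, hy, Option.elim_none]
          rcases y with (⟨l, val⟩ | _ | _ | _) | v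
          · have : ¬ l.ok := by
              intro hl; simp [locOf, hl] at hy
            simp [act, act0, this]
          all_goals rfl
        · rw [update_of_ne e, update_of_ne e, h]
      | some lam =>
        refine ⟨a' lam, (ha2 lam).mono fun l hl => ?_, fun i' => ?_⟩
        · rcases hsub l hl with e | e
          · rw [hy] at e; cases e; exact Finset.mem_insert_self _ _
          · exact Finset.mem_insert_of_mem e
        · by_cases e : i' = i
          · subst e
            simp [f, hy]
          · rw [update_of_ne e, update_of_ne e, h]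
            exact act_congr fun l hl => (ha1 lam l (mem_locs.2 ⟨i', hl⟩)).symm
  refine hb.wlEquiv (x := fun _ => .inl .root) (x' := fun _ => .inl .root)
    ⟨0, ⟨0, ?_, ?_, ?_⟩, fun _ => rfl⟩
  · have : xb (0 : Ty S → ZMod 2) S.r0 = 0 := by
      funext v; cases v <;> simp [xb]
    rw [this, add_zero]; exact Gam.zero
  · intro l hl
    obtain ⟨i, hi⟩ := mem_locs.1 hl
    simp [locOf] at hi
  · intro q j hq; simp at hq

end Vale.Agent.P310
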