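import Vale.Agent.P310.Chan

namespace Vale.Agent.P310

open Classical

abbrev Dir := (Pt ⊕ Fin 5) ⊕ Pt

inductive Tag (sd : ℕ) where
  | tru | and | or | not | eq | isMax | isZero | inc | reset | key | mkb | lookup | add
  | tw0 | par | sym
  | const (c : Fin 4) (s : Fin (sd + 5))
  | comp (d : Dir) (κ src : Fin 5)
  | zc (κ : Fin 5)

abbrev Reg (sd : ℕ) := Fin 3 × Fin (sd + 5)

inductive Shape (sd : ℕ) where
  | reg (ρ : Reg sd)
  | app (t : Tag sd) (l r : Shape sd)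

variable {sd : ℕ}

def Shape.ev {V : Type} (fn : Tag sd → V → V → V) (st : Reg sd → V) : Shape sd → V
  | .reg ρ => st ρ
  | .app t l r => fn t (l.ev fn st) (r.ev fn st)

def Shape.sub : Shape sd → List (Shape sd)
  | .reg ρ => [.reg ρ]
  | .app t l r => .app t l r :: (l.sub ++ r.sub)

theorem Shape.mem_sub_self (e : Shape sd) : e ∈ e.sub := by cases e <;> simp [Shape.sub]

theorem Shape.sub_closed {e : Shape sd} {t l r} (h : Shape.app t l r ∈ e.sub) :
    l ∈ e.sub ∧ r ∈ e.sub := by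
  induction e with
  | reg ρ => simp [Shape.sub] at h
  | app t' l' r' ih1 ih2 =>
    simp only [Shape.sub, List.mem_cons, List.mem_append] at h ⊢
    rcases h with h | h | h
    · cases h
      exact ⟨Or.inr (Or.inl (Shape.mem_sub_self _)), Or.inr (Or.inr (Shape.mem_sub_self _))⟩
    · exact ⟨Or.inr (Or.inl (ih1 h).1), Or.inr (Or.inl (ih1 h).2)⟩
    · exact ⟨Or.inr (Or.inr (ih2 h).1), Or.inr (Or.inr (ih2 h).2)⟩

def rg (c : Fin 3) (s : Fin (sd + 5)) : Shape sd := .reg (c, s)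
def un (t : Tag sd) (x : Shape sd) : Shape sd := .app t x x
def ttE : Shape sd := un .tru (rg 0 0)
def ffE : Shape sd := un .not ttE
def andE (x y : Shape sd) : Shape sd := .app .and x y
def orE (x y : Shape sd) : Shape sd := .app .or x y
def allE {α : Type} (l : List α) (f : α → Shape sd) : Shape sd :=
  l.foldr (fun x acc => andE (f x) acc) ttE
def anyE {α : Type} (l : List α) (f : α → Shape sd) : Shape sd :=
  l.foldr (fun x acc => orE (f x) acc) ffE
def isC (c : Fin 3) (ci : Fin 4) : Shape sd :=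
  allE (List.finRange (sd + 5)) fun s => un (.const ci s) (rg c s)
def carryE (c : Fin 3) (s : Fin (sd + 5)) : Shape sd :=
  allE ((List.finRange (sd + 5)).filter fun s' => s' < s) fun s' => un .isMax (rg c s')
def enE : Fin 3 → Shape sd := ![ttE, isC 0 0, andE (isC 0 0) (isC 1 0)]
def wrapE : Fin 3 → Shape sd := ![isC 0 0, andE (isC 0 0) (isC 1 0), ffE]
def nextE (ρ : Reg sd) : Shape sd :=
  .app .reset (wrapE ρ.1) (.app .inc (andE (enE ρ.1) (carryE ρ.1 ρ.2)) (.reg ρ))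
def goE : Shape sd := un .not (andE (isC 2 3) (andE (isC 0 0) (isC 1 0)))
def dgt (c : Fin 3) (κ : Fin 5) : Shape sd := rg c ⟨κ, by omega⟩
def oE (c : Fin 3) : Shape sd :=
  .app .lookup (.app .key (dgt c 0) (dgt c 1)) (.app .mkb (dgt c 0) (dgt c 2))
def srcE (c : Fin 3) (src : Fin 5) : Shape sd := if src = 0 then oE c else dgt c src
def compE (c : Fin 3) (d : Dir) (κ : Fin 5) : Shape sd :=
  (List.finRange 5).foldr
    (fun src acc => .app .add (.app (.comp d κ src) (dgt c 0) (srcE c src)) acc) ffE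
noncomputable def linkE (c c' : Fin 3) : Shape sd :=
  anyE (Finset.univ : Finset ((Pt ⊕ Fin 5) × Pt)).toList fun ij =>
    allE (List.finRange 5) fun κ => .app .eq (compE c (.inl ij.1) κ) (compE c' (.inr ij.2) κ)
def mE : Shape sd := isC 2 2
def twE (c : Fin 3) : Shape sd :=
  andE (.app .tw0 (dgt c 0) mE) (andE (un .isZero (dgt c 1)) (un .isZero (dgt c 2)))
def validE (c : Fin 3) : Shape sd :=
  andE (.app .par (dgt c 0) (twE c))
    (andE (allE (List.finRange 5) fun κ => .app (.zc κ) (dgt c 0) (dgt c κ))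
      (allE ((List.finRange (sd + 5)).filter fun s => 5 ≤ s.val) fun s => un .isZero (rg c s)))
def neqE : Shape sd :=
  anyE (List.finRange (sd + 5)) fun s => un .not (.app .eq (rg 1 s) (rg 0 s))
noncomputable def adjE : Shape sd :=
  andE (validE 1) (andE (validE 0) (andE neqE (orE (linkE 1 0) (linkE 0 1))))
noncomputable def symE : Shape sd := .app .sym (orE (isC 2 1) mE) adjE

noncomputable def roots (sd : ℕ) : List (Shape sd) :=
  goE :: symE :: ((Finset.univ : Finset (Reg sd)).toList.map nextE ++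
    (Finset.univ : Finset (Reg sd)).toList.map Shape.reg)

noncomputable def allSub (sd : ℕ) : List (Shape sd) := (roots sd).flatMap Shape.sub

theorem root_mem {e : Shape sd} (h : e ∈ roots sd) : e ∈ allSub sd :=
  List.mem_flatMap.2 ⟨e, h, e.mem_sub_self⟩

theorem goE_mem : goE ∈ allSub sd := root_mem (by simp [roots])
theorem symE_mem : symE ∈ allSub sd := root_mem (by simp [roots])
theorem nextE_mem (ρ : Reg sd) : nextE ρ ∈ allSub sd :=
  root_mem (by simp only [roots, List.mem_cons, List.mem_append, List.mem_map]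
               exact Or.inr (Or.inr (Or.inl ⟨ρ, by simp, rfl⟩)))
theorem reg_mem (ρ : Reg sd) : Shape.reg ρ ∈ allSub sd :=
  root_mem (by simp only [roots, List.mem_cons, List.mem_append, List.mem_map]
               exact Or.inr (Or.inr (Or.inr ⟨ρ, by simp, rfl⟩)))

theorem allSub_closed {t : Tag sd} {l r} (h : Shape.app t l r ∈ allSub sd) :
    l ∈ allSub sd ∧ r ∈ allSub sd := by
  obtain ⟨e, h1, h2⟩ := List.mem_flatMap.1 h
  exact ⟨List.mem_flatMap.2 ⟨e, h1, (Shape.sub_closed h2).1⟩,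
    List.mem_flatMap.2 ⟨e, h1, (Shape.sub_closed h2).2⟩⟩

def Sub (sd : ℕ) : Type := {e : Shape sd // e ∈ allSub sd}

instance : Finite (Sub sd) := (List.finite_toSet (allSub sd)).to_subtype

inductive Chan (sd τ : ℕ) where
  | seed | junk | acc | fr | bc
  | nd (e : Sub sd)
  | ac (κ : Fin (τ + 2))
  | tp (κ : Fin (τ + 1))

inductive Sch (sd τ : ℕ) where
  | goal | acInit | frInit | fire | accept | bR | bL | next | frame
  | node (e : Sub sd)
  | regStep (ρ : Reg sd)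
  | regInit (ρ : Reg sd)
  | tpInit (κ : Fin (τ + 1))
  | accu (κ : Fin (τ + 1))
  | mv (κ : Fin (τ + 1)) (δ : SignType)

variable {τ : ℕ}

instance : Finite (Chan sd τ) := by
  let f : Fin 5 ⊕ Sub sd ⊕ Fin (τ + 2) ⊕ Fin (τ + 1) → Chan sd τ
    | .inl i => ![.seed, .junk, .acc, .fr, .bc] i
    | .inr (.inl e) => .nd e
    | .inr (.inr (.inl κ)) => .ac κ
    | .inr (.inr (.inr κ)) => .tp κ
  refine Finite.of_surjective f ?_
  intro c
  cases c
  · exact ⟨.inl 0, rfl⟩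
  · exact ⟨.inl 1, rfl⟩
  · exact ⟨.inl 2, rfl⟩
  · exact ⟨.inl 3, rfl⟩
  · exact ⟨.inl 4, rfl⟩
  · exact ⟨.inr (.inl _), rfl⟩
  · exact ⟨.inr (.inr (.inl _)), rfl⟩
  · exact ⟨.inr (.inr (.inr _)), rfl⟩

instance : Finite (Sch sd τ) := by
  let f : Fin 9 ⊕ Sub sd ⊕ Reg sd ⊕ Reg sd ⊕ Fin (τ + 1) ⊕ Fin (τ + 1) ⊕ Fin (τ + 1) × SignType →
      Sch sd τ
    | .inl i => ![.goal, .acInit, .frInit, .fire, .accept, .bR, .bL, .next, .frame] i
    | .inr (.inl e) => .node e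
    | .inr (.inr (.inl ρ)) => .regStep ρ
    | .inr (.inr (.inr (.inl ρ))) => .regInit ρ
    | .inr (.inr (.inr (.inr (.inl κ)))) => .tpInit κ
    | .inr (.inr (.inr (.inr (.inr (.inl κ))))) => .accu κ
    | .inr (.inr (.inr (.inr (.inr (.inr κ))))) => .mv κ.1 κ.2
  refine Finite.of_surjective f ?_
  intro c
  cases c
  · exact ⟨.inl 0, rfl⟩
  · exact ⟨.inl 1, rfl⟩
  · exact ⟨.inl 2, rfl⟩
  · exact ⟨.inl 3, rfl⟩
  · exact ⟨.inl 4, rfl⟩
  · exact ⟨.inl 5, rfl⟩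
  · exact ⟨.inl 6, rfl⟩
  · exact ⟨.inl 7, rfl⟩
  · exact ⟨.inl 8, rfl⟩
  · exact ⟨.inr (.inl _), rfl⟩
  · exact ⟨.inr (.inr (.inl _)), rfl⟩
  · exact ⟨.inr (.inr (.inr (.inl _))), rfl⟩
  · exact ⟨.inr (.inr (.inr (.inr (.inl _)))), rfl⟩
  · exact ⟨.inr (.inr (.inr (.inr (.inr (.inl _))))), rfl⟩
  · exact ⟨.inr (.inr (.inr (.inr (.inr (.inr (_, _)))))), rfl⟩

/-- finite part of a gate -/
inductive GSm (sd τ e : ℕ) where
  | rule (σ ah bh : Sch sd τ)
  | pair (σ ah bh : Sch sd τ) (s : Fin 5) (n : Fin (e + 5))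
  | fact

/-- finite part of a vertex -/
inductive VSm (sd τ e : ℕ) where
  | gad (g : GSm sd τ e) (r : Fin (e + 3)) (val : Pt → ZMod 2)
  | mk (t : Fin 5)
  | root
  | pend (i : Fin 3)

/-- finite part of a port name -/
inductive PSm (sd τ e : ℕ) where
  | xc (ch : Chan sd τ) (hi : Sch sd τ) (r : Fin (e + 3)) (b : ZMod 2)
  | xl (σ ah bh : Sch sd τ) (s : Fin 5) (n : Fin (e + 5)) (r : Fin (e + 3)) (b : ZMod 2)
  | w (g : GSm sd τ e) (r : Fin (e + 3)) (b : ZMod 2)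
  | mark (t : Fin 5)
  | succ (t : Fin 5)
  | root
  | null (out : Bool)

variable {e : ℕ}

instance : Finite (GSm sd τ e) := by
  let f : (Sch sd τ × Sch sd τ × Sch sd τ) ⊕
      (Sch sd τ × Sch sd τ × Sch sd τ × Fin 5 × Fin (e + 5)) ⊕ Unit → GSm sd τ e
    | .inl x => .rule x.1 x.2.1 x.2.2
    | .inr (.inl x) => .pair x.1 x.2.1 x.2.2.1 x.2.2.2.1 x.2.2.2.2
    | .inr (.inr _) => .fact
  refine Finite.of_surjective f ?_
  intro c
  cases c
  · exact ⟨.inl (_, _, _), rfl⟩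
  · exact ⟨.inr (.inl (_, _, _, _, _)), rfl⟩
  · exact ⟨.inr (.inr ()), rfl⟩

instance : Finite (VSm sd τ e) := by
  let f : (GSm sd τ e × Fin (e + 3) × (Pt → ZMod 2)) ⊕ Fin 5 ⊕ Unit ⊕ Fin 3 → VSm sd τ e
    | .inl x => .gad x.1 x.2.1 x.2.2
    | .inr (.inl x) => .mk x
    | .inr (.inr (.inl _)) => .root
    | .inr (.inr (.inr x)) => .pend x
  refine Finite.of_surjective f ?_
  intro c
  cases c
  · exact ⟨.inl (_, _, _), rfl⟩
  · exact ⟨.inr (.inl _), rfl⟩
  · exact ⟨.inr (.inr (.inl ())), rfl⟩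
  · exact ⟨.inr (.inr (.inr _)), rfl⟩

instance : Finite (PSm sd τ e) := by
  let f : (Chan sd τ × Sch sd τ × Fin (e + 3) × ZMod 2) ⊕
      (Sch sd τ × Sch sd τ × Sch sd τ × Fin 5 × Fin (e + 5) × Fin (e + 3) × ZMod 2) ⊕
      (GSm sd τ e × Fin (e + 3) × ZMod 2) ⊕ Fin 5 ⊕ Fin 5 ⊕ Unit ⊕ Bool → PSm sd τ e
    | .inl x => .xc x.1 x.2.1 x.2.2.1 x.2.2.2
    | .inr (.inl x) => .xl x.1 x.2.1 x.2.2.1 x.2.2.2.1 x.2.2.2.2.1 x.2.2.2.2.2.1 x.2.2.2.2.2.2
    | .inr (.inr (.inl x)) => .w x.1 x.2.1 x.2.2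
    | .inr (.inr (.inr (.inl x))) => .mark x
    | .inr (.inr (.inr (.inr (.inl x)))) => .succ x
    | .inr (.inr (.inr (.inr (.inr (.inl _))))) => .root
    | .inr (.inr (.inr (.inr (.inr (.inr x))))) => .null x
  refine Finite.of_surjective f ?_
  intro c
  cases c
  · exact ⟨.inl (_, _, _, _), rfl⟩
  · exact ⟨.inr (.inl (_, _, _, _, _, _, _)), rfl⟩
  · exact ⟨.inr (.inr (.inl (_, _, _))), rfl⟩
  · exact ⟨.inr (.inr (.inr (.inl _))), rfl⟩
  · exact ⟨.inr (.inr (.inr (.inr (.inl _)))), rfl⟩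
  · exact ⟨.inr (.inr (.inr (.inr (.inr (.inl ()))))), rfl⟩
  · exact ⟨.inr (.inr (.inr (.inr (.inr (.inr _))))), rfl⟩

end Vale.Agent.P310
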