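import Vale.Agent.P310.Odo

namespace Vale.Agent.P310

open Classical

variable {M : TM} {sd e : ℕ}

def TM.scan (M : TM) (c : Cfg M) : Fin (M.extra + 1) → M.Symbol := fun i => c.tape i (c.head i)

def TM.dl (M : TM) (w : List Bool) (t : ℕ) : Bool ⊕ ActT M :=
  M.delta (M.run w t).state (M.scan (M.run w t))

theorem TM.run_succ (M : TM) (w : List Bool) (t : ℕ) : M.run w (t + 1) = M.step (M.run w t) :=
  Function.iterate_succ_apply' _ _ _

theorem TM.run_inr {w : List Bool} {t : ℕ} {act : ActT M} (h : M.dl w t = .inr act) :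
    (M.run w (t + 1)).state = act.1 ∧
    (∀ i, (M.run w (t + 1)).tape i =
      Function.update ((M.run w t).tape i) ((M.run w t).head i) (act.2 i).1) ∧
    ∀ i, (M.run w (t + 1)).head i = (M.run w t).head i + ((act.2 i).2 : ℤ) := by
  rw [TM.run_succ, TM.step]
  unfold TM.dl TM.scan at h
  rw [h]
  exact ⟨rfl, fun _ => rfl, fun _ => rfl⟩

theorem TM.run_inl {w : List Bool} {t : ℕ} {b : Bool} (h : M.dl w t = .inl b) :
    M.run w (t + 1) = M.run w t := by
  rw [TM.run_succ, TM.step]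
  unfold TM.dl TM.scan at h
  rw [h]

theorem TM.answer_eq {w : List Bool} {t : ℕ} {b : Bool} :
    M.answer (M.run w t) = some b ↔ M.dl w t = .inl b := by
  unfold TM.answer TM.dl TM.scan
  split <;> simp_all

theorem TM.dl_stay {w : List Bool} {t : ℕ} {b : Bool} (h : M.dl w t = .inl b) (s : ℕ) :
    M.dl w (t + s) = .inl b := by
  induction s with
  | zero => exact h
  | succ s ih => rw [TM.dl, ← add_assoc, TM.run_inl ih]; exact ih

theorem TM.dl_unique {w : List Bool} {t t' : ℕ} {b b' : Bool} (h : M.dl w t = .inl b)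
    (h' : M.dl w t' = .inl b') : b = b' := by
  have h1 := TM.dl_stay h t'
  have h2 := TM.dl_stay h' t
  rw [add_comm, h2] at h1
  exact (Sum.inl.inj h1).symm

def TM.part (M : TM) (w : List Bool) (t κ : ℕ) : AccT M :=
  ((M.run w t).state, fun i => if i.val < κ then M.scan (M.run w t) i else M.blank)

theorem TM.part_last (w : List Bool) (t : ℕ) :
    M.part w t (M.extra + 1) = ((M.run w t).state, M.scan (M.run w t)) := by
  refine Prod.ext rfl (funext fun i => ?_)
  simp only [TM.part, if_pos i.2]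

theorem TM.part_succ (w : List Bool) (t : ℕ) (κ : Fin (M.extra + 1)) :
    M.part w t (κ + 1) = ((M.part w t κ).1, Function.update (M.part w t κ).2 κ
      ((M.run w t).tape κ ((M.run w t).head κ))) := by
  refine Prod.ext rfl (funext fun i => ?_)
  by_cases h : i = κ
  · subst h; simp [TM.part, TM.scan]
  · have : i.val ≠ κ.val := fun hh => h (Fin.ext hh)
    simp only [TM.part, Function.update_of_ne h]
    by_cases h2 : i.val < κ.val
    · rw [if_pos h2, if_pos (by omega)]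
    · rw [if_neg h2, if_neg (by omega)]

theorem TM.tape_step {w : List Bool} {t : ℕ} {act : ActT M} (h : M.dl w t = .inr act)
    (κ : Fin (M.extra + 1)) (i : ℤ) :
    (M.run w (t + 1)).tape κ ((M.run w (t + 1)).head κ + i) =
      if SignType.sign (i + ((act.2 κ).2 : ℤ)) = 0 then (act.2 κ).1
      else (M.run w t).tape κ ((M.run w t).head κ + (i + ((act.2 κ).2 : ℤ))) := by
  obtain ⟨-, h2, h3⟩ := TM.run_inr h
  rw [h2, h3]
  simp only [sign_eq_zero_iff]
  split_ifs with hh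
  · rw [add_assoc, add_comm _ i, hh, add_zero, Function.update_self]
  · rw [Function.update_of_ne (by omega)]
    congr 1; ring

namespace Ctx

variable (X : Ctx M sd e)

def Inv (w : List Bool) (th : ℕ) : Chan sd M.extra → X.V → ℤ × ℤ → Prop
  | .seed, v, x => v = X.io 0 ∧ x = (0, 0)
  | .junk, _, _ => False
  | .acc, _, _ => False
  | .fr, _, x => ∃ t : ℕ, t ≤ th ∧ x.1 = t ∧ -(X.R : ℤ) ≤ x.2 ∧ x.2 < (X.Z : ℤ) - X.R
  | .bc, v, x => ∃ t : ℕ, t ≤ th ∧ x.1 = t ∧ -(X.R : ℤ) ≤ x.2 ∧ x.2 < (X.Z : ℤ) - X.R ∧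
      ∃ act, M.dl w t = .inr act ∧ v = X.io (X.cB (act, SignType.sign x.2))
  | .nd y, v, x => ∃ z < X.Z, x = (0, (z : ℤ) - X.R) ∧ v = X.ev z y.1
  | .ac κ, v, x => ∃ t ≤ th, x = ((t : ℤ), 0) ∧ v = X.io (X.cA (M.part w t κ))
  | .tp κ, v, x => ∃ t : ℕ, t ≤ th ∧ x.1 = t ∧ -(X.R : ℤ) - 1 ≤ x.2 ∧ x.2 ≤ (X.Z : ℤ) - X.R ∧
      v = X.io (X.cG ((M.run w t).tape κ ((M.run w t).head κ + x.2)))

variable {X}

theorem Good.R_lt (h : X.Good) : X.R < X.Z := by
  have h0 : 0 < X.n * X.n := Nat.mul_pos h.pos h.pos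
  have := h.hρ
  exact Nat.mul_lt_mul_of_pos_right (by omega) h0

theorem f_some {σ : Sch sd M.extra} (h : ¬ σ.isNode) {a b v : X.V} (hf : X.chs.f σ a b = some v) :
    v = X.rawg σ a.2 b ∧ v ≠ X.no := by
  rw [X.f_other h] at hf
  split_ifs at hf with h1
  cases hf
  refine ⟨rfl, fun hh => ?_⟩
  rw [hh] at h1
  simp [no] at h1

theorem f_io {σ : Sch sd M.extra} (h : ¬ σ.isNode) {a b : X.V} {y} (hf : X.rawg σ a.2 b = X.io y) :
    X.chs.f σ a b = some (X.io y) := by
  rw [X.f_other h, hf]; simp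

theorem sign_cast_abs (δ : SignType) : -1 ≤ (δ : ℤ) ∧ (δ : ℤ) ≤ 1 := by cases δ <;> simp

theorem Good.inv_step (h : X.Good) {w : List Bool} {th : ℕ}
    (hsym : ∀ z < X.Z, (X.ev z symE).2 = X.cG ((M.init w).tape 0 ((z : ℤ) - X.R)))
    (hth : M.dl w th = .inl false) (σ : Sch sd M.extra) (a b v : X.V) (x : ℤ × ℤ)
    (hf : X.chs.f σ a b = some v) (h1 : X.Inv w th σ.s1 a (x + σ.d1 X.R))
    (h2 : X.Inv w th σ.s2 b (x + σ.d2 X.R)) : X.Inv w th σ.s0 v x := by
  have hR := h.R_lt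
  have hlt : ∀ {t act}, t ≤ th → M.dl w t = .inr act → t + 1 ≤ th := by
    intro t act ht ha
    rcases ht.lt_or_eq with h | h
    · exact h
    · rw [h, hth] at ha; cases ha
  obtain ⟨x1, x2⟩ := x
  cases σ with
  | goal => exact h1
  | acInit =>
    obtain ⟨rfl, -⟩ := f_some (by simp [Sch.isNode]) hf
    simp only [Sch.s1, Sch.d1, Inv, Prod.mk_add_mk, add_zero] at h1
    refine ⟨0, Nat.zero_le _, h1.2, ?_⟩
    simp [rawg, TM.part, TM.run, TM.init]
  | frInit =>
    obtain ⟨z, hz, e1, -⟩ := h1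
    simp only [Sch.d1, Prod.mk_add_mk, add_zero, Prod.mk.injEq] at e1
    exact ⟨0, Nat.zero_le _, e1.1, by simp only; omega, by simp only; omega⟩
  | fire =>
    obtain ⟨rfl, hv⟩ := f_some (by simp [Sch.isNode]) hf
    obtain ⟨t, ht, e1, rfl⟩ := h1
    simp only [Sch.d1, Prod.mk_add_mk, add_zero, Prod.mk.injEq] at e1
    obtain ⟨rfl, rfl⟩ := e1
    simp only [rawg, io_snd, dA_cA, Fin.val_last, TM.part_last] at hv ⊢
    refine ⟨t, ht, rfl, by simp, by simp only; omega, ?_⟩
    rw [← TM.dl] at hv ⊢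
    cases hd : M.dl w t with
    | inl b => simp [hd] at hv
    | inr act => exact ⟨act, rfl, by simp⟩
  | accept =>
    obtain ⟨rfl, hv⟩ := f_some (by simp [Sch.isNode]) hf
    obtain ⟨t, ht, e1, rfl⟩ := h1
    simp only [rawg, io_snd, dA_cA, Fin.val_last, TM.part_last] at hv
    rw [← TM.dl] at hv
    split_ifs at hv with hd
    · exact absurd (TM.dl_unique hd hth) (by simp)
    · exact absurd rfl hv
  | bR =>
    obtain ⟨rfl, hv⟩ := f_some (by simp [Sch.isNode]) hf
    obtain ⟨t, ht, e1, e2, e3, act, ha, rfl⟩ := h1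
    obtain ⟨t', ht', e1', e2', e3'⟩ := h2
    simp only [Sch.d1, Sch.d2, Prod.mk_add_mk, add_zero] at e1 e2 e3 e1' e2' e3'
    simp only [rawg, io_snd, dB_cB, Sch.d1, Prod.mk_add_mk] at hv ⊢
    split_ifs at hv ⊢ with hd
    · refine ⟨t, ht, e1, e2', e3', act, ha, ?_⟩
      rw [ne_eq, sign_eq_neg_one_iff] at hd
      rw [sign_pos (by simp only; omega)]
    · exact absurd rfl hv
  | bL =>
    obtain ⟨rfl, hv⟩ := f_some (by simp [Sch.isNode]) hf
    obtain ⟨t, ht, e1, e2, e3, act, ha, rfl⟩ := h1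
    obtain ⟨t', ht', e1', e2', e3'⟩ := h2
    simp only [Sch.d1, Sch.d2, Prod.mk_add_mk, add_zero] at e1 e2 e3 e1' e2' e3'
    simp only [rawg, io_snd, dB_cB, Sch.d1, Prod.mk_add_mk] at hv ⊢
    split_ifs at hv ⊢ with hd
    · refine ⟨t, ht, e1, e2', e3', act, ha, ?_⟩
      rw [ne_eq, sign_eq_one_iff] at hd
      rw [sign_neg (by simp only; omega)]
    · exact absurd rfl hv
  | next =>
    obtain ⟨rfl, hv⟩ := f_some (by simp [Sch.isNode]) hf
    obtain ⟨t, ht, e1, e2, e3, act, ha, rfl⟩ := h1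
    simp only [Sch.d1, Prod.mk_add_mk, add_zero] at e1 e2 e3
    simp only [rawg, io_snd, dB_cB, Sch.d1, Prod.mk_add_mk, add_zero] at hv ⊢
    split_ifs at hv ⊢ with hd
    · rw [sign_eq_zero_iff] at hd
      refine ⟨t + 1, hlt ht ha, ?_, ?_⟩
      · rw [hd]; congr 1; push_cast; omega
      · simp [TM.part, (TM.run_inr ha).1]
    · exact absurd rfl hv
  | frame =>
    obtain ⟨t, ht, e1, e2, e3, act, ha, rfl⟩ := h1
    simp only [Sch.d1, Prod.mk_add_mk, add_zero] at e1 e2 e3
    exact ⟨t + 1, hlt ht ha, by push_cast; omega, e2, e3⟩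
  | node y =>
    obtain ⟨y, hy⟩ := y
    cases y with
    | reg ρ => exact h1.elim
    | app t l r =>
      rw [X.f_node hy] at hf
      cases hf
      obtain ⟨hl, hr⟩ := allSub_closed hy
      simp only [Sch.s1, Sch.s2, Shape.c1, Shape.c2, ndc_eq hl, ndc_eq hr, Sch.d1, Sch.d2,
        Prod.mk_add_mk, add_zero] at h1 h2
      obtain ⟨z, hz, e1, rfl⟩ := h1
      obtain ⟨z', hz', e1', rfl⟩ := h2
      have : z' = z := by
        rw [e1] at e1'
        have := congrArg Prod.snd e1'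
        simp only at this
        omega
      subst this
      exact ⟨z', hz, e1, rfl⟩
  | regStep ρ =>
    obtain ⟨rfl, hv⟩ := f_some (by simp [Sch.isNode]) hf
    obtain ⟨z, hz, e1, rfl⟩ := h1
    obtain ⟨z', hz', e1', rfl⟩ := h2
    simp only [Sch.d1, Sch.d2, Prod.mk_add_mk, add_zero, Prod.mk.injEq] at e1 e1'
    have : z' = z := by omega
    subst this
    simp only [rawg] at hv ⊢
    split_ifs at hv ⊢ with hd
    · refine ⟨z' + 1, (h.T_go hz).1 hd, ?_, h.ev_next hz ρ⟩
      rw [e1.1]; congr 1; push_cast; omega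
    · exact absurd rfl hv
  | regInit ρ =>
    obtain ⟨rfl, -⟩ := f_some (by simp [Sch.isNode]) hf
    obtain ⟨-, e1⟩ := h1
    simp only [Sch.d1, Prod.mk_add_mk, add_zero, Prod.mk.injEq] at e1
    refine ⟨0, by omega, ?_, (st_zero ρ).symm⟩
    rw [e1.1]; congr 1; push_cast; omega
  | tpInit κ =>
    obtain ⟨rfl, -⟩ := f_some (by simp [Sch.isNode]) hf
    obtain ⟨z, hz, e1, rfl⟩ := h2
    simp only [Sch.d2, Prod.mk_add_mk, add_zero, Prod.mk.injEq] at e1
    obtain ⟨rfl, rfl⟩ := e1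
    refine ⟨0, Nat.zero_le _, rfl, by simp only; omega, by simp only; omega, ?_⟩
    simp only [rawg]
    split_ifs with hk
    · rw [hsym z hz, hk]
      simp [TM.run, TM.init]
    · simp [TM.run, TM.init, hk]
  | accu κ =>
    obtain ⟨rfl, -⟩ := f_some (by simp [Sch.isNode]) hf
    obtain ⟨t, ht, e1, rfl⟩ := h1
    obtain ⟨t', ht', e1', e2', e3', rfl⟩ := h2
    simp only [Sch.d1, Sch.d2, Prod.mk_add_mk, add_zero, Prod.mk.injEq] at e1 e1'
    obtain ⟨rfl, rfl⟩ := e1
    have : t' = t := by omega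
    subst this
    refine ⟨t', ht, rfl, ?_⟩
    simp [rawg, TM.part_succ, Sch.d2]
  | mv κ δ =>
    obtain ⟨rfl, hv⟩ := f_some (by simp [Sch.isNode]) hf
    obtain ⟨t, ht, e1, e2, e3, act, ha, rfl⟩ := h1
    obtain ⟨t', ht', e1', e2', e3', rfl⟩ := h2
    simp only [Sch.d1, Sch.d2, Prod.mk_add_mk] at e1 e2 e3 e1' e2' e3'
    have : t' = t := by omega
    subst this
    have hδ := sign_cast_abs δ
    simp only [rawg, io_snd, dB_cB, dG_cG, Sch.d1, Sch.d2, Prod.mk_add_mk] at hv ⊢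
    by_cases hd : (act.2 κ).2 = δ
    · rw [if_pos hd]
      refine ⟨t' + 1, hlt ht ha, by push_cast; omega, by simp only; omega, by simp only; omega, ?_⟩
      rw [TM.tape_step ha, hd]
    · rw [if_neg hd] at hv
      exact absurd rfl hv

theorem ndc_ne (y : Shape sd) : (ndc y : Chan sd M.extra) ≠ .junk ∧
    (ndc y : Chan sd M.extra) ≠ .seed := by
  unfold ndc; split_ifs <;> simp

theorem Good.closed (h : X.Good) {w : List Bool} {th : ℕ}
    (hsym : ∀ z < X.Z, (X.ev z symE).2 = X.cG ((M.init w).tape 0 ((z : ℤ) - X.R)))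
    (hth : M.dl w th = .inl false) {T : ℤ} (hT : th ≤ T) :
    X.chs.Closed (X.Inv w th) T (X.Z + 1) where
  hs0 σ := by cases σ <;> simp [Sch.s0]
  hjunk := by simp
  hs1 σ := by
    cases σ with
    | node y =>
      obtain ⟨y, hy⟩ := y
      cases y with
      | reg ρ => simp [Sch.s1, Shape.c1]
      | app t l r => exact (ndc_ne l).1
    | _ => simp [Sch.s1]
  hs2 σ := by
    cases σ with
    | node y =>
      obtain ⟨y, hy⟩ := y
      cases y with
      | reg ρ => simp [Sch.s2, Shape.c2]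
      | app t l r => exact (ndc_ne r).1
    | _ => simp [Sch.s2]
  hseed σ h1 h2 := by
    cases σ <;> first | rfl | simp [Sch.s1] at h1
  hd1 σ := by
    have hR := h.R_lt
    cases σ with
    | mv κ δ =>
      have := sign_cast_abs δ
      simp only [Sch.d1, abs_le]; omega
    | _ => simp only [Sch.d1, abs_le]; omega
  hd2 σ := by
    have hR := h.R_lt
    cases σ with
    | mv κ δ =>
      have := sign_cast_abs δ
      simp only [Sch.d2, abs_le]; omega
    | _ => simp only [Sch.d2, abs_le]; omega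
  seed := ⟨rfl, rfl⟩
  step σ a b v x hf h1 h2 := h.inv_step hsym hth σ a b v x hf h1 h2
  bound ch v x hI := by
    have hR := h.R_lt
    obtain ⟨x1, x2⟩ := x
    simp only [abs_le]
    cases ch with
    | seed => obtain ⟨-, e1⟩ := hI; simp only [Prod.mk.injEq] at e1; omega
    | junk => exact hI.elim
    | acc => exact hI.elim
    | fr => obtain ⟨t, h1, h2, h3, h4⟩ := hI; simp only at *; omega
    | bc => obtain ⟨t, h1, h2, h3, h4, -⟩ := hI; simp only at *; omega
    | nd y => obtain ⟨t, h1, e1, -⟩ := hI; simp only [Prod.mk.injEq] at e1; omega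
    | ac y => obtain ⟨t, h1, e1, -⟩ := hI; simp only [Prod.mk.injEq] at e1; omega
    | tp y => obtain ⟨t, h1, h2, h3, h4, -⟩ := hI; simp only at *; omega
  goalf := f_io (by simp [Sch.isNode]) rfl
  goal0 := by simp [Sch.s0]
  nogoal v x := ⟨id, id, id⟩

theorem der' {σ : Sch sd M.extra} (hσ : σ ≠ .goal) {a b v : X.V} {x x1 x2 : ℤ × ℤ}
    (hf : X.chs.f σ a b = some v) (h1 : CDer X.chs σ.s1 a x1) (h2 : CDer X.chs σ.s2 b x2)
    (e1 : x1 = x + σ.d1 X.R) (e2 : x2 = x + σ.d2 X.R) : CDer X.chs σ.s0 v x :=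
  CDer.step (C := X.chs) σ a b v x hσ hf (e1 ▸ h1) (e2 ▸ h2)

theorem der_shape {z : ℕ} {x : ℤ × ℤ}
    (hr : ∀ ρ, CDer X.chs (.nd ⟨.reg ρ, reg_mem ρ⟩) (X.st z ρ) x) (y : Shape sd)
    (hy : y ∈ allSub sd) : CDer X.chs (.nd ⟨y, hy⟩) (X.ev z y) x := by
  induction y with
  | reg ρ => exact hr ρ
  | app t l r ih1 ih2 =>
    obtain ⟨hl, hr'⟩ := allSub_closed hy
    refine der' (σ := .node ⟨_, hy⟩) (by simp) (X.f_node hy _ _) (x1 := x) (x2 := x) ?_ ?_
      (by simp [Sch.d1]) (by simp [Sch.d2])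
    · simp only [Sch.s1, Shape.c1, ndc_eq hl]; exact ih1 hl
    · simp only [Sch.s2, Shape.c2, ndc_eq hr']; exact ih2 hr'

theorem Good.der_reg (h : X.Good) (z : ℕ) (hz : z < X.Z) (ρ : Reg sd) :
    CDer X.chs (.nd ⟨.reg ρ, reg_mem ρ⟩) (X.st z ρ) (0, (z : ℤ) - X.R) := by
  induction z generalizing ρ with
  | zero =>
    rw [st_zero]
    exact der' (σ := .regInit ρ) (by simp) (f_io (by simp [Sch.isNode]) rfl) CDer.seed CDer.seed
      (by simp [Sch.d1]) (by simp [Sch.d2])
  | succ z ih =>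
    have hz' : z < X.Z := by omega
    have h1 := der_shape (ih hz') _ goE_mem
    have h2 := der_shape (ih hz') _ (nextE_mem ρ)
    rw [← h.ev_next hz']
    refine der' (σ := .regStep ρ) (by simp) (f_io (by simp [Sch.isNode]) ?_) h1 h2
      (by simp [Sch.d1]; ring) (by simp [Sch.d2]; ring)
    exact if_pos ((h.T_go hz').2 hz)

theorem Good.der_sym (h : X.Good) (i : ℤ) (h1 : -(X.R : ℤ) ≤ i) (h2 : i < (X.Z : ℤ) - X.R) :
    ∃ z < X.Z, i = (z : ℤ) - X.R ∧ CDer X.chs (.nd ⟨symE, symE_mem⟩) (X.ev z symE) (0, i) := by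
  refine ⟨(i + X.R).toNat, by omega, by omega, ?_⟩
  have := der_shape (h.der_reg (i + X.R).toNat (by omega)) _ symE_mem
  rwa [show (((i + X.R).toNat : ℕ) : ℤ) - X.R = i by omega] at this

/-- everything known at time `t` -/
structure Row (X : Ctx M sd e) (w : List Bool) (t : ℕ) : Prop where
  ac : CDer X.chs (.ac 0) (X.io (X.cA (M.part w t 0))) (t, 0)
  fr : ∀ i : ℤ, -(X.R : ℤ) ≤ i → i < (X.Z : ℤ) - X.R → CDer X.chs .fr (X.io 0) (t, i)
  tp : ∀ κ (i : ℤ), -(X.R : ℤ) + t ≤ i → i < (X.Z : ℤ) - X.R - t →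
    CDer X.chs (.tp κ) (X.io (X.cG ((M.run w t).tape κ ((M.run w t).head κ + i)))) (t, i)

theorem Row.last {w : List Bool} {t : ℕ} (h : Row X w t) (h1 : t ≤ X.R) (h2 : t + X.R < X.Z) :
    CDer X.chs (.ac (Fin.last _)) (X.io (X.cA ((M.run w t).state, M.scan (M.run w t)))) (t, 0) := by
  have : ∀ κ : Fin (M.extra + 2), CDer X.chs (.ac κ) (X.io (X.cA (M.part w t κ))) (t, 0) := by
    intro κ
    induction κ using Fin.induction with
    | zero => exact h.ac
    | succ κ ih =>
      refine der' (σ := .accu κ) (by simp) (f_io (by simp [Sch.isNode]) ?_) ih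
        (h.tp κ 0 (by omega) (by omega)) (by simp [Sch.d1]) (by simp [Sch.d2])
      simp [rawg, TM.part_succ]
  have := this (Fin.last _)
  rwa [Fin.val_last, TM.part_last] at this

theorem Row.bc {w : List Bool} {t : ℕ} (h : Row X w t) (h1 : t ≤ X.R) (h2 : t + X.R < X.Z)
    {act : ActT M} (ha : M.dl w t = .inr act) (i : ℤ) (i1 : -(X.R : ℤ) ≤ i)
    (i2 : i < (X.Z : ℤ) - X.R) : CDer X.chs .bc (X.io (X.cB (act, SignType.sign i))) (t, i) := by
  have hl := h.last h1 h2
  induction i using Int.induction_on with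
  | zero =>
    refine der' (σ := .fire) (by simp) (f_io (by simp [Sch.isNode]) ?_) hl hl
      (by simp [Sch.d1]) (by simp [Sch.d2])
    simp only [rawg, io_snd, dA_cA]
    rw [← TM.dl, ha]; simp
  | succ i ih =>
    refine der' (σ := .bR) (by simp) (f_io (by simp [Sch.isNode]) ?_) (ih (by omega) (by omega))
      (h.fr _ i1 i2) (by simp [Sch.d1]) (by simp [Sch.d2])
    simp only [rawg, io_snd, dB_cB]
    rw [if_pos (by rw [ne_eq, sign_eq_neg_one_iff]; omega), sign_pos (by omega)]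
  | pred i ih =>
    refine der' (σ := .bL) (by simp) (f_io (by simp [Sch.isNode]) ?_) (ih (by omega) (by omega))
      (h.fr _ i1 i2) (by simp [Sch.d1]) (by simp [Sch.d2])
    simp only [rawg, io_snd, dB_cB]
    rw [if_pos (by rw [ne_eq, sign_eq_one_iff]; omega), sign_neg (by omega)]

theorem Row.succ {w : List Bool} {t : ℕ} (h : Row X w t) (h1 : t ≤ X.R) (h2 : t + X.R < X.Z)
    {act : ActT M} (ha : M.dl w t = .inr act) : Row X w (t + 1) where
  ac := by
    have := h.bc h1 h2 ha 0 (by omega) (by omega)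
    refine der' (σ := .next) (by simp) (f_io (by simp [Sch.isNode]) ?_) this this
      (by simp [Sch.d1]) (by simp [Sch.d2])
    simp [rawg, TM.part, (TM.run_inr ha).1]
  fr i i1 i2 := by
    have := h.bc h1 h2 ha i i1 i2
    exact der' (σ := .frame) (by simp) (f_io (by simp [Sch.isNode]) rfl) this this
      (by simp [Sch.d1]) (by simp [Sch.d2])
  tp κ i i1 i2 := by
    have hδ := sign_cast_abs (act.2 κ).2
    push_cast at i1 i2
    have b1 := h.bc h1 h2 ha (i + ((act.2 κ).2 : ℤ)) (by omega) (by omega)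
    have b2 := h.tp κ (i + ((act.2 κ).2 : ℤ)) (by omega) (by omega)
    refine der' (σ := .mv κ (act.2 κ).2) (by simp) (f_io (by simp [Sch.isNode]) ?_) b1 b2
      (by simp [Sch.d1]) (by simp [Sch.d2])
    simp only [rawg, io_snd, dB_cB, dG_cG, if_true]
    rw [TM.tape_step ha]

theorem Good.row_zero (h : X.Good) {w : List Bool}
    (hsym : ∀ z < X.Z, (X.ev z symE).2 = X.cG ((M.init w).tape 0 ((z : ℤ) - X.R))) :
    Row X w 0 where
  ac := by
    refine der' (σ := .acInit) (by simp) (f_io (by simp [Sch.isNode]) ?_) CDer.seed CDer.seed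
      (by simp [Sch.d1]) (by simp [Sch.d2])
    simp [rawg, TM.part, TM.run, TM.init]
  fr i i1 i2 := by
    obtain ⟨z, -, -, hd⟩ := h.der_sym i i1 i2
    exact der' (σ := .frInit) (by simp) (f_io (by simp [Sch.isNode]) rfl) hd hd
      (by simp [Sch.d1]) (by simp [Sch.d2])
  tp κ i i1 i2 := by
    obtain ⟨z, hz, rfl, hd⟩ := h.der_sym i (by omega) (by omega)
    refine der' (σ := .tpInit κ) (by simp) (f_io (by simp [Sch.isNode]) ?_) hd hd
      (by simp [Sch.d1]) (by simp [Sch.d2])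
    simp only [rawg]
    split_ifs with hk
    · rw [hsym z hz, hk]
      simp [TM.run, TM.init]
    · simp [TM.run, TM.init, hk]

theorem Good.der_acc (h : X.Good) {w : List Bool} {th : ℕ}
    (hsym : ∀ z < X.Z, (X.ev z symE).2 = X.cG ((M.init w).tape 0 ((z : ℤ) - X.R)))
    (hth : M.dl w th = .inl true) (h1 : th ≤ X.R) (h2 : th + X.R < X.Z) :
    CDer X.chs .acc (X.io 0) (th, 0) ∨ ∃ t < th, M.dl w t = .inl true := by
  by_cases hh : ∃ t < th, M.dl w t = .inl true
  · exact Or.inr hh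
  left
  have : ∀ t ≤ th, Row X w t := by
    intro t ht
    induction t with
    | zero => exact h.row_zero hsym
    | succ t ih =>
      cases hd : M.dl w t with
      | inl b =>
        have := TM.dl_unique hd hth
        subst this
        exact absurd ⟨t, by omega, hd⟩ hh
      | inr act => exact (ih (by omega)).succ (by omega) (by omega) hd
  have hl := (this th le_rfl).last h1 h2
  refine der' (σ := .accept) (by simp) (f_io (by simp [Sch.isNode]) ?_) hl hl
    (by simp [Sch.d1]) (by simp [Sch.d2])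
  simp only [rawg, io_snd, dA_cA]
  rw [← TM.dl, if_pos hth]

theorem Good.der_acc' (h : X.Good) {w : List Bool} {th : ℕ}
    (hsym : ∀ z < X.Z, (X.ev z symE).2 = X.cG ((M.init w).tape 0 ((z : ℤ) - X.R)))
    (hth : M.dl w th = .inl true) (h1 : th ≤ X.R) (h2 : th + X.R < X.Z) :
    ∃ x, CDer X.chs .acc (X.io 0) x := by
  induction th using Nat.strong_induction_on with
  | _ th ih =>
    rcases h.der_acc hsym hth h1 h2 with h3 | ⟨t, h3, h4⟩
    · exact ⟨_, h3⟩
    · exact ih t h3 h4 (by omega) (by omega)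

end Ctx

end Vale.Agent.P310
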