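import Vale.Agent.P310.SpoA

namespace Vale.Agent.P310

open Function

variable {k : ℕ} {S : Sys k}

lemma spo_z2 {a b c d : ZMod 2} (h : a = b ↔ c = d) : a + c = b + d := by
  revert a b c d; decide

lemma spo_node_lt {ρ : S.Rule} {s : Fin 5} (n : Fin S.L) : node ρ s n.val = Ty.leg ρ s n := by
  simp [node]

lemma spo_node_eq_leg {ρ ρ' : S.Rule} {s s' : Fin 5} {m : ℕ} {n : Fin S.L}
    (h : node ρ s m = Ty.leg ρ' s' n) : ρ = ρ' ∧ s = s' ∧ m = n.val := by
  unfold node at h
  split_ifs at h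
  cases h
  exact ⟨rfl, rfl, rfl⟩

lemma spo_node_eq_node {ρ ρ' : S.Rule} {s s' : Fin 5} {m m' : ℕ} (hm : m ≤ S.L) (hm' : m' ≤ S.L)
    (h : node ρ s m = node ρ' s' m') : m = m' ∧ (m < S.L → ρ = ρ' ∧ s = s') := by
  unfold node at h
  split_ifs at h with h1 h2 h3
  · cases h; exact ⟨rfl, fun _ => ⟨rfl, rfl⟩⟩
  · exact ⟨by omega, fun h => absurd h h1⟩

lemma spo_node_eq_ctr {ρ : S.Rule} {s : Fin 5} {m : ℕ} {c : S.Atom}
    (h : node ρ s m = Ty.ctr c) : S.L ≤ m := by
  unfold node at h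
  split_ifs at h with h1
  omega

lemma spo_var_pair {ρ : S.Rule} {t : Fin 5} {n : Fin S.L} {s : Fin 5} {q : Ty S}
    (h : (Gate.pair ρ t n).var s = some q) : s.val ≤ 1 ∧ node ρ t (n.val + s.val) = q := by
  simp only [Gate.var] at h
  split_ifs at h with h1 h2
  · subst h1; exact ⟨by simp, by simpa using h⟩
  · subst h2; exact ⟨by simp, by simpa using h⟩

lemma spo_var_fact {s : Fin 5} {q : Ty S} (h : (Gate.fact : Gate S).var s = some q) :
    s = 0 ∧ Ty.ctr S.y0 = q := by
  simp only [Gate.var] at h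
  split_ifs at h with h1
  exact ⟨h1, by simpa using h⟩

lemma spo_uniq (hL : 1 < S.L) {g g' : Gate S} (hg : g ≠ g') {s s' s₁ s₂ : Fin 5} {q q₁ : Ty S}
    (h1 : g.var s = some q) (h2 : g'.var s' = some q) (h3 : g.var s₁ = some q₁)
    (h4 : g'.var s₂ = some q₁) : s₁ = s ∧ s₂ = s' := by
  rcases g with ρ | ⟨ρ, t, n⟩ | _ <;> rcases g' with ρ' | ⟨ρ', t', n'⟩ | _
  · simp only [Gate.var, Option.some.injEq] at h1 h2
    exact absurd (congrArg _ ((spo_node_eq_node (by omega) (by omega) (h1.trans h2.symm)).2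
      (by omega)).1) hg
  · simp only [Gate.var, Option.some.injEq] at h1 h3
    obtain ⟨a1, a2⟩ := spo_var_pair h2
    obtain ⟨b1, b2⟩ := spo_var_pair h4
    obtain ⟨c1, c2⟩ := spo_node_eq_node (by omega) (by omega) (h1.trans a2.symm)
    obtain ⟨d1, d2⟩ := spo_node_eq_node (by omega) (by omega) (h3.trans b2.symm)
    exact ⟨(d2 (by omega)).2.trans (c2 (by omega)).2.symm, Fin.ext (by omega)⟩
  · simp only [Gate.var, Option.some.injEq] at h1
    have := spo_node_eq_ctr (h1.trans (spo_var_fact h2).2.symm)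
    omega
  · simp only [Gate.var, Option.some.injEq] at h2 h4
    obtain ⟨a1, a2⟩ := spo_var_pair h1
    obtain ⟨b1, b2⟩ := spo_var_pair h3
    obtain ⟨c1, c2⟩ := spo_node_eq_node (by omega) (by omega) (h2.trans a2.symm)
    obtain ⟨d1, d2⟩ := spo_node_eq_node (by omega) (by omega) (h4.trans b2.symm)
    exact ⟨Fin.ext (by omega), (d2 (by omega)).2.trans (c2 (by omega)).2.symm⟩
  · obtain ⟨a1, a2⟩ := spo_var_pair h1
    obtain ⟨b1, b2⟩ := spo_var_pair h2
    obtain ⟨c1, c2⟩ := spo_var_pair h3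
    obtain ⟨d1, d2⟩ := spo_var_pair h4
    obtain ⟨e1, e2⟩ := spo_node_eq_node (by omega) (by omega) (a2.trans b2.symm)
    obtain ⟨f1, f2⟩ := spo_node_eq_node (by omega) (by omega) (c2.trans d2.symm)
    by_cases hn : n.val = n'.val
    · have hne : ¬ (ρ = ρ' ∧ t = t') := by
        rintro ⟨rfl, rfl⟩
        exact hg (by rw [Fin.ext hn])
      have e3 : ¬ n.val + s.val < S.L := fun h => hne (e2 h)
      have f3 : ¬ n.val + s₁.val < S.L := fun h => hne (f2 h)
      exact ⟨Fin.ext (by omega), Fin.ext (by omega)⟩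
    · exact ⟨Fin.ext (by omega), Fin.ext (by omega)⟩
  · obtain ⟨a1, a2⟩ := spo_var_pair h1
    obtain ⟨c1, c2⟩ := spo_var_pair h3
    have e1 := spo_node_eq_ctr (a2.trans (spo_var_fact h2).2.symm)
    have e2 := spo_node_eq_ctr (c2.trans (spo_var_fact h4).2.symm)
    exact ⟨Fin.ext (by omega), (spo_var_fact h4).1.trans (spo_var_fact h2).1.symm⟩
  · simp only [Gate.var, Option.some.injEq] at h2
    have := spo_node_eq_ctr (h2.trans (spo_var_fact h1).2.symm)
    omega
  · obtain ⟨a1, a2⟩ := spo_var_pair h2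
    obtain ⟨c1, c2⟩ := spo_var_pair h4
    have e1 := spo_node_eq_ctr (a2.trans (spo_var_fact h1).2.symm)
    have e2 := spo_node_eq_ctr (c2.trans (spo_var_fact h3).2.symm)
    exact ⟨(spo_var_fact h3).1.trans (spo_var_fact h1).1.symm, Fin.ext (by omega)⟩
  · exact absurd rfl hg

/-- the location of gate `g` in row `r` at configuration `j` -/
def locAt (g : Gate S) (j : Fin k → S.A) (r : Fin k) : Loc S := ⟨g, r, j r, j (S.nxt r)⟩

variable {code : Loc S → Fin 5 → Fin (S.M + 2)} {J : Type}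

lemma spo_adj_of_unique {b : Bool} {l l' : Loc S} (hne : l ≠ l') {π π' : Pt}
    (hex : ∃ v, l.port π = some v ∧ l'.port π' = some v)
    (hu : ∀ π₁ π₂ v, l.port π₁ = some v → l'.port π₂ = some v → π₁ = π ∧ π₂ = π')
    {val val' : Pt → ZMod 2} (h1 : (Vx.gad l val).valid b) (h2 : (Vx.gad l' val').valid b) :
    (graph code J b).Adj (.inl (.gad l val)) (.inl (.gad l' val')) ↔ val π = val' π' := by
  rw [adj_inl, link_gad_gad, link_gad_gad]
  constructor
  · rintro ⟨-, -, -, ⟨π₁, π₂, v, a1, a2, a3⟩ | ⟨π₂, π₁, v, a2, a1, a3⟩⟩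
    · obtain ⟨rfl, rfl⟩ := hu _ _ _ a1 a2; exact a3
    · obtain ⟨rfl, rfl⟩ := hu _ _ _ a1 a2; exact a3.symm
  · intro h
    obtain ⟨v, a1, a2⟩ := hex
    exact ⟨fun h => hne (by cases h; rfl), h1, h2, Or.inl ⟨π, π', v, a1, a2, h⟩⟩

lemma spo_adj_move (hL : 1 < S.L) {b : Bool} {g g' : Gate S} (hg : g ≠ g') {s s' : Fin 5}
    {q : Ty S} (h1 : g.var s = some q) (h2 : g'.var s' = some q) {j j' : Fin k → S.A}
    (hoff : ∀ r, g.off s r (j r) = g'.off s' r (j' r)) (r : Fin k) {val val' : Pt → ZMod 2}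
    (v1 : (Vx.gad (locAt g j r) val).valid b) (v2 : (Vx.gad (locAt g' j' r) val').valid b) :
    (graph code J b).Adj (.inl (.gad (locAt g j r) val)) (.inl (.gad (locAt g' j' r) val')) ↔
      val (.inl s) = val' (.inl s') := by
  refine spo_adj_of_unique (fun h => hg (congrArg Loc.g h))
    ⟨_, by simp [Loc.port, locAt, h1]; rfl, by simp [Loc.port, locAt, h2, hoff]⟩ ?_ v1 v2
  rintro (s₁ | _ | _) (s₂ | _ | _) v a1 a2 <;>
    simp only [Loc.port, locAt, Option.map_eq_some_iff, Option.some.injEq] at a1 a2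
  · obtain ⟨q₁, b1, rfl⟩ := a1
    obtain ⟨q₂, b2, b3⟩ := a2
    cases (Var.X.inj b3).1
    obtain ⟨rfl, rfl⟩ := spo_uniq hL hg h1 h2 b1 b2
    exact ⟨rfl, rfl⟩
  · obtain ⟨q₁, b1, rfl⟩ := a1; cases a2
  · obtain ⟨q₁, b1, rfl⟩ := a1; cases a2
  · obtain ⟨q₁, b1, rfl⟩ := a2; cases a1
  · subst a1; exact absurd (Var.W.inj a2).1.symm hg
  · subst a1; exact absurd (Var.W.inj a2).1.symm hg
  · obtain ⟨q₁, b1, rfl⟩ := a2; cases a1
  · subst a1; exact absurd (Var.W.inj a2).1.symm hg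
  · subst a1; exact absurd (Var.W.inj a2).1.symm hg

lemma spo_adj_row (h : SpoHyp S code) {b : Bool} (g : Gate S) (j : Fin k → S.A) (r : Fin k)
    {val val' : Pt → ZMod 2} (v1 : (Vx.gad (locAt g j r) val).valid b)
    (v2 : (Vx.gad (locAt g j (S.nxt r)) val').valid b) :
    (graph code J b).Adj (.inl (.gad (locAt g j r) val)) (.inl (.gad (locAt g j (S.nxt r)) val')) ↔
      val (.inr true) = val' (.inr false) := by
  have n1 := h.hnxt r
  have n2 := h.hnxt2 r
  have n3 := h.hnxt (S.nxt r)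
  refine spo_adj_of_unique (fun h => n1 (congrArg Loc.r h).symm) ⟨_, rfl, rfl⟩ ?_ v1 v2
  rintro (s₁ | _ | _) (s₂ | _ | _) v a1 a2 <;>
    simp only [Loc.port, locAt, Option.map_eq_some_iff, Option.some.injEq] at a1 a2
  · obtain ⟨q₁, b1, rfl⟩ := a1
    obtain ⟨q₂, b2, b3⟩ := a2
    exact absurd (Var.X.inj b3).2.1 n1
  · obtain ⟨q₁, b1, rfl⟩ := a1; cases a2
  · obtain ⟨q₁, b1, rfl⟩ := a1; cases a2
  · obtain ⟨q₁, b1, rfl⟩ := a2; cases a1
  · subst a1; exact absurd (Var.W.inj a2).2.1 n1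
  · subst a1; exact absurd (Var.W.inj a2).2.1 n2
  · obtain ⟨q₁, b1, rfl⟩ := a2; cases a1
  · exact ⟨rfl, rfl⟩
  · subst a1; exact absurd (Var.W.inj a2).2.1 n3

lemma spo_parity (l : Loc S) (val : Pt → ZMod 2) : l.parity val =
    ∑ s : Fin 5, (l.g.var s).elim 0 (fun _ => val (.inl s)) + (val (.inr true) + val (.inr false)) := by
  simp only [Loc.parity, Fintype.sum_sum_type, Fintype.sum_bool, Loc.port, Option.elim_some]
  congr 1
  refine Finset.sum_congr rfl fun s _ => ?_
  cases l.g.var s <;> rfl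

lemma spo_exists_valid (l : Loc S) (hl : l.ok) : ∃ val, (Vx.gad l val).valid false := by
  refine ⟨fun _ => 0, hl, ?_⟩
  rw [spo_parity]
  simp only [add_zero, Bool.false_eq_true, if_false]
  refine Finset.sum_eq_zero fun s _ => ?_
  cases l.g.var s <;> rfl

/-- all pebbles are on gate `g` at configuration `j` -/
def AtG (R : (Fin k → Vx S ⊕ J) → (Fin k → Vx S ⊕ J) → Prop) (g : Gate S) (j : Fin k → S.A)
    (val val' : Fin k → Pt → ZMod 2) : Prop :=
  R (fun r => .inl (.gad (locAt g j r) (val r))) (fun r => .inl (.gad (locAt g j r) (val' r))) ∧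
    (∀ r, (Vx.gad (locAt g j r) (val r)).valid false) ∧
    ∀ r, (Vx.gad (locAt g j r) (val' r)).valid true

/-- the slot sum vanishes in all related positions on the gate -/
def Wg (R : (Fin k → Vx S ⊕ J) → (Fin k → Vx S ⊕ J) → Prop) (g : Gate S) (s : Fin 5)
    (j : Fin k → S.A) : Prop :=
  ∀ val val', AtG R g j val val' → ∑ r, (val r (.inl s) + val' r (.inl s)) = 0

variable [Fintype (Vx S ⊕ J)] {R : (Fin k → Vx S ⊕ J) → (Fin k → Vx S ⊕ J) → Prop}

lemma spo_move (h : SpoHyp S code) (hb : IsBisim (graph code J false) (graph code J true) R)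
    {g g' : Gate S} (hg : g ≠ g') {s s' : Fin 5} {q : Ty S} (h1 : g.var s = some q)
    (h2 : g'.var s' = some q) {j j' : Fin k → S.A}
    (hoff : ∀ r, g.off s r (j r) = g'.off s' r (j' r)) (hok : ∀ r, (locAt g' j' r).ok)
    (hW : Wg R g' s' j') : Wg R g s j := by
  classical
  intro val val' ⟨hR, hv, hv'⟩
  have key : ∀ T : Finset (Fin k), ∃ (x x' : Fin k → Vx S ⊕ J), R x x' ∧
      (∀ r ∉ T, x r = .inl (.gad (locAt g j r) (val r)) ∧
        x' r = .inl (.gad (locAt g j r) (val' r))) ∧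
      ∀ r ∈ T, ∃ w w', x r = .inl (.gad (locAt g' j' r) w) ∧ x' r = .inl (.gad (locAt g' j' r) w') ∧
        (Vx.gad (locAt g' j' r) w).valid false ∧ (Vx.gad (locAt g' j' r) w').valid true ∧
        val r (.inl s) + val' r (.inl s) = w (.inl s') + w' (.inl s') := by
    intro T
    induction T using Finset.induction_on with
    | empty => exact ⟨_, _, hR, fun r _ => ⟨rfl, rfl⟩, by simp⟩
    | insert r T hr ih =>
      obtain ⟨x, x', a1, a2, a3⟩ := ih
      obtain ⟨f, hf⟩ := hb.step' h.hk a1 r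
      obtain ⟨w, hw⟩ := spo_exists_valid _ (hok r)
      obtain ⟨b1, b2⟩ := hf (.inl (.gad (locAt g' j' r) w))
      obtain ⟨w', c1, c2⟩ := vr_gad h hb hw
        (v' := f (.inl (.gad (locAt g' j' r) w))) ⟨_, _, r, b1, by simp, by simp⟩
      rw [c1, (a2 r hr).1, (a2 r hr).2, spo_adj_move h.hL hg h1 h2 hoff r (hv r) hw,
        spo_adj_move h.hL hg h1 h2 hoff r (hv' r) c2] at b2
      refine ⟨_, _, b1, fun r' hr' => ?_, fun r' hr' => ?_⟩
      · rw [Finset.mem_insert, not_or] at hr'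
        rw [update_of_ne hr'.1, update_of_ne hr'.1]
        exact a2 r' hr'.2
      · by_cases e : r' = r
        · subst e
          exact ⟨w, w', by simp, by simp [c1], hw, c2, spo_z2 b2⟩
        · rw [update_of_ne e, update_of_ne e]
          exact a3 r' ((Finset.mem_insert.mp hr').resolve_left e)
  obtain ⟨x, x', a1, -, a3⟩ := key Finset.univ
  choose w w' b1 b2 b3 b4 b5 using fun r => a3 r (Finset.mem_univ r)
  rw [Finset.sum_congr rfl fun r _ => b5 r]
  refine hW w w' ⟨?_, b3, b4⟩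
  rwa [← funext b1, ← funext b2]

open Classical in
lemma spo_sum (h : SpoHyp S code) (hb : IsBisim (graph code J false) (graph code J true) R)
    {g : Gate S} {j : Fin k → S.A} {val val' : Fin k → Pt → ZMod 2} (hA : AtG R g j val val') :
    ∑ s : Fin 5, (g.var s).elim 0 (fun _ => ∑ r, (val r (.inl s) + val' r (.inl s))) =
      if g = Gate.rule S.ρ0 then 1 else 0 := by
  obtain ⟨hR, hv, hv'⟩ := hA
  have e1 : ∀ r, val r (.inr true) + val' r (.inr true) =
      val (S.nxt r) (.inr false) + val' (S.nxt r) (.inr false) := fun r => by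
    have := hb.adj_iff _ _ hR r (S.nxt r)
    rw [spo_adj_row h g j r (hv _) (hv _), spo_adj_row h g j r (hv' _) (hv' _)] at this
    exact spo_z2 this
  have e2 : ∑ r, (val r (.inr true) + val' r (.inr true)) =
      ∑ r, (val r (.inr false) + val' r (.inr false)) := by
    rw [Finset.sum_congr rfl fun r _ => e1 r]
    exact Equiv.sum_comp S.nxt fun r => val r (.inr false) + val' r (.inr false)
  have e3 : ∀ r, ∑ s : Fin 5, (g.var s).elim 0 (fun _ => val r (.inl s) + val' r (.inl s)) +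
      ((val r (.inr true) + val' r (.inr true)) + (val r (.inr false) + val' r (.inr false))) =
      if g = Gate.rule S.ρ0 ∧ r = S.r0 then 1 else 0 := fun r => by
    have a1 := (hv r).2
    have a2 := (hv' r).2
    rw [spo_parity] at a1 a2
    simp only [Bool.false_eq_true, if_false, if_true, Loc.tw, locAt] at a1 a2
    have a3 : ∑ s : Fin 5, (g.var s).elim 0 (fun _ => val r (.inl s) + val' r (.inl s)) =
        ∑ s : Fin 5, (g.var s).elim 0 (fun _ => val r (.inl s)) +
        ∑ s : Fin 5, (g.var s).elim 0 (fun _ => val' r (.inl s)) := by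
      rw [← Finset.sum_add_distrib]
      refine Finset.sum_congr rfl fun s _ => ?_
      cases g.var s <;> simp
    rw [a3]
    by_cases hc : g = Gate.rule S.ρ0 ∧ r = S.r0
    · rw [if_pos hc]
      linear_combination a1 + a2.trans (if_pos hc)
    · rw [if_neg hc]
      linear_combination a1 + a2.trans (if_neg hc)
  have e4 := Finset.sum_congr rfl fun r (_ : r ∈ Finset.univ) => e3 r
  rw [Finset.sum_add_distrib, Finset.sum_add_distrib, e2, CharTwo.add_self_eq_zero, add_zero,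
    Finset.sum_comm] at e4
  have e5 : ∑ r : Fin k, (if g = Gate.rule S.ρ0 ∧ r = S.r0 then (1 : ZMod 2) else 0) =
      if g = Gate.rule S.ρ0 then 1 else 0 := by
    by_cases hg : g = Gate.rule S.ρ0 <;> simp [hg]
  rw [← e5, ← e4]
  refine Finset.sum_congr rfl fun s _ => ?_
  cases g.var s <;> simp

lemma spo_pair (h : SpoHyp S code) (hb : IsBisim (graph code J false) (graph code J true) R)
    (ρ : S.Rule) (t : Fin 5) (n : Fin S.L) (j : Fin k → S.A) :
    Wg R (.pair ρ t n) 0 j ↔ Wg R (.pair ρ t n) 1 j := by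
  have key : ∀ val val', AtG R (.pair ρ t n) j val val' →
      ∑ r, (val r (.inl 0) + val' r (.inl 0)) + ∑ r, (val r (.inl 1) + val' r (.inl 1)) = 0 := by
    intro val val' hA
    simpa [Fin.sum_univ_five, Gate.var] using spo_sum h hb hA
  constructor
  · intro hW val val' hA
    simpa [hW val val' hA] using key val val' hA
  · intro hW val val' hA
    simpa [hW val val' hA] using key val val' hA

omit [Fintype (Vx S ⊕ J)] in
lemma spo_ok_pair (ρ : S.Rule) (t : Fin 5) (n : Fin S.L) (j : Fin k → S.A) (r : Fin k) :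
    (locAt (.pair ρ t n) j r).ok := fun h => by cases h

omit [Fintype (Vx S ⊕ J)] in
lemma spo_ok_rule (ρ : S.Rule) (j : Fin k → S.A) (r : Fin k) :
    (locAt (.rule ρ) j r).ok := fun h => by cases h

lemma spo_leg (h : SpoHyp S code) (hb : IsBisim (graph code J false) (graph code J true) R)
    (ρ : S.Rule) (t : Fin 5) (j : Fin k → S.A) (n : ℕ) (hn : n < S.L) :
    Wg R (.pair ρ t ⟨n, hn⟩) 1 (app ρ (sl t) j) ↔ Wg R (.rule ρ) t j := by
  induction n with
  | zero =>
    rw [← spo_pair h hb]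
    exact ⟨spo_move h hb (by simp) rfl rfl (fun r => rfl) (spo_ok_pair _ _ _ _),
      spo_move h hb (by simp) rfl rfl (fun r => rfl) (spo_ok_rule _ _)⟩
  | succ n ih =>
    rw [← spo_pair h hb, ← ih (by omega)]
    exact ⟨spo_move h hb (by simp) rfl rfl (fun r => rfl) (spo_ok_pair _ _ _ _),
      spo_move h hb (by simp) rfl rfl (fun r => rfl) (spo_ok_pair _ _ _ _)⟩

omit [Fintype (Vx S ⊕ J)] in
lemma spo_var_last (ρ : S.Rule) (t : Fin 5) (hn : S.L - 1 < S.L) :
    (Gate.pair ρ t ⟨S.L - 1, hn⟩).var 1 = some (Ty.ctr (S.bd ρ (sl t))) := by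
  have : ¬ S.L - 1 + 1 < S.L := by omega
  simp [Gate.var, node, this]

lemma spo_der (h : SpoHyp S code) (hb : IsBisim (graph code J false) (graph code J true) R)
    (hn : S.L - 1 < S.L) {c : S.Atom} {j : Fin k → S.A} (hd : Der S c j) :
    ∀ ρ t, S.bd ρ (sl t) = c → Wg R (.pair ρ t ⟨S.L - 1, hn⟩) 1 j := by
  induction hd with
  | seed =>
    intro ρ t hc
    refine spo_move h hb (g' := .fact) (s' := 0) (by simp) (spo_var_last ρ t hn)
      (by simp [Gate.var, hc]) (fun r => rfl) (fun r _ => ⟨rfl, rfl⟩) ?_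
    intro val val' hA
    simpa [Fin.sum_univ_five, Gate.var] using spo_sum h hb hA
  | step ρ j hρ _ _ ih1 ih2 =>
    have w1 := (spo_leg h hb ρ 1 j _ hn).mp (ih1 ρ 1 rfl)
    have w2 := (spo_leg h hb ρ 2 j _ hn).mp (ih1 ρ 2 rfl)
    have w3 := (spo_leg h hb ρ 3 j _ hn).mp (ih2 ρ 3 rfl)
    have w4 := (spo_leg h hb ρ 4 j _ hn).mp (ih2 ρ 4 rfl)
    have w0 : Wg R (.rule ρ) 0 j := by
      intro val val' hA
      simpa [Fin.sum_univ_five, Gate.var, w1 val val' hA, w2 val val' hA, w3 val val' hA,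
        w4 val val' hA, hρ] using spo_sum h hb hA
    have w5 := (spo_leg h hb ρ 0 j _ hn).mpr w0
    intro ρ' t hc
    by_cases e : Gate.pair ρ' t ⟨S.L - 1, hn⟩ = Gate.pair ρ 0 ⟨S.L - 1, hn⟩
    · rw [e]; exact w5
    · exact spo_move h hb e (spo_var_last ρ' t hn) (by rw [spo_var_last, hc]; rfl) (fun r => rfl)
        (spo_ok_pair _ _ _ _) w5

theorem spoiler (code : Loc S → Fin 5 → Fin (S.M + 2)) (h : SpoHyp S code) (J : Type)
    [Fintype (Vx S ⊕ J)] : ¬ WLEquiv k (graph code J false) (graph code J true) := by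
  intro hW
  have hb := sim_isBisim (k := k) (graph code J false) (graph code J true)
  have hn : S.L - 1 < S.L := by have := h.hL; omega
  obtain ⟨j, hj⟩ := h.hder
  have w : ∀ t, Wg (Sim (graph code J false) (graph code J true)) (.rule S.ρ0) t j := fun t =>
    (spo_leg h hb _ t j _ hn).mp (spo_der h hb hn (hj (sl t)) _ t rfl)
  choose val hval using fun r => spo_exists_valid _ (spo_ok_rule S.ρ0 j r)
  obtain ⟨x', hx'⟩ := hW.exists_sim (fun r => .inl (.gad (locAt (.rule S.ρ0) j r) (val r)))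
  choose val' h1 h2 using fun r => vr_gad h hb (hval r) (v' := x' r) ⟨_, _, r, hx', rfl, rfl⟩
  have hA : AtG (Sim (graph code J false) (graph code J true)) (.rule S.ρ0) j val val' :=
    ⟨by rwa [← funext h1], hval, h2⟩
  simpa [Gate.var, fun t => w t val val' hA] using spo_sum h hb hA

end Vale.Agent.P310
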