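import Vale.Agent.P310.Adj2
import Vale.Agent.P310.Sim
import Vale.Agent.P310.Dup4
import Vale.Agent.P310.Spo

namespace Vale.Agent.P310

open Classical Filter

variable {M : TM} {sd e : ℕ}

theorem Decides.at_time {k : ℕ} (h : Decides M k) {n : ℕ} (G H : SimpleGraph (Fin n)) :
    ∃ b, M.dl (adjWord G ++ adjWord H) (M.time (adjWord G ++ adjWord H)) = .inl b ∧
      (b = true ↔ WLEquiv k G H) := by
  obtain ⟨t, b, hb, hi⟩ := h n G H
  have h1 : M.time (adjWord G ++ adjWord H) ∈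
      {t : ℕ | M.answer (M.run (adjWord G ++ adjWord H) t) ≠ none} :=
    Nat.sInf_mem ⟨t, by simp [hb]⟩
  obtain ⟨b', hb'⟩ := Option.ne_none_iff_exists'.1 h1
  rw [TM.answer_eq] at hb hb'
  refine ⟨b, ?_, hi⟩
  rw [hb', TM.dl_unique hb hb']

theorem time_le_worst {n : ℕ} (G H : SimpleGraph (Fin n)) :
    M.time (adjWord G ++ adjWord H) ≤ worstTime M n :=
  le_ciSup (f := fun p : SimpleGraph (Fin n) × SimpleGraph (Fin n) =>
    M.time (adjWord p.1 ++ adjWord p.2)) (Set.finite_range _).bddAbove (G, H)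

theorem Ctx.Good.core {X : Ctx M sd e} (h : X.Good) (hM : Decides M (e + 3)) {T : ℕ}
    (h1 : T ≤ X.R) (h2 : T + X.R < X.Z)
    (hco : Pairwise fun r r' => Nat.Coprime (X.p r) (X.p r'))
    (hW : X.Wd = 2 * (2 * ((X.Z : ℤ) + 1)) + 1)
    (hbig : (2 * ((T : ℤ) + 1) + 1) * X.Wd < ∏ r, (X.p r : ℤ)) : T < worstTime M X.n := by
  refine lt_of_lt_of_le ?_ (time_le_worst (h.G false) (h.G true))
  by_contra hc
  push Not at hc
  obtain ⟨b, hb, hi⟩ := hM.at_time (h.G false) (h.G true)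
  let _ : Fintype (Vx X.sys ⊕ h.J) := Fintype.ofEquiv _ h.eqv
  rw [Ctx.Good.G, Ctx.Good.G, wlEquiv_comap] at hi
  cases b with
  | true =>
    obtain ⟨x, hx⟩ := h.der_acc' h.hsym hb (by omega) (by omega)
    exact spoiler X.code (X.spoHyp hx) h.J (hi.1 rfl)
  | false =>
    have := (h.closed h.hsym hb (T := T) (by exact_mod_cast hc)).dupHyp (p := X.p) (hp := X.hp)
      (Mk := 5 * X.N' + 8) hco hW hbig
    exact absurd (hi.2 (duplicator this X.code h.J)) (by simp)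

theorem exists_emb (α : Type) [Finite α] : ∃ B, ∀ N, B ≤ N → Nonempty (α ↪ Fin N) := by
  let _ := Fintype.ofFinite α
  exact ⟨Fintype.card α, fun N h => Function.Embedding.nonempty_of_card_le (by simpa using h)⟩

theorem exists_moduli (k : ℕ) (hk : 0 < k) : ∃ C, 0 < C ∧ ∀ N, 0 < N → ∃ p : Fin k → ℕ,
    (∀ r, 0 < p r ∧ p r ≤ N) ∧ (Pairwise fun r r' => Nat.Coprime (p r) (p r')) ∧
    N ^ k ≤ C ^ k * ∏ r, p r := by
  have hC : 0 < k * k.factorial := Nat.mul_pos hk k.factorial_pos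
  refine ⟨k * k.factorial, hC, fun N hN => ?_⟩
  set a := (N - 1) / (k * k.factorial) with ha
  have h1 : k * k.factorial * a ≤ N - 1 := Nat.mul_div_le _ _
  have h2 : N - 1 < k * k.factorial * (a + 1) := Nat.lt_mul_div_succ _ hC
  refine ⟨fun r => (r + 1) * (k.factorial * a) + 1, fun r => ⟨Nat.succ_pos _, ?_⟩, ?_, ?_⟩
  · have : (r.val + 1) * (k.factorial * a) ≤ k * (k.factorial * a) :=
      Nat.mul_le_mul_right _ r.2
    rw [mul_assoc] at h1
    simp only
    omega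
  · have key : ∀ r r' : Fin k, r < r' → Nat.Coprime ((r + 1) * (k.factorial * a) + 1)
        ((r' + 1) * (k.factorial * a) + 1) := by
      intro r r' hr
      apply Nat.coprime_mul_succ
      apply Dvd.dvd.mul_right
      have := r'.2
      have : r.val < r'.val := hr
      exact Nat.dvd_factorial (by omega) (by omega)
    intro r r' hr
    rcases lt_or_gt_of_ne hr with h | h
    · exact key r r' h
    · exact (key r' r h).symm
  · have h3 : (a + 1) ^ k ≤ ∏ r : Fin k, ((r + 1) * (k.factorial * a) + 1) := by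
      have := Finset.pow_card_le_prod (Finset.univ : Finset (Fin k))
        (fun r => (r + 1) * (k.factorial * a) + 1) (a + 1) (fun r _ => by
          have h4 : a ≤ k.factorial * a := Nat.le_mul_of_pos_left _ k.factorial_pos
          have h5 : k.factorial * a ≤ (r.val + 1) * (k.factorial * a) :=
            Nat.le_mul_of_pos_left _ (by omega)
          omega)
      simpa using this
    calc N ^ k ≤ (k * k.factorial * (a + 1)) ^ k := Nat.pow_le_pow_left (by omega) _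
      _ = (k * k.factorial) ^ k * (a + 1) ^ k := mul_pow _ _ _
      _ ≤ _ := Nat.mul_le_mul_left _ h3

theorem large_k (M : TM) (e : ℕ) (he : 23 ≤ e) (hM : Decides M (e + 3)) :
    ∀ᶠ n : ℕ in atTop, n ^ (e + 3) ≤ worstTime M n ^ 13 := by
  have := M.finState
  have := M.finSymbol
  obtain ⟨j, hj, hj1, hj2⟩ : ∃ j, 12 ≤ j ∧ 2 * j + 1 ≤ e + 3 ∧ 6 * (e + 3) ≤ j * 13 :=
    ⟨(e + 2) / 2, by omega, by omega, by omega⟩
  obtain ⟨B1, h1⟩ := exists_emb (VSm j M.extra e)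
  obtain ⟨B2, h2⟩ := exists_emb (PSm j M.extra e)
  obtain ⟨B3, h3⟩ := exists_emb (GSm j M.extra e × Fin (e + 3))
  obtain ⟨B4, h4⟩ := exists_emb M.Symbol
  obtain ⟨B5, h5⟩ := exists_emb (AccT M)
  obtain ⟨B6, h6⟩ := exists_emb (ActT M × SignType)
  obtain ⟨C, hC, hp⟩ := exists_moduli (e + 3) (by omega)
  refine eventually_atTop.2 ⟨(B1 + B2 + B3 + B4 + B5 + B6 + 125 * C ^ (e + 3) + 32) ^ 5,
    fun n hn => ?_⟩
  have n1 : Nat.nthRoot 5 n ^ 5 ≤ n := Nat.pow_nthRoot_le (Or.inl (by omega))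
  have n2 : n < (Nat.nthRoot 5 n + 1) ^ 5 := Nat.lt_pow_nthRoot_add_one (by omega) n
  have n3 := lt_of_pow_lt_pow_left₀ 5 (Nat.zero_le _) (lt_of_le_of_lt hn n2)
  obtain ⟨N', hN'⟩ : ∃ N', Nat.nthRoot 5 n = N' + 2 := ⟨Nat.nthRoot 5 n - 2, by omega⟩
  rw [hN'] at n1 n2 n3
  obtain ⟨p, p1, p2, p3⟩ := hp (N' + 2) (by omega)
  obtain ⟨c1⟩ := h1 (N' + 2) (by omega)
  obtain ⟨c2⟩ := h2 (N' + 2) (by omega)
  obtain ⟨c3⟩ := h3 (N' + 2) (by omega)
  obtain ⟨c4⟩ := h4 (N' + 2) (by omega)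
  obtain ⟨c5⟩ := h5 (N' + 2) (by omega)
  obtain ⟨c6⟩ := h6 (N' + 2) (by omega)
  have n6 : n ≤ (N' + 2) ^ 6 := by
    calc n ≤ (2 * (N' + 2)) ^ 5 := n2.le.trans (Nat.pow_le_pow_left (by omega) _)
      _ = 32 * (N' + 2) ^ 5 := by ring
      _ ≤ (N' + 2) * (N' + 2) ^ 5 := Nat.mul_le_mul_right _ (by omega)
      _ = _ := by ring
  obtain ⟨T, hT⟩ : ∃ T, T = (N' + 2) ^ j := ⟨_, rfl⟩
  have hn0 : 0 < n := lt_of_lt_of_le (by positivity) n1
  have hnn : 0 < n * n := Nat.mul_pos hn0 hn0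
  have hT2 : n * n ≤ T := by
    calc n * n ≤ (N' + 2) ^ 6 * (N' + 2) ^ 6 := Nat.mul_le_mul n6 n6
      _ = (N' + 2) ^ 12 := by ring
      _ ≤ T := hT ▸ Nat.pow_le_pow_right (by omega) hj
  have hdm := Nat.div_add_mod' T (n * n)
  have hml := Nat.mod_lt T hnn
  have hdl := Nat.div_le_self T (n * n)
  obtain ⟨q, hq⟩ : ∃ q, q = T / (n * n) := ⟨_, rfl⟩
  rw [← hq] at hdm hdl
  let X : Ctx M j e := ⟨N', n, q + 1, 2 * (q + 1), p, p1,
    2 * (2 * ((((2 * (q + 1) + 1) * (n * n) : ℕ) : ℤ) + 1)) + 1, c1, c2, c3, c4, c5, c6⟩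
  have hR : X.R = q * (n * n) + n * n := by simp only [Ctx.R, X]; ring
  have hZ : X.Z = 2 * (q * (n * n)) + 3 * (n * n) := by simp only [Ctx.Z, X]; ring
  have hG : X.Good := by
    refine ⟨n1, n6.trans (Nat.pow_le_pow_right (by omega) (by omega)), ?_, by simp only [X]; omega⟩
    show 2 * (q + 1) < (N' + 2) ^ (j + 5)
    have : 2 ^ 5 ≤ (N' + 2) ^ 5 := Nat.pow_le_pow_left (by omega) _
    rw [pow_add, ← hT]
    have := Nat.mul_le_mul_left T this
    omega
  have hbig : (2 * (T + 1) + 1) * (2 * (2 * (X.Z + 1)) + 1) < ∏ r, p r := by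
    have a1 : (2 * (T + 1) + 1) * (2 * (2 * (X.Z + 1)) + 1) ≤ (5 * T) * (25 * T) :=
      Nat.mul_le_mul (by omega) (by omega)
    have a2 : T * T * (N' + 2) ≤ (N' + 2) ^ (e + 3) := by
      rw [hT, ← pow_add, ← pow_succ]
      exact Nat.pow_le_pow_right (by omega) (by omega)
    have a3 : T * T * (125 * C ^ (e + 3)) < T * T * (N' + 2) :=
      Nat.mul_lt_mul_of_pos_left (by omega) (Nat.mul_pos (by omega) (by omega))
    have a4 : C ^ (e + 3) * (5 * T * (25 * T)) < C ^ (e + 3) * ∏ r, p r := by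
      calc C ^ (e + 3) * (5 * T * (25 * T)) = T * T * (125 * C ^ (e + 3)) := by ring
        _ < _ := lt_of_lt_of_le a3 (a2.trans p3)
    exact lt_of_le_of_lt a1 (Nat.lt_of_mul_lt_mul_left a4)
  have := hG.core hM (T := T) (by omega) (by omega) p2 rfl (by
    show (2 * ((T : ℤ) + 1) + 1) * (2 * (2 * ((X.Z : ℤ) + 1)) + 1) < ∏ r, (p r : ℤ)
    exact_mod_cast hbig)
  calc n ^ (e + 3) ≤ ((N' + 2) ^ 6) ^ (e + 3) := Nat.pow_le_pow_left n6 _
    _ ≤ T ^ 13 := by
      rw [hT, ← pow_mul, ← pow_mul]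
      exact Nat.pow_le_pow_right (by omega) hj2
    _ ≤ _ := Nat.pow_le_pow_left this.le _

theorem TM.local {w w' : List Bool} {L : ℕ} (h : ∀ i < L, w[i]? = w'[i]?) (t : ℕ) (ht : t < L) :
    (M.run w t).state = (M.run w' t).state ∧ (∀ i, (M.run w t).head i = (M.run w' t).head i) ∧
    (∀ i, (M.run w t).head i ≤ t) ∧
    ∀ i (z : ℤ), z < L → (M.run w t).tape i z = (M.run w' t).tape i z := by
  induction t with
  | zero =>
    refine ⟨rfl, fun _ => rfl, fun _ => le_rfl, fun i z hz => ?_⟩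
    simp only [TM.run, Function.iterate_zero, id, TM.init]
    split_ifs with hh
    · rw [h _ (by omega)]
    · rfl
  | succ t ih =>
    obtain ⟨h1, h2, h3, h4⟩ := ih (by omega)
    have e : M.dl w' t = M.dl w t := by
      unfold TM.dl TM.scan
      rw [h1]
      congr 1
      funext i
      rw [← h2, h4 i _ (by have := h3 i; omega)]
    cases hd : M.dl w t with
    | inl b =>
      rw [TM.run_inl hd, TM.run_inl (e.trans hd)]
      exact ⟨h1, h2, fun i => by have := h3 i; push_cast; omega, h4⟩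
    | inr act =>
      obtain ⟨a1, a2, a3⟩ := TM.run_inr hd
      obtain ⟨b1, b2, b3⟩ := TM.run_inr (e.trans hd)
      refine ⟨a1.trans b1.symm, fun i => by rw [a3, b3, h2], fun i => ?_, fun i z hz => ?_⟩
      · have := h3 i
        have := Ctx.sign_cast_abs (act.2 i).2
        rw [a3]; push_cast; omega
      · rw [a2, b2, h2]
        by_cases hh : z = (M.run w' t).head i
        · rw [hh, Function.update_self, Function.update_self]
        · rw [Function.update_of_ne hh, Function.update_of_ne hh, h4 i z hz]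

theorem TM.local_dl {w w' : List Bool} {L : ℕ} (h : ∀ i < L, w[i]? = w'[i]?) (t : ℕ) (ht : t < L) :
    M.dl w' t = M.dl w t := by
  obtain ⟨h1, h2, h3, h4⟩ := TM.local (M := M) h t ht
  unfold TM.dl TM.scan
  rw [h1]
  congr 1
  funext i
  rw [← h2, h4 i _ (by have := h3 i; omega)]

theorem not_equiv_bot_top {k n : ℕ} (hk : 2 ≤ k) (hn : 2 ≤ n) :
    ¬ WLEquiv k (⊥ : SimpleGraph (Fin n)) (⊤ : SimpleGraph (Fin n)) := by
  intro h
  let x : Fin k → Fin n := fun i => if i.val = 0 then ⟨0, by omega⟩ else ⟨1, by omega⟩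
  have h1 : wlColor k (⊤ : SimpleGraph (Fin n)) 0 x ∈
      (Finset.univ : Finset (Fin k → Fin n)).val.map (wlColor k ⊤ 0) :=
    Multiset.mem_map_of_mem _ (Finset.mem_univ_val x)
  rw [← h 0] at h1
  obtain ⟨y, -, hy⟩ := Multiset.mem_map.1 h1
  have h2 := congrArg Prod.snd (congrFun (congrFun hy ⟨0, by omega⟩) ⟨1, by omega⟩)
  simp [wlColor, x] at h2

theorem small_k (M : TM) {k : ℕ} (hk : 2 ≤ k) (hM : Decides M k) {n : ℕ} (hn : 2 ≤ n) :
    n * n ≤ worstTime M n := by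
  refine le_trans ?_ (time_le_worst (⊥ : SimpleGraph (Fin n)) ⊥)
  by_contra hc
  push Not at hc
  obtain ⟨b, hb, hi⟩ := hM.at_time (⊥ : SimpleGraph (Fin n)) ⊥
  obtain ⟨b', hb', hi'⟩ := hM.at_time (⊥ : SimpleGraph (Fin n)) ⊤
  have e := TM.local_dl (M := M) 
    (w := adjWord (⊥ : SimpleGraph (Fin n)) ++ adjWord (⊥ : SimpleGraph (Fin n)))
    (w' := adjWord (⊥ : SimpleGraph (Fin n)) ++ adjWord (⊤ : SimpleGraph (Fin n))) (L := n * n)
    (fun i hi => by
      rw [List.getElem?_append_left (by rw [Ctx.adjWord_length]; exact hi),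
        List.getElem?_append_left (by rw [Ctx.adjWord_length]; exact hi)]) _ hc
  have := TM.dl_unique (e.trans hb) hb'
  exact not_equiv_bot_top hk hn (hi'.1 (this ▸ hi.2 fun _ => rfl))

theorem all_k_nat (M : TM) {k : ℕ} (hk : 2 ≤ k) (hM : Decides M k) :
    ∀ᶠ n : ℕ in atTop, n ^ k ≤ worstTime M n ^ 13 := by
  by_cases h : 26 ≤ k
  · obtain ⟨e, rfl⟩ : ∃ e, k = e + 3 := ⟨k - 3, by omega⟩
    exact large_k M e (by omega) hM
  · filter_upwards [eventually_ge_atTop 2] with n hn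
    calc n ^ k ≤ n ^ 26 := Nat.pow_le_pow_right (by omega) (by omega)
      _ = (n * n) ^ 13 := by ring
      _ ≤ _ := Nat.pow_le_pow_left (small_k M hk hM hn) _

theorem all_k (M : TM) {k : ℕ} (hk : 2 ≤ k) (hM : Decides M k) :
    ∀ᶠ n : ℕ in atTop, (n : ℝ) ^ ((k : ℝ) / 13) ≤ worstTime M n := by
  filter_upwards [all_k_nat M hk hM] with n hn
  have h1 : ((n : ℝ) ^ ((k : ℝ) / 13)) ^ (13 : ℕ) = (n : ℝ) ^ k := by
    rw [← Real.rpow_natCast, ← Real.rpow_mul (by positivity), ← Real.rpow_natCast]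
    congr 1
    push_cast
    ring
  refine le_of_pow_le_pow_left₀ (n := 13) (by omega) (by positivity) ?_
  rw [h1]
  exact_mod_cast hn

theorem no_little_o : ¬ ∃ g : ℕ → ℝ, (g =o[atTop] fun k : ℕ => (k : ℝ)) ∧
    ∀ k ≥ 2, ∃ M : TM, Decides M k ∧
      (fun n : ℕ => (worstTime M n : ℝ)) =O[atTop] fun n : ℕ => (n : ℝ) ^ g k := by
  rintro ⟨g, hg, h⟩
  obtain ⟨k, hk1, hk⟩ := ((hg.bound (show (0 : ℝ) < 1 / 26 by norm_num)).and
    (eventually_ge_atTop 2)).exists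
  obtain ⟨M, hM, hO⟩ := h k hk
  obtain ⟨C, hC⟩ := hO.bound
  have hk0 : (0 : ℝ) < (k : ℝ) / 26 := by
    have : (0 : ℝ) < k := by exact_mod_cast (by omega : 0 < k)
    positivity
  have ht : Tendsto (fun n : ℕ => (n : ℝ) ^ ((k : ℝ) / 26)) atTop atTop :=
    (tendsto_rpow_atTop hk0).comp tendsto_natCast_atTop_atTop
  obtain ⟨n, ⟨⟨h1, h2⟩, h3⟩, h4⟩ := (((hC.and (all_k M hk hM)).and
    (ht.eventually_gt_atTop (max C 0))).and (eventually_ge_atTop 1)).exists
  have hn : (1 : ℝ) ≤ n := by exact_mod_cast h4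
  simp only [Real.norm_eq_abs, Nat.abs_cast] at h1 hk1
  rw [abs_of_nonneg (by positivity)] at h1
  have h5 : (n : ℝ) ^ g k ≤ (n : ℝ) ^ ((k : ℝ) / 26) :=
    Real.rpow_le_rpow_of_exponent_le hn (by have := le_abs_self (g k); linarith)
  have h6 : (n : ℝ) ^ ((k : ℝ) / 13) = (n : ℝ) ^ ((k : ℝ) / 26) * (n : ℝ) ^ ((k : ℝ) / 26) := by
    rw [← Real.rpow_add (by linarith)]
    congr 1
    ring
  have h7 : (0 : ℝ) < (n : ℝ) ^ g k := by positivity
  have h8 := le_max_left C 0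
  have h9 := le_max_right C 0
  nlinarith

end Vale.Agent.P310
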