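import Vale.Agent.P310.Conc

namespace Vale.Agent.P310

open Classical

theorem pow_dvd_succ_iff (N : ℕ) (hN : 0 < N) (s a : ℕ) :
    N ^ s ∣ a + 1 ↔ ∀ s' < s, a / N ^ s' % N = N - 1 := by
  induction s generalizing a with
  | zero => simp
  | succ s ih =>
    have key : N ∣ a + 1 ↔ a % N = N - 1 := by
      rw [Nat.dvd_iff_mod_eq_zero, Nat.add_mod]
      have h1 := Nat.mod_lt a hN
      rcases Nat.lt_or_ge 1 N with h | h
      · rw [Nat.mod_eq_of_lt h]
        rcases Nat.lt_or_ge (a % N + 1) N with h2 | h2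
        · rw [Nat.mod_eq_of_lt h2]; omega
        · have : a % N + 1 = N := by omega
          rw [this, Nat.mod_self]; omega
      · have : N = 1 := by omega
        subst this; omega
    constructor
    · intro h s' hs'
      have h0 : N ∣ a + 1 := (Dvd.intro _ (pow_succ' N s).symm).trans h
      have h1 : (a + 1) / N = a / N + 1 := by rw [Nat.succ_div, if_pos h0]
      have h2 : N ^ s ∣ a / N + 1 := by
        rw [← h1]
        rw [pow_succ'] at h
        exact Nat.dvd_div_of_mul_dvd h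
      cases s' with
      | zero => simpa using key.1 h0
      | succ s' =>
        have := (ih _).1 h2 s' (by omega)
        rwa [Nat.div_div_eq_div_mul, ← pow_succ'] at this
    · intro h
      have h0 : N ∣ a + 1 := key.2 (by simpa using h 0 (by omega))
      have h1 : (a + 1) / N = a / N + 1 := by rw [Nat.succ_div, if_pos h0]
      have h2 : N ^ s ∣ a / N + 1 := (ih _).2 fun s' hs' => by
        rw [Nat.div_div_eq_div_mul, ← pow_succ']
        exact h _ (by omega)
      rw [← h1] at h2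
      rw [pow_succ']
      exact Nat.mul_dvd_of_dvd_div h0 h2

theorem digits_inj (N : ℕ) (S a b : ℕ) (ha : a < N ^ S) (hb : b < N ^ S)
    (h : ∀ s < S, a / N ^ s % N = b / N ^ s % N) : a = b := by
  induction S generalizing a b with
  | zero => simp at ha hb; omega
  | succ S ih =>
    have h0 := h 0 (by omega)
    simp only [pow_zero, Nat.div_one] at h0
    have h1 : a / N = b / N := by
      apply ih
      · rw [pow_succ'] at ha; exact Nat.div_lt_of_lt_mul ha
      · rw [pow_succ'] at hb; exact Nat.div_lt_of_lt_mul hb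
      · intro s hs
        rw [Nat.div_div_eq_div_mul, Nat.div_div_eq_div_mul, ← pow_succ']
        exact h _ (by omega)
    rw [← Nat.div_add_mod a N, ← Nat.div_add_mod b N, h0, h1]

variable {M : TM} {sd e : ℕ}

namespace Ctx

variable (X : Ctx M sd e)

/-- size conditions on the parameters -/
structure Good : Prop where
  hn5 : (X.N' + 2) ^ 5 ≤ X.n
  hn : X.n ≤ (X.N' + 2) ^ (sd + 5)
  hq : X.qm < (X.N' + 2) ^ (sd + 5)
  hρ : X.ρq + 1 ≤ X.qm

theorem Good.pos {X : Ctx M sd e} (h : X.Good) : 0 < X.n := lt_of_lt_of_le (by positivity) h.hn5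

def T (z : ℕ) (x : Shape sd) : Prop := (X.ev z x).2 = 1

theorem ev_app (z : ℕ) (t : Tag sd) (l r : Shape sd) :
    X.ev z (.app t l r) = X.fn t (X.ev z l) (X.ev z r) := rfl

theorem ev_app' (z : ℕ) {t : Tag sd} (ht : t ≠ .lookup) (l r : Shape sd) :
    X.ev z (.app t l r) = X.g t (X.ev z l).2 (X.ev z r) := by
  rw [ev_app, fn, if_neg ht]

@[simp] theorem ev_reg (z : ℕ) (ρ : Reg sd) : X.ev z (.reg ρ) = X.io (X.dig (X.cnt z ρ.1) ρ.2) := rfl
@[simp] theorem ev_rg (z : ℕ) (c s) : X.ev z (rg c s) = X.io (X.dig (X.cnt z c) s) := rfl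
@[simp] theorem ev_dgt (z : ℕ) (c κ) : X.ev z (dgt c κ) = X.io (X.dig (X.cnt z c) κ) := rfl
@[simp] theorem io_snd (w : X.W) : (X.io w).2 = w := rfl
@[simp] theorem io_fst (w : X.W) : (X.io w).1 = .goal := rfl

@[simp] theorem bv_snd (P : Prop) : (X.bv P).2 = 1 ↔ P := by
  by_cases h : P <;> simp [bv, h]

variable (z : ℕ)

@[simp] theorem T_tt : X.T z ttE := by
  rw [T, ttE, un, ev_app' _ _ (by simp)]; simp [g]

theorem ev_ff : (X.ev z ffE).2 = 0 := by
  have := X.T_tt z
  rw [T] at this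
  rw [ffE, un, ev_app' _ _ (by simp)]; simp [g, this, bv]

@[simp] theorem T_ff : ¬ X.T z ffE := by rw [T, ev_ff]; simp

@[simp] theorem T_not (x : Shape sd) : X.T z (un .not x) ↔ ¬ X.T z x := by
  rw [T, un, ev_app' _ _ (by simp)]; simp [g, T]

@[simp] theorem T_and (x y : Shape sd) : X.T z (andE x y) ↔ X.T z x ∧ X.T z y := by
  rw [T, andE, ev_app' _ _ (by simp)]; simp [g, T]

@[simp] theorem T_or (x y : Shape sd) : X.T z (orE x y) ↔ X.T z x ∨ X.T z y := by
  rw [T, orE, ev_app' _ _ (by simp)]; simp [g, T]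

@[simp] theorem T_all {α : Type} (l : List α) (f : α → Shape sd) :
    X.T z (allE l f) ↔ ∀ a ∈ l, X.T z (f a) := by
  induction l with
  | nil => simp [allE]
  | cons a l ih => rw [allE, List.foldr_cons, ← allE, T_and, ih]; simp

@[simp] theorem T_any {α : Type} (l : List α) (f : α → Shape sd) :
    X.T z (anyE l f) ↔ ∃ a ∈ l, X.T z (f a) := by
  induction l with
  | nil => simp [anyE]
  | cons a l ih => rw [anyE, List.foldr_cons, ← anyE, T_or, ih]; simp

@[simp] theorem T_eq (x y : Shape sd) :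
    X.T z (.app .eq x y) ↔ (X.ev z x).2 = (X.ev z y).2 := by
  rw [T, ev_app' _ _ (by simp)]; simp [g]

@[simp] theorem T_isMax (x : Shape sd) :
    X.T z (un .isMax x) ↔ (X.ev z x).2.val = X.N' + 1 := by
  rw [T, un, ev_app' _ _ (by simp)]; simp [g]

@[simp] theorem T_isZero (x : Shape sd) :
    X.T z (un .isZero x) ↔ (X.ev z x).2 = 0 := by
  rw [T, un, ev_app' _ _ (by simp)]; simp [g]

@[simp] theorem T_const (c s) (x : Shape sd) :
    X.T z (un (.const c s) x) ↔ (X.ev z x).2 = X.dig (X.cval c) s := by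
  rw [T, un, ev_app' _ _ (by simp)]; simp [g]

theorem dig_inj {S a b : ℕ} (ha : a < (X.N' + 2) ^ S) (hb : b < (X.N' + 2) ^ S)
    (h : ∀ s < S, X.dig a s = X.dig b s) : a = b :=
  digits_inj _ S a b ha hb fun s hs => congrArg Fin.val (h s hs)

@[simp] theorem dig_zero (s : ℕ) : X.dig 0 s = 0 := by simp [dig]

theorem dig_succ (a s : ℕ) : X.dig (a + 1) s =
    if ∀ s' < s, (X.dig a s').val = X.N' + 1 then X.dig a s + 1 else X.dig a s := by
  have := pow_dvd_succ_iff (X.N' + 2) (by omega) s a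
  apply Fin.ext
  split_ifs with h
  · have h1 : (X.N' + 2) ^ s ∣ a + 1 := this.2 h
    simp [dig, Nat.succ_div, h1, Fin.val_add]
  · have h1 : ¬ (X.N' + 2) ^ s ∣ a + 1 := fun hh => h (this.1 hh)
    simp [dig, Nat.succ_div, h1]

variable {X} {z}

theorem Good.cnt_lt (h : X.Good) (hz : z < X.Z) (c : Fin 3) :
    X.cnt z c < (X.N' + 2) ^ (sd + 5) := by
  have h0 := h.pos
  fin_cases c
  · exact lt_of_lt_of_le (Nat.mod_lt _ h0) h.hn
  · exact lt_of_lt_of_le (Nat.mod_lt _ h0) h.hn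
  · have : z / (X.n * X.n) < X.qm + 1 := Nat.div_lt_of_lt_mul (by rw [mul_comm]; exact hz)
    have := h.hq
    show z / (X.n * X.n) < _
    omega

theorem Good.cval_lt (h : X.Good) (c : Fin 4) : X.cval c < (X.N' + 2) ^ (sd + 5) := by
  have h0 := h.pos
  have h1 := h.hn
  have h2 := h.hq
  have h3 := h.hρ
  fin_cases c <;> simp [cval] <;> omega

theorem Good.T_isC (h : X.Good) (hz : z < X.Z) (c ci) :
    X.T z (isC c ci) ↔ X.cnt z c = X.cval ci := by
  simp only [isC, T_all, List.mem_finRange, T_const, ev_rg, io_snd, forall_const]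
  constructor
  · intro hh
    exact X.dig_inj (h.cnt_lt hz c) (h.cval_lt ci) fun s hs => hh ⟨s, hs⟩
  · intro hh s
    rw [hh]

theorem T_carry (c : Fin 3) (s : Fin (sd + 5)) :
    X.T z (carryE c s) ↔ ∀ s' < s.val, (X.dig (X.cnt z c) s').val = X.N' + 1 := by
  simp only [carryE, T_all, List.mem_filter, List.mem_finRange, true_and, decide_eq_true_eq,
    T_isMax, ev_rg, io_snd]
  constructor
  · intro hh s' hs'
    exact hh ⟨s', by omega⟩ hs'
  · intro hh s' hs'
    exact hh s' hs'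

theorem cnt_succ (h0 : 0 < X.n) (z : ℕ) :
    X.cnt (z + 1) 0 = (if X.cnt z 0 = X.n - 1 then 0 else X.cnt z 0 + 1) ∧
    X.cnt (z + 1) 1 = (if X.cnt z 0 = X.n - 1 then
      (if X.cnt z 1 = X.n - 1 then 0 else X.cnt z 1 + 1) else X.cnt z 1) ∧
    X.cnt (z + 1) 2 = (if X.cnt z 0 = X.n - 1 ∧ X.cnt z 1 = X.n - 1 then X.cnt z 2 + 1
      else X.cnt z 2) := by
  have key : ∀ a, X.n ∣ a + 1 ↔ a % X.n = X.n - 1 := fun a => by
    simpa using pow_dvd_succ_iff X.n h0 1 a
  have key2 : ∀ a, (a + 1) % X.n = if a % X.n = X.n - 1 then 0 else a % X.n + 1 := fun a => by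
    split_ifs with h
    · exact Nat.mod_eq_zero_of_dvd ((key a).2 h)
    · have := Nat.mod_lt a h0
      rw [← Nat.mod_add_mod, Nat.mod_eq_of_lt (by omega)]
  have key3 : X.n * X.n ∣ z + 1 ↔ z % X.n = X.n - 1 ∧ z / X.n % X.n = X.n - 1 := by
    have := pow_dvd_succ_iff X.n h0 2 z
    rw [pow_two] at this
    rw [this]
    constructor
    · intro h
      exact ⟨by simpa using h 0 (by omega), by simpa using h 1 (by omega)⟩
    · rintro ⟨h1, h2⟩ s hs
      interval_cases s
      · simpa using h1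
      · simpa using h2
  refine ⟨key2 z, ?_, ?_⟩
  · show (z + 1) / X.n % X.n = if z % X.n = X.n - 1 then
      (if z / X.n % X.n = X.n - 1 then 0 else z / X.n % X.n + 1) else z / X.n % X.n
    rw [Nat.succ_div]
    by_cases h : z % X.n = X.n - 1
    · rw [if_pos ((key z).2 h), if_pos h, key2]
    · rw [if_neg (fun hh => h ((key z).1 hh)), if_neg h, add_zero]
  · show (z + 1) / (X.n * X.n) = if z % X.n = X.n - 1 ∧ z / X.n % X.n = X.n - 1 then
      z / (X.n * X.n) + 1 else z / (X.n * X.n)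
    rw [Nat.succ_div]
    by_cases h : z % X.n = X.n - 1 ∧ z / X.n % X.n = X.n - 1
    · rw [if_pos (key3.2 h), if_pos h]
    · rw [if_neg (fun hh => h (key3.1 hh)), if_neg h, add_zero]

theorem ev_next_aux (ρ : Reg sd) : (X.ev z (nextE ρ)).2 =
    if X.T z (wrapE ρ.1) then 0 else if X.T z (enE ρ.1) then X.dig (X.cnt z ρ.1 + 1) ρ.2
    else X.dig (X.cnt z ρ.1) ρ.2 := by
  rw [nextE, ev_app' _ _ (by simp), ev_app' _ _ (by simp)]
  simp only [g, io_snd, ev_reg]
  have e1 : ∀ x, ((X.ev z x).2 = 1) = X.T z x := fun _ => rfl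
  simp only [e1, T_and, T_carry, dig_succ]
  by_cases h1 : X.T z (enE ρ.1) <;> simp [h1]

theorem Good.ev_next (h : X.Good) (hz : z < X.Z) (ρ : Reg sd) :
    X.io (X.ev z (nextE ρ)).2 = X.st (z + 1) ρ := by
  obtain ⟨h1, h2, h3⟩ := cnt_succ h.pos z
  obtain ⟨c, s⟩ := ρ
  rw [ev_next_aux, st]
  congr 1
  have c0 : X.cval 0 = X.n - 1 := rfl
  fin_cases c
  · simp only [wrapE, enE, Fin.zero_eta, Matrix.cons_val_zero, h.T_isC hz, T_tt, if_true, h1, c0]
    split_ifs <;> simp
  · simp only [wrapE, enE, Fin.mk_one, Matrix.cons_val_one, Matrix.cons_val_zero, h.T_isC hz, T_and,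
      h2, c0]
    split_ifs <;> simp_all
  · simp only [wrapE, enE, Fin.reduceFinMk, Matrix.cons_val, h.T_isC hz, T_and, h3, c0, T_ff, if_false]
    split_ifs <;> simp_all

theorem Good.T_go (h : X.Good) (hz : z < X.Z) : X.T z goE ↔ z + 1 < X.Z := by
  obtain ⟨-, -, h3⟩ := cnt_succ h.pos z
  have c0 : X.cval 0 = X.n - 1 := rfl
  have c3 : X.cval 3 = X.qm := rfl
  have h0 : 0 < X.n * X.n := Nat.mul_pos h.pos h.pos
  simp only [goE, T_not, T_and, h.T_isC hz, c0, c3]
  have e1 : z + 1 < X.Z ↔ X.cnt (z + 1) 2 < X.qm + 1 := by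
    show _ ↔ (z + 1) / (X.n * X.n) < _
    rw [Nat.div_lt_iff_lt_mul h0, Z]
  have e2 : X.cnt z 2 < X.qm + 1 := by
    show z / (X.n * X.n) < _
    rw [Nat.div_lt_iff_lt_mul h0]; exact hz
  rw [e1, h3]
  split_ifs with hh
  · simp only [hh, and_true]; omega
  · simp only [hh, and_false, not_false_eq_true, true_iff]; exact e2

theorem st_zero (ρ : Reg sd) : X.st 0 ρ = X.io 0 := by
  obtain ⟨c, s⟩ := ρ
  fin_cases c <;> simp [st, cnt]

end Ctx

end Vale.Agent.P310
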