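import Vale.Agent.P310.Sys

/-! Spoiler, part A: the marker structure is fixed by every bisimulation. -/

namespace Vale.Agent.P310

open Function

section General

variable {V W : Type} [Fintype V] [Fintype W] {k : ℕ} {G : SimpleGraph V} {H : SimpleGraph W}
  {R : (Fin k → V) → (Fin k → W) → Prop}

theorem IsBisim.symm (h : IsBisim G H R) : IsBisim H G (fun x' x => R x x') where
  eq_iff x' x hR i j := (h.eq_iff x x' hR i j).symm
  adj_iff x' x hR i j := (h.adj_iff x x' hR i j).symm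
  step x' x hR := by
    obtain ⟨f, hf⟩ := h.step x x' hR
    exact ⟨f.symm, fun y i => by simpa using hf (f.symm y) i⟩

/-- vertices that occur in related positions -/
def VR (R : (Fin k → V) → (Fin k → W) → Prop) (v : V) (v' : W) : Prop :=
  ∃ x x' i, R x x' ∧ x i = v ∧ x' i = v'

omit [Fintype V] [Fintype W] in
theorem VR.symm {v : V} {v' : W} (h : VR R v v') : VR (fun x' x => R x x') v' v := by
  obtain ⟨x, x', i, h1, h2, h3⟩ := h
  exact ⟨x', x, i, h1, h3, h2⟩

theorem IsBisim.step' (h : IsBisim G H R) (hk : ∀ i : Fin k, ∃ j, j ≠ i) {x : Fin k → V}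
    {x' : Fin k → W} (hR : R x x') (i : Fin k) : ∃ f : V ≃ W, ∀ y,
      R (update x i y) (update x' i (f y)) ∧ (G.Adj (x i) y ↔ H.Adj (x' i) (f y)) := by
  obtain ⟨f, hf⟩ := h.step x x' hR
  obtain ⟨j, hj⟩ := hk i
  refine ⟨f, fun y => ⟨hf y i, ?_⟩⟩
  simpa [update_of_ne hj.symm] using h.adj_iff _ _ (hf y j) i j

theorem VR.step (h : IsBisim G H R) (hk : ∀ i : Fin k, ∃ j, j ≠ i) {v : V} {v' : W}
    (hv : VR R v v') : ∃ f : V ≃ W, ∀ y, VR R y (f y) ∧ (G.Adj v y ↔ H.Adj v' (f y)) := by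
  obtain ⟨x, x', i, h1, rfl, rfl⟩ := hv
  obtain ⟨f, hf⟩ := h.step' hk h1 i
  exact ⟨f, fun y => ⟨⟨_, _, i, (hf y).1, by simp, by simp⟩, (hf y).2⟩⟩

/-- exactly one neighbour -/
def P1 (G : SimpleGraph V) (v : V) : Prop := ∃ y, G.Adj v y ∧ ∀ y', G.Adj v y' → y' = y

/-- two distinct pendant neighbours -/
def IsRoot (G : SimpleGraph V) (v : V) : Prop :=
  ∃ y y', y ≠ y' ∧ G.Adj v y ∧ G.Adj v y' ∧ P1 G y ∧ P1 G y'

theorem VR.p1 (h : IsBisim G H R) (hk : ∀ i : Fin k, ∃ j, j ≠ i) {v : V} {v' : W}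
    (hv : VR R v v') (hp : P1 G v) : P1 H v' := by
  obtain ⟨f, hf⟩ := hv.step h hk
  obtain ⟨y, h1, h2⟩ := hp
  refine ⟨f y, (hf y).2.mp h1, fun y' hy' => ?_⟩
  obtain ⟨z, rfl⟩ := f.surjective y'
  rw [h2 z ((hf z).2.mpr hy')]

theorem VR.root (h : IsBisim G H R) (hk : ∀ i : Fin k, ∃ j, j ≠ i) {v : V} {v' : W}
    (hv : VR R v v') (hp : IsRoot G v) : IsRoot H v' := by
  obtain ⟨f, hf⟩ := hv.step h hk
  obtain ⟨y, y', h1, h2, h3, h4, h5⟩ := hp
  exact ⟨f y, f y', f.injective.ne h1, (hf y).2.mp h2, (hf y').2.mp h3, (hf y).1.p1 h hk h4,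
    (hf y').1.p1 h hk h5⟩

end General

variable {k : ℕ} {S : Sys k} {code : Loc S → Fin 5 → Fin (S.M + 2)} {J : Type}

lemma link_gad_gad {l l' : Loc S} {val val' : Pt → ZMod 2} :
    link code (.gad l val) (.gad l' val') ↔
      ∃ π π' v, l.port π = some v ∧ l'.port π' = some v ∧ val π = val' π' := by
  constructor
  · rintro ⟨i | i, j, p, h1, h2⟩
    · simp only [Vx.outP, Vx.inP, Option.map_eq_some_iff] at h1 h2
      obtain ⟨v, h3, rfl⟩ := h1
      obtain ⟨v', h4, h5⟩ := h2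
      simp only [PortId.var.injEq] at h5
      obtain ⟨rfl, h6⟩ := h5
      exact ⟨i, j, v', h3, h4, h6.symm⟩
    · simp only [Vx.outP, Vx.inP, Option.map_eq_some_iff, Option.some.injEq] at h1 h2
      obtain ⟨v', h4, h5⟩ := h2
      subst h1
      cases h5
  · rintro ⟨π, π', v, h1, h2, h3⟩
    exact ⟨.inl π, π', PortId.var v (val π), by simp [Vx.outP, h1], by simp [Vx.inP, h2, h3]⟩

lemma link_gad_mk {l : Loc S} {val : Pt → ZMod 2} {m : Fin (S.M + 2)} :
    link code (.gad l val) (.mk m) ↔ ∃ t, code l t = m := by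
  constructor
  · rintro ⟨i | i, j | _ | _, p, h1, h2⟩ <;>
      simp only [Vx.outP, Vx.inP, Option.map_eq_some_iff, Option.some.injEq, reduceCtorEq] at h1 h2
    · subst h2; obtain ⟨v, -, h⟩ := h1; cases h
    · subst h2; obtain ⟨v, -, h⟩ := h1; cases h
    · subst h2; exact ⟨i, by simpa using h1⟩
    · subst h2; cases h1
  · rintro ⟨t, rfl⟩
    exact ⟨.inr t, .inr false, _, rfl, rfl⟩

lemma link_gad_root {l : Loc S} {val : Pt → ZMod 2} : ¬ link code (.gad l val) .root := by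
  rintro ⟨i | i, j, p, h1, h2⟩ <;>
    simp only [Vx.outP, Vx.inP, Option.map_eq_some_iff, Option.some.injEq, Option.ite_none_right_eq_some] at h1 h2
  · obtain ⟨-, rfl⟩ := h2; obtain ⟨v, -, h⟩ := h1; cases h
  · obtain ⟨-, rfl⟩ := h2; cases h1

lemma link_pend_right {u : Vx S} {i : Fin 3} : ¬ link code u (.pend i) := by
  rintro ⟨_, j, p, -, h2⟩
  simp [Vx.inP] at h2

lemma link_root_left {u : Vx S} : ¬ link code .root u := by
  rintro ⟨_, j, p, h1, -⟩
  simp [Vx.outP] at h1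

lemma link_mk_gad {l : Loc S} {val : Pt → ZMod 2} {m : Fin (S.M + 2)} :
    ¬ link code (.mk m) (.gad l val) := by
  rintro ⟨i | i, j, p, h1, h2⟩
  · simp [Vx.outP] at h1
  · simp only [Vx.inP, Option.map_eq_some_iff] at h2
    obtain ⟨v, -, rfl⟩ := h2
    simp only [Vx.outP] at h1
    split_ifs at h1 <;> cases h1

lemma link_mk_mk {m m' : Fin (S.M + 2)} : link code (.mk m) (.mk m') ↔ m'.val = m.val + 1 := by
  constructor
  · rintro ⟨i | i, j | _ | _, p, h1, h2⟩ <;>
      simp only [Vx.outP, Vx.inP, Option.some.injEq, reduceCtorEq] at h1 h2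
    · subst h2; split_ifs at h1 <;> cases h1
    · subst h2; split_ifs at h1 <;> cases h1
      rfl
  · intro h
    refine ⟨.inr 1, .inr true, _, ?_, rfl⟩
    have h2 : m.val + 1 < S.M + 2 := h ▸ m'.2
    simp only [Vx.outP, h2, and_self, dite_true, one_ne_zero, if_false, Option.some.injEq,
      PortId.succ.injEq]
    exact Fin.ext h.symm

lemma link_mk_root {m : Fin (S.M + 2)} : link code (.mk m) .root :=
  ⟨.inr 0, .inr false, .root, by simp [Vx.outP], by simp [Vx.inP]⟩

lemma link_pend_gad {l : Loc S} {val : Pt → ZMod 2} {i : Fin 3} :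
    ¬ link code (.pend i) (.gad l val) := by
  rintro ⟨t | t, j, p, h1, h2⟩
  · simp [Vx.outP] at h1
  · simp only [Vx.inP, Option.map_eq_some_iff] at h2
    obtain ⟨v, -, rfl⟩ := h2
    simp only [Vx.outP] at h1
    split_ifs at h1 <;> cases h1

lemma link_pend_mk {m : Fin (S.M + 2)} {i : Fin 3} :
    link code (.pend i) (.mk m) ↔ i = 2 ∧ m = 0 := by
  constructor
  · rintro ⟨t | t, j | _ | _, p, h1, h2⟩ <;>
      simp only [Vx.outP, Vx.inP, Option.some.injEq, reduceCtorEq] at h1 h2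
    · subst h2; split_ifs at h1 with h3 h4 <;> cases h1
      exact ⟨h4, rfl⟩
    · subst h2; split_ifs at h1 <;> cases h1
  · rintro ⟨rfl, rfl⟩
    exact ⟨.inr 0, .inr false, .mark 0, by simp [Vx.outP], rfl⟩

lemma link_pend_root {i : Fin 3} : link code (.pend i) .root ↔ i ≠ 2 := by
  constructor
  · rintro ⟨t | t, j, p, h1, h2⟩
    · simp [Vx.outP] at h1
    · simp only [Vx.inP, Option.ite_none_right_eq_some, Option.some.injEq] at h2
      obtain ⟨-, rfl⟩ := h2
      simp only [Vx.outP] at h1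
      split_ifs at h1 with h3 h4
      · cases h1
      · exact h4
  · intro h
    exact ⟨.inr 0, .inr false, .root, by simp [Vx.outP, h], by simp [Vx.inP]⟩

variable {b b' : Bool}

lemma adj_inl {u v : Vx S} : (graph code J b).Adj (.inl u) (.inl v) ↔
    u ≠ v ∧ u.valid b ∧ v.valid b ∧ (link code u v ∨ link code v u) := Iff.rfl

lemma adj_inr_left {u : J} {v : Vx S ⊕ J} : ¬ (graph code J b).Adj (.inr u) v := by
  cases v <;> exact id

lemma adj_pend {i : Fin 3} {v : Vx S ⊕ J} : (graph code J b).Adj v (.inl (.pend i)) ↔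
    v = .inl (if i = 2 then .mk 0 else .root) := by
  rcases v with (⟨l, val⟩ | m | _ | j) | v
  · simp only [adj_inl, link_pend_right, link_pend_gad]; split_ifs <;> simp
  · simp only [adj_inl, link_pend_right, link_pend_mk, Vx.valid]; split_ifs <;> simp [*]
  · simp only [adj_inl, link_pend_right, link_pend_root, Vx.valid]; split_ifs <;> simp [*]
  · simp only [adj_inl, link_pend_right]; split_ifs <;> simp
  · simp only [adj_inr_left]; simp

lemma adj_root {v : Vx S ⊕ J} (h : (graph code J b).Adj v (.inl .root)) :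
    (∃ m, v = .inl (.mk m)) ∨ ∃ i, v = .inl (.pend i) := by
  rcases v with (⟨l, val⟩ | m | _ | j) | v
  · simp [adj_inl, link_gad_root, link_root_left] at h
  · exact Or.inl ⟨m, rfl⟩
  · exact absurd rfl h.ne
  · exact Or.inr ⟨j, rfl⟩
  · exact absurd h adj_inr_left

lemma adj_mk_root (m : Fin (S.M + 2)) : (graph code J b).Adj (.inl (.mk m)) (.inl .root) := by
  simp [adj_inl, Vx.valid, link_mk_root]

lemma adj_mk_mk {m m' : Fin (S.M + 2)} : (graph code J b).Adj (.inl (.mk m)) (.inl (.mk m')) ↔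
    m'.val = m.val + 1 ∨ m.val = m'.val + 1 := by
  simp only [adj_inl, Vx.valid, link_mk_mk, true_and, ne_eq, Vx.mk.injEq, Fin.ext_iff]
  omega

lemma adj_gad_mk {l : Loc S} {val : Pt → ZMod 2} {m : Fin (S.M + 2)} :
    (graph code J b).Adj (.inl (.gad l val)) (.inl (.mk m)) ↔
      (Vx.gad l val).valid b ∧ ∃ t, code l t = m := by
  simp only [adj_inl, link_gad_mk, link_mk_gad, or_false, ne_eq, reduceCtorEq, not_false_eq_true,
    true_and]
  exact ⟨fun h => ⟨h.1, h.2.2⟩, fun h => ⟨h.1, trivial, h.2⟩⟩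

lemma p1_iff (h : SpoHyp S code) {v : Vx S ⊕ J} :
    P1 (graph code J b) v ↔ ∃ i, v = .inl (.pend i) := by
  constructor
  · rintro ⟨y, h1, h2⟩
    rcases v with (⟨l, val⟩ | m | _ | j) | v
    · exfalso
      have hv : (Vx.gad l val).valid b := by
        rcases y with y | y
        · exact h1.2.1
        · exact absurd h1.symm adj_inr_left
      have e1 := h2 _ (adj_gad_mk.mpr ⟨hv, 0, rfl⟩)
      have e2 := h2 _ (adj_gad_mk.mpr ⟨hv, 1, rfl⟩)
      have := e1.trans e2.symm
      simp only [Sum.inl.injEq, Vx.mk.injEq] at this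
      exact absurd (h.hcode1 l 0 1 this) (by decide)
    · exfalso
      have e1 := h2 _ (adj_mk_root m)
      by_cases hm : m.val = 0
      · have e2 := h2 (.inl (.mk 1)) (adj_mk_mk.mpr (Or.inl (by simp [hm])))
        cases e1.trans e2.symm
      · have e2 := h2 (.inl (.mk ⟨m.val - 1, by omega⟩)) (adj_mk_mk.mpr (Or.inr (by simp; omega)))
        cases e1.trans e2.symm
    · exfalso
      have e1 := h2 (.inl (.pend 0)) (adj_pend.mpr (by simp))
      have e2 := h2 (.inl (.pend 1)) (adj_pend.mpr (by simp))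
      simpa using e1.trans e2.symm
    · exact ⟨j, rfl⟩
    · exact absurd h1 adj_inr_left
  · rintro ⟨i, rfl⟩
    exact ⟨_, (adj_pend.mpr rfl).symm, fun y' hy' => adj_pend.mp hy'.symm⟩

lemma root_iff (h : SpoHyp S code) {v : Vx S ⊕ J} :
    IsRoot (graph code J b) v ↔ v = .inl .root := by
  constructor
  · rintro ⟨y, y', h1, h2, h3, h4, h5⟩
    obtain ⟨i, rfl⟩ := (p1_iff h).mp h4
    obtain ⟨i', rfl⟩ := (p1_iff h).mp h5
    rw [adj_pend] at h2 h3
    by_cases hi : i = 2
    · have hi' : i' ≠ 2 := fun h => h1 (by rw [hi, h])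
      simpa [hi'] using h3
    · simpa [hi] using h2
  · rintro rfl
    exact ⟨.inl (.pend 0), .inl (.pend 1), by simp, adj_pend.mpr (by simp), adj_pend.mpr (by simp),
      (p1_iff h).mpr ⟨_, rfl⟩, (p1_iff h).mpr ⟨_, rfl⟩⟩

lemma SpoHyp.hk (h : SpoHyp S code) (i : Fin k) : ∃ j, j ≠ i := ⟨S.nxt i, h.hnxt i⟩

variable [Fintype (Vx S ⊕ J)]

lemma vr_root (h : SpoHyp S code) {R} (hb : IsBisim (k := k) (graph code J b) (graph code J b') R)
    {v'} (hv : VR R (.inl .root) v') : v' = .inl .root :=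
  (root_iff h).mp (hv.root hb h.hk ((root_iff h).mpr rfl))

lemma vr_pend (h : SpoHyp S code) {R} (hb : IsBisim (k := k) (graph code J b) (graph code J b') R)
    {i v'} (hv : VR R (.inl (.pend i)) v') : ∃ j, v' = .inl (.pend j) :=
  (p1_iff h).mp (hv.p1 hb h.hk ((p1_iff h).mpr ⟨i, rfl⟩))

lemma vr_mark (h : SpoHyp S code) {R} (hb : IsBisim (k := k) (graph code J b) (graph code J b') R)
    {m v'} (hv : VR R (.inl (.mk m)) v') : ∃ m', v' = .inl (.mk m') := by
  obtain ⟨f, hf⟩ := hv.step hb h.hk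
  have h1 := (hf _).2.mp (adj_mk_root m)
  rw [vr_root h hb (hf _).1] at h1
  rcases adj_root h1 with h2 | ⟨i, rfl⟩
  · exact h2
  · obtain ⟨j, hj⟩ := vr_pend h hb.symm hv.symm
    cases hj

lemma vr_mk (h : SpoHyp S code) (n : ℕ) : ∀ (b b' : Bool) R,
    IsBisim (k := k) (graph code J b) (graph code J b') R → ∀ (m : Fin (S.M + 2)) v', m.val = n →
      VR R (.inl (.mk m)) v' → v' = .inl (.mk m) := by
  induction n using Nat.strong_induction_on with
  | _ n ih =>
    intro b b' R hb m v' hm hv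
    obtain ⟨m', rfl⟩ := vr_mark h hb hv
    obtain ⟨f, hf⟩ := hv.step hb h.hk
    cases n with
    | zero =>
      have hm0 : m = 0 := Fin.ext hm
      subst hm0
      have h1 := (hf (.inl (.pend 2))).2.mp (adj_pend.mpr (by simp))
      obtain ⟨j, hj⟩ := vr_pend h hb (hf (.inl (.pend 2))).1
      rw [hj, adj_pend] at h1
      split_ifs at h1
      · exact h1
      · cases h1
    | succ n =>
      have hn : n < S.M + 2 := by omega
      have h1 := (hf (.inl (.mk ⟨n, hn⟩))).2.mp (adj_mk_mk.mpr (Or.inr hm))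
      rw [ih n (by omega) b b' R hb ⟨n, hn⟩ _ rfl (hf _).1, adj_mk_mk] at h1
      rcases h1 with h1 | h1
      · exact (ih m'.val (by simp only at h1; omega) b' b _ hb.symm m' _ rfl hv.symm).symm
      · congr 2
        exact Fin.ext (by rw [h1, hm])

lemma vr_gad (h : SpoHyp S code) {R} (hb : IsBisim (k := k) (graph code J b) (graph code J b') R)
    {l val v'} (hval : (Vx.gad l val).valid b) (hv : VR R (.inl (.gad l val)) v') :
    ∃ val', v' = .inl (.gad l val') ∧ (Vx.gad l val').valid b' := by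
  obtain ⟨f, hf⟩ := hv.step hb h.hk
  have h1 : ∀ t, (graph code J b').Adj v' (.inl (.mk (code l t))) := fun t => by
    have := (hf _).2.mp (adj_gad_mk.mpr ⟨hval, t, rfl⟩)
    rwa [vr_mk h _ b b' R hb _ _ rfl (hf _).1] at this
  rcases v' with (⟨l', val'⟩ | m | _ | j) | v
  · have := h.hcode l l' fun t => (adj_gad_mk.mp (h1 t)).2
    subst this
    exact ⟨val', rfl, (adj_gad_mk.mp (h1 0)).1⟩
  · obtain ⟨m', hm⟩ := vr_mark h hb.symm hv.symm
    cases hm
  · cases vr_root h hb.symm hv.symm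
  · obtain ⟨j, hj⟩ := vr_pend h hb.symm hv.symm
    cases hj
  · exact absurd (h1 0) adj_inr_left

end Vale.Agent.P310
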