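import Vale.Agent.P310.WL

namespace Vale.Agent.P310

/-- A translation-invariant Horn system on configurations `Fin k → A`. -/
structure Sys (k : ℕ) where
  A : Type
  Atom : Type
  Rule : Type
  L : ℕ
  M : ℕ
  nxt : Equiv.Perm (Fin k)
  r0 : Fin k
  bd : Rule → Fin 3 → Atom
  sg : Rule → Fin 3 → Fin k → Equiv.Perm A
  y0 : Atom
  j0 : Fin k → A
  ρ0 : Rule

variable {k : ℕ}

inductive Ty (S : Sys k) where
  | ctr (c : S.Atom)
  | leg (ρ : S.Rule) (s : Fin 5) (n : Fin S.L)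

inductive Gate (S : Sys k) where
  | rule (ρ : S.Rule)
  | pair (ρ : S.Rule) (s : Fin 5) (n : Fin S.L)
  | fact

def sl : Fin 5 → Fin 3 := ![0, 1, 1, 2, 2]

variable {S : Sys k}

def node (ρ : S.Rule) (s : Fin 5) (m : ℕ) : Ty S :=
  if h : m < S.L then Ty.leg ρ s ⟨m, h⟩ else Ty.ctr (S.bd ρ (sl s))

def Gate.var : Gate S → Fin 5 → Option (Ty S)
  | .rule ρ, s => some (node ρ s 0)
  | .pair ρ s n, t =>
    if t = 0 then some (node ρ s n) else if t = 1 then some (node ρ s (n + 1)) else none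
  | .fact, t => if t = 0 then some (Ty.ctr S.y0) else none

def Gate.off : Gate S → Fin 5 → Fin k → Equiv.Perm S.A
  | .rule ρ, s => S.sg ρ (sl s)
  | .pair _ _ _, _ => fun _ => 1
  | .fact, _ => fun _ => 1

def Ty.cl : Ty S → S.Atom
  | .ctr c => c
  | .leg ρ s _ => S.bd ρ (sl s)

@[ext] structure Loc (S : Sys k) where
  g : Gate S
  r : Fin k
  a : S.A
  b : S.A

def Loc.ok (l : Loc S) : Prop := l.g = Gate.fact → l.a = S.j0 l.r ∧ l.b = S.j0 (S.nxt l.r)

inductive Var (S : Sys k) where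
  | X (q : Ty S) (r : Fin k) (a b : S.A)
  | W (g : Gate S) (r : Fin k) (a : S.A)

abbrev Pt := Fin 5 ⊕ Bool

def Loc.port (l : Loc S) : Pt → Option (Var S)
  | .inl s => (l.g.var s).map fun q =>
      Var.X q l.r (l.g.off s l.r l.a) (l.g.off s (S.nxt l.r) l.b)
  | .inr false => some (Var.W l.g l.r l.a)
  | .inr true => some (Var.W l.g (S.nxt l.r) l.b)

open Classical in
noncomputable def Loc.tw (l : Loc S) : ZMod 2 :=
  if l.g = Gate.rule S.ρ0 ∧ l.r = S.r0 then 1 else 0

/-- parity of the used ports -/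
def Loc.parity (l : Loc S) (val : Pt → ZMod 2) : ZMod 2 :=
  ∑ π : Pt, (l.port π).elim 0 fun _ => val π

inductive Vx (S : Sys k) where
  | gad (l : Loc S) (val : Pt → ZMod 2)
  | mk (m : Fin (S.M + 2))
  | root
  | pend (i : Fin 3)

inductive PortId (S : Sys k) where
  | var (v : Var S) (b : ZMod 2)
  | mark (m : Fin (S.M + 2))
  | succ (m : Fin (S.M + 2))
  | root

def Vx.valid (m : Bool) : Vx S → Prop
  | .gad l val => l.ok ∧ l.parity val = if m then l.tw else 0
  | _ => True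

def Vx.outP (code : Loc S → Fin 5 → Fin (S.M + 2)) : Vx S → Pt ⊕ Fin 5 → Option (PortId S)
  | .gad l val, .inl π => (l.port π).map fun v => PortId.var v (val π)
  | .gad l _, .inr t => some (PortId.mark (code l t))
  | .mk _, .inl _ => none
  | .mk m, .inr t =>
    if t = 0 then some PortId.root
    else if h : t = 1 ∧ m.val + 1 < S.M + 2 then some (PortId.succ ⟨m.val + 1, h.2⟩) else none
  | .root, _ => none
  | .pend _, .inl _ => none
  | .pend i, .inr t =>
    if t = 0 then (if i = 2 then some (PortId.mark 0) else some PortId.root) else none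

def Vx.inP : Vx S → Pt → Option (PortId S)
  | .gad l val, π => (l.port π).map fun v => PortId.var v (val π)
  | .mk _, .inl _ => none
  | .mk m, .inr false => some (PortId.mark m)
  | .mk m, .inr true => some (PortId.succ m)
  | .root, π => if π = .inr false then some PortId.root else none
  | .pend _, _ => none

def link (code : Loc S → Fin 5 → Fin (S.M + 2)) (u v : Vx S) : Prop :=
  ∃ i j p, u.outP code i = some p ∧ v.inP j = some p

def adj0 (code : Loc S → Fin 5 → Fin (S.M + 2)) (m : Bool) (u v : Vx S) : Prop :=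
  u ≠ v ∧ u.valid m ∧ v.valid m ∧ (link code u v ∨ link code v u)

/-- The two graphs (`m = false, true`), with extra isolated vertices `J`. -/
def graph (code : Loc S → Fin 5 → Fin (S.M + 2)) (J : Type) (m : Bool) :
    SimpleGraph (Vx S ⊕ J) where
  Adj u v := match u, v with
    | .inl u, .inl v => adj0 code m u v
    | _, _ => False
  symm := ⟨by
    rintro (u | u) (v | v) h
    · exact ⟨h.1.symm, h.2.2.1, h.2.1, h.2.2.2.symm⟩
    all_goals exact h⟩
  loopless := ⟨by
    rintro (u | u) h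
    · exact h.1 rfl
    · exact h⟩

/-- the configuration seen by slot `s` of rule `ρ` applied at configuration `j` -/
def app (ρ : S.Rule) (s : Fin 3) (j : Fin k → S.A) : Fin k → S.A := fun r => S.sg ρ s r (j r)

/-- Derivable atoms. -/
inductive Der (S : Sys k) : S.Atom → (Fin k → S.A) → Prop where
  | seed : Der S S.y0 S.j0
  | step (ρ : S.Rule) (j : Fin k → S.A) : ρ ≠ S.ρ0 → Der S (S.bd ρ 1) (app ρ 1 j) →
      Der S (S.bd ρ 2) (app ρ 2 j) → Der S (S.bd ρ 0) (app ρ 0 j)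

/-- Hypotheses for Duplicator: `D` is a closed set of atoms missing the goal. -/
structure DupHyp (S : Sys k) (D : S.Atom → (Fin k → S.A) → Prop) : Prop where
  hL : k + 1 < S.L
  hnxt : ∀ r, S.nxt r ≠ r
  hchi : ∀ r, ∃ χ : Fin k → ZMod 2, ∀ r',
    χ r' + χ (S.nxt r') = (if r' = S.r0 then 1 else 0) + (if r' = r then 1 else 0)
  hcyc : ∀ r, ∃ n : ℕ, S.nxt^[n] S.r0 = r
  hy0 : ∀ ρ, S.bd ρ 0 ≠ S.y0
  hy1 : ∀ ρ, S.bd ρ 1 = S.y0 → S.bd ρ 2 = S.y0 → S.sg ρ 1 = S.sg ρ 2
  seed : D S.y0 S.j0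
  closed : ∀ ρ j, D (S.bd ρ 1) (app ρ 1 j) → D (S.bd ρ 2) (app ρ 2 j) →
    D (S.bd ρ 0) (app ρ 0 j)
  goal : ∀ s j, ¬ D (S.bd S.ρ0 s) j

/-- Hypotheses for Spoiler. -/
structure SpoHyp (S : Sys k) (code : Loc S → Fin 5 → Fin (S.M + 2)) : Prop where
  hL : 1 < S.L
  hnxt : ∀ r, S.nxt r ≠ r
  hnxt2 : ∀ r, S.nxt (S.nxt r) ≠ r
  hcode1 : ∀ l t t', code l t = code l t' → t = t'
  hcode : ∀ l l', (∀ t, ∃ t', code l' t' = code l t) → l = l'
  hder : ∃ j, ∀ s, Der S (S.bd S.ρ0 s) (app S.ρ0 s j)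

end Vale.Agent.P310
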