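import Vale.Agent.P310.Defs

namespace Vale.Agent.P310

open Function

variable {V W : Type} [Fintype V] [Fintype W] {k : ℕ}

/-- A back-and-forth system for the bijective pebble game. -/
structure IsBisim (G : SimpleGraph V) (H : SimpleGraph W)
    (R : (Fin k → V) → (Fin k → W) → Prop) : Prop where
  eq_iff : ∀ x x', R x x' → ∀ i j, (x i = x j ↔ x' i = x' j)
  adj_iff : ∀ x x', R x x' → ∀ i j, (G.Adj (x i) (x j) ↔ H.Adj (x' i) (x' j))
  step : ∀ x x', R x x' → ∃ f : V ≃ W, ∀ y i, R (update x i y) (update x' i (f y))

theorem IsBisim.color_eq {G : SimpleGraph V} {H : SimpleGraph W}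
    {R : (Fin k → V) → (Fin k → W) → Prop} (h : IsBisim G H R) :
    ∀ (r : ℕ) x x', R x x' → wlColor k G r x = wlColor k H r x' := by
  intro r
  induction r with
  | zero =>
    intro x x' hR
    funext i j
    simp only [wlColor]
    exact Prod.ext (propext (h.eq_iff x x' hR i j)) (propext (h.adj_iff x x' hR i j))
  | succ r ih =>
    intro x x' hR
    obtain ⟨f, hf⟩ := h.step x x' hR
    simp only [wlColor]
    refine Prod.ext (ih x x' hR) ?_
    have : (Finset.univ : Finset W).val = (Finset.univ : Finset V).val.map f := by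
      have := Finset.map_univ_equiv f
      rw [← this]; simp
    simp only [this, Multiset.map_map]
    refine Multiset.map_congr rfl ?_
    intro y _
    funext i
    exact ih _ _ (hf y i)

open Classical in
theorem card_agree_insert {α : Type} [Fintype α] (x : Fin k → α) (s : Finset (Fin k)) (i : Fin k)
    (hi : i ∉ s) (P : (Fin k → α) → Prop) :
    (Finset.univ.filter fun z : Fin k → α => (∀ j, j ∉ insert i s → z j = x j) ∧ P z).card =
      ∑ y : α, (Finset.univ.filter fun z : Fin k → α =>
        (∀ j, j ∉ s → z j = update x i y j) ∧ P z).card := by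
  rw [Finset.card_eq_sum_card_fiberwise (f := fun z : Fin k → α => z i) (t := Finset.univ)
    (by intro z _; simp)]
  refine Finset.sum_congr rfl ?_
  intro y _
  congr 1
  ext z
  simp only [Finset.mem_filter, Finset.mem_univ, true_and, Finset.mem_insert, not_or]
  constructor
  · rintro ⟨⟨h1, h2⟩, h3⟩
    refine ⟨?_, h2⟩
    intro j hj
    by_cases hji : j = i
    · subst hji; simp [h3]
    · rw [update_of_ne hji]; exact h1 j ⟨hji, hj⟩
  · rintro ⟨h1, h2⟩
    refine ⟨⟨?_, h2⟩, ?_⟩
    · intro j hj
      rw [h1 j hj.2, update_of_ne hj.1]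
    · rw [h1 i hi]; simp

open Classical in
theorem IsBisim.card_agree {G : SimpleGraph V} {H : SimpleGraph W}
    {R : (Fin k → V) → (Fin k → W) → Prop} (h : IsBisim G H R) (r : ℕ) (c : Color k r)
    (s : Finset (Fin k)) : ∀ x x', R x x' →
    (Finset.univ.filter fun z : Fin k → V =>
        (∀ j, j ∉ s → z j = x j) ∧ wlColor k G r z = c).card =
    (Finset.univ.filter fun z : Fin k → W =>
        (∀ j, j ∉ s → z j = x' j) ∧ wlColor k H r z = c).card := by
  induction s using Finset.induction_on with
  | empty =>
    intro x x' hR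
    have e := h.color_eq r x x' hR
    have h1 : ∀ z : Fin k → V, (∀ j, j ∉ (∅ : Finset (Fin k)) → z j = x j) ↔ z = x := by
      intro z; simp [funext_iff]
    have h2 : ∀ z : Fin k → W, (∀ j, j ∉ (∅ : Finset (Fin k)) → z j = x' j) ↔ z = x' := by
      intro z; simp [funext_iff]
    simp only [h1, h2]
    by_cases hc : wlColor k G r x = c
    · have hc' : wlColor k H r x' = c := e ▸ hc
      rw [Finset.card_eq_one.2 ⟨x, ?_⟩, Finset.card_eq_one.2 ⟨x', ?_⟩]
      · ext z; simp only [Finset.mem_filter, Finset.mem_univ, true_and, Finset.mem_singleton]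
        exact ⟨fun h => h.1, fun h => ⟨h, h ▸ hc'⟩⟩
      · ext z; simp only [Finset.mem_filter, Finset.mem_univ, true_and, Finset.mem_singleton]
        exact ⟨fun h => h.1, fun h => ⟨h, h ▸ hc⟩⟩
    · have hc' : ¬ wlColor k H r x' = c := e ▸ hc
      rw [Finset.card_eq_zero.2 ?_, Finset.card_eq_zero.2 ?_]
      · ext z; simp only [Finset.mem_filter, Finset.mem_univ, true_and, Finset.notMem_empty,
          iff_false, not_and]
        rintro rfl; exact hc'
      · ext z; simp only [Finset.mem_filter, Finset.mem_univ, true_and, Finset.notMem_empty,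
          iff_false, not_and]
        rintro rfl; exact hc
  | insert i s hi ih =>
    intro x x' hR
    obtain ⟨f, hf⟩ := h.step x x' hR
    rw [card_agree_insert x s i hi, card_agree_insert x' s i hi, ← Equiv.sum_comp f]
    refine Finset.sum_congr rfl ?_
    intro y _
    exact ih _ _ (hf y i)

theorem IsBisim.wlEquiv {G : SimpleGraph V} {H : SimpleGraph W}
    {R : (Fin k → V) → (Fin k → W) → Prop} (h : IsBisim G H R) {x : Fin k → V} {x' : Fin k → W}
    (hx : R x x') : WLEquiv k G H := by
  classical
  intro r
  ext c
  have := h.card_agree r c Finset.univ x x' hx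
  simp only [Finset.mem_univ, not_true_eq_false, IsEmpty.forall_iff, implies_true, true_and] at this
  rw [Multiset.count_map, Multiset.count_map]
  simp only [Finset.card, Finset.filter_val] at this
  simpa only [eq_comm] using this

/-- Stable equivalence of tuples. -/
def Sim (G : SimpleGraph V) (H : SimpleGraph W) (x : Fin k → V) (x' : Fin k → W) : Prop :=
  ∀ r, wlColor k G r x = wlColor k H r x'

theorem color_mono {G : SimpleGraph V} {H : SimpleGraph W} {x : Fin k → V} {x' : Fin k → W}
    {r r' : ℕ} (hr : r ≤ r') (h : wlColor k G r' x = wlColor k H r' x') :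
    wlColor k G r x = wlColor k H r x' := by
  induction r', hr using Nat.le_induction with
  | base => exact h
  | succ m _ ih => exact ih (congrArg Prod.fst h)

theorem exists_forall_of_mono {α : Type} [Finite α] (P : α → ℕ → Prop)
    (hmono : ∀ a r r', r ≤ r' → P a r' → P a r) (h : ∀ r, ∃ a, P a r) : ∃ a, ∀ r, P a r := by
  by_contra hne
  push Not at hne
  choose g hg using hne
  haveI := Fintype.ofFinite α
  obtain ⟨a, ha⟩ := h (Finset.univ.sup g)
  exact hg a (hmono a _ _ (Finset.le_sup (f := g) (Finset.mem_univ a)) ha)

theorem exists_equiv_of_map_eq {α β γ : Type} [Fintype α] [Fintype β] (f : α → γ) (g : β → γ)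
    (h : (Finset.univ : Finset α).val.map f = (Finset.univ : Finset β).val.map g) :
    ∃ e : α ≃ β, ∀ a, f a = g (e a) := by
  classical
  have hc : ∀ c : γ, Fintype.card {a // f a = c} = Fintype.card {b // g b = c} := by
    intro c
    have := congrArg (Multiset.count c) h
    rw [Multiset.count_map, Multiset.count_map] at this
    rw [Fintype.card_subtype, Fintype.card_subtype]
    simp only [Finset.card, Finset.filter_val]
    simpa only [eq_comm] using this
  refine ⟨Equiv.ofFiberEquiv (f := f) (g := g) fun c => Fintype.equivOfCardEq (hc c), ?_⟩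
  intro a
  exact (Equiv.ofFiberEquiv_map _ a).symm

theorem sim_isBisim (G : SimpleGraph V) (H : SimpleGraph W) :
    IsBisim (k := k) G H (Sim G H) where
  eq_iff x x' h i j := by
    have := congrArg Prod.fst (congrFun (congrFun (h 0) i) j)
    simpa [wlColor] using this
  adj_iff x x' h i j := by
    have := congrArg Prod.snd (congrFun (congrFun (h 0) i) j)
    simpa [wlColor] using this
  step x x' h := by
    classical
    have : ∃ f : V ≃ W, ∀ r, ∀ y i,
        wlColor k G r (update x i y) = wlColor k H r (update x' i (f y)) := by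
      apply exists_forall_of_mono
      · intro f r r' hr hf y i
        exact color_mono hr (hf y i)
      · intro r
        have := congrArg Prod.snd (h (r + 1))
        obtain ⟨e, he⟩ := exists_equiv_of_map_eq _ _ this
        exact ⟨e, fun y i => congrFun (he y) i⟩
    obtain ⟨f, hf⟩ := this
    exact ⟨f, fun y i r => hf r y i⟩

theorem WLEquiv.exists_sim {G : SimpleGraph V} {H : SimpleGraph W} (h : WLEquiv k G H)
    (x : Fin k → V) : ∃ x', Sim G H x x' := by
  apply exists_forall_of_mono (fun x' r => wlColor k G r x = wlColor k H r x')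
  · intro a r r' hr h; exact color_mono hr h
  · intro r
    obtain ⟨e, he⟩ := exists_equiv_of_map_eq _ _ (h r)
    exact ⟨e x, he x⟩

theorem wlColor_comap {V' : Type} [Fintype V'] (G : SimpleGraph V) (e : V' ≃ V) (r : ℕ) :
    ∀ x : Fin k → V', wlColor k (G.comap e) r x = wlColor k G r (e ∘ x) := by
  intro x
  have hb : IsBisim (k := k) (G.comap e) G (fun x x' => x' = e ∘ x) :=
    { eq_iff := by rintro x _ rfl i j; simp
      adj_iff := by rintro x _ rfl i j; simp
      step := by
        rintro x _ rfl
        refine ⟨e, fun y i => ?_⟩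
        rw [Function.comp_update] }
  exact hb.color_eq r x _ rfl

theorem wlEquiv_comap {V' W' : Type} [Fintype V'] [Fintype W'] (G : SimpleGraph V)
    (H : SimpleGraph W) (e : V' ≃ V) (e' : W' ≃ W) :
    WLEquiv k (G.comap e) (H.comap e') ↔ WLEquiv k G H := by
  have key : ∀ {A B : Type} [Fintype A] [Fintype B] (X : SimpleGraph B) (e : A ≃ B) (r : ℕ),
      (Finset.univ : Finset (Fin k → A)).val.map (wlColor k (X.comap e) r) =
      (Finset.univ : Finset (Fin k → B)).val.map (wlColor k X r) := by
    intro A B _ _ X e r
    have h1 := Finset.map_univ_equiv (Equiv.piCongrRight fun _ : Fin k => e)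
    rw [← h1]
    simp only [Finset.map_val, Multiset.map_map]
    refine Multiset.map_congr rfl ?_
    intro x _
    rw [wlColor_comap]
    rfl
  unfold WLEquiv
  simp only [key]

end Vale.Agent.P310
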